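import Vale.Agent.P240.R2.AS.Stmts3
import Vale.Agent.P240.R2.H275.Bridge

/-!
Assembly of `StmtAS`.
-/

set_option autoImplicit false

namespace Vale.Agent.P240.R2.H63.As

open Finset Matrix Vale.Agent.P240 Vale.Agent.P240.K Vale.Agent.P240.R2.AS
open Vale.Agent.P240.R2.H986 (ev ev_eq_zero)
open Vale.Agent.P240.R2.H275 (QuillenDim quillenDim_sub Tp_map quillenDim_of_rat)
open scoped Classical

universe u v w

section general

variable {𝕜 : Type v} [Field 𝕜] {p : ℕ} {A : Type u} {B : Type w} [Group A] [Group B]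

lemma qd_map {f : A →* B} (hf : Function.Injective f) (H : Subgroup A) :
    QuillenDim 𝕜 p (H.map f) ↔ QuillenDim 𝕜 p H := by
  rw [quillenDim_sub, quillenDim_sub]
  exact exists_congr fun m => Tp_map hf H

lemma qd_of (H : Subgroup A) (r : ℕ)
    (hr : ∀ E : Subgroup A, E ≤ H → (∀ x ∈ E, ∀ y ∈ E, x * y = y * x) → (∀ x ∈ E, x ^ p = 1) →
      Nat.card E ≤ p ^ r)
    (hc : ∃ c : List (Ap p H) →₀ ℚ, IsChain r c ∧ bd c = 0 ∧ c ≠ 0) : QuillenDim ℚ p H := by
  refine ⟨r, fun E => ?_, hc⟩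
  have h := hr (E.1.map H.subtype) ?_ ?_ ?_
  · rwa [Subgroup.card_map_of_injective H.subtype_injective] at h
  · rintro _ ⟨y, _, rfl⟩
    exact y.2
  · rintro _ ⟨x, hx, rfl⟩ _ ⟨y, hy, rfl⟩
    rw [← map_mul, ← map_mul, E.2.2.1 x hx y hy]
  · rintro _ ⟨x, hx, rfl⟩
    rw [← map_pow, E.2.2.2 x hx, map_one]

end general

section words

variable {L : Type u} [Fintype L]

lemma exists_z {F : Finset (List L)} (hperm : ∀ w ∈ F, ∀ w', w.Perm w' → w' ∈ F) (h : 0 < t F) :
    ∃ z ∈ SOL F, ∃ f ∈ F, ev z f [] [] ≠ 0 := by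
  by_contra hcon
  push Not at hcon
  have : (SOL F).map (bm L) = ⊥ := by
    rw [eq_bot_iff]
    rintro _ ⟨z, hz, rfl⟩
    rw [Submodule.mem_bot]
    funext g
    show ev z g [] [] = 0
    by_cases hg : g ∈ F
    · exact hcon z hz g hg
    · refine ev_eq_zero g [] [] fun w hw => ?_
      refine hz.1 w fun hwF => hg (hperm w hwF g ?_)
      simpa using hw
  rw [t, this, finrank_bot] at h
  exact lt_irrefl _ h

end words

section groups

variable {K : Type u} [Field K] [StarRing K] {n : ℕ}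

instance [Fintype K] : Finite (SA K) := by
  haveI : Finite (RingAut K) := Finite.of_injective (fun f : RingAut K => (f : K → K)) DFunLike.coe_injective
  infer_instance

instance [Fintype K] : Finite (PGU K n) := by
  haveI : Finite (GU K n) := by
    haveI : Finite (Matrix (Fin n) (Fin n) K) := inferInstanceAs (Finite (Fin n → Fin n → K))
    infer_instance
  infer_instance

instance [Fintype K] : Finite (PGamU K n) :=
  Finite.of_equiv _ SemidirectProduct.equivProd.symm

/-- `PGU_n(q)` in `PΓU_n(q)` -/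
noncomputable def il (K : Type u) [Field K] [StarRing K] (n : ℕ) : PGU K n →* PGamU K n :=
  SemidirectProduct.inl

lemma il_inj : Function.Injective (il K n) := SemidirectProduct.inl_injective

lemma mem_range_il {x : PGamU K n} (h : x.right = 1) : il K n x.left = x := by
  refine SemidirectProduct.ext ?_ ?_
  · show (SemidirectProduct.inl x.left : PGamU K n).left = x.left
    rw [SemidirectProduct.left_inl]
  · show (SemidirectProduct.inl x.left : PGamU K n).right = x.right
    rw [SemidirectProduct.right_inl, h]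

lemma map_comap_il {E : Subgroup (PGamU K n)} (h : ∀ x ∈ E, x.right = 1) :
    (E.comap (il K n)).map (il K n) = E := by
  refine Subgroup.map_comap_eq_self fun x hx => ⟨x.left, mem_range_il (h x hx)⟩

lemma ker_right : (SemidirectProduct.rightHom : PGamU K n →* SA K).ker = (il K n).range :=
  SemidirectProduct.range_inl_eq_ker_rightHom.symm

lemma inf_ker (E : Subgroup (PGamU K n)) :
    E ⊓ (SemidirectProduct.rightHom : PGamU K n →* SA K).ker = (E.comap (il K n)).map (il K n) := by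
  rw [ker_right, Subgroup.map_comap_eq, inf_comm]

lemma card_inf_ker (E : Subgroup (PGamU K n)) :
    Nat.card ↥(E ⊓ (SemidirectProduct.rightHom : PGamU K n →* SA K).ker) =
      Nat.card (E.comap (il K n)) := by
  rw [inf_ker, Subgroup.card_map_of_injective il_inj]

/-- `PSU_n(q)` is normal in `PGU_n(q)` -/
instance psu_normal : (PSU K n).Normal := by
  haveI : (SU K n).Normal := MonoidHom.normal_ker _
  exact Subgroup.Normal.map inferInstance _ (QuotientGroup.mk'_surjective _)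

lemma act_psu (σ : SA K) {x : PGU K n} (hx : x ∈ PSU K n) : act n σ x ∈ PSU K n := by
  obtain ⟨g, hg, rfl⟩ := hx
  refine ⟨mapGU σ g, ?_, rfl⟩
  have h1 : Matrix.det g.1 = 1 := hg
  show Matrix.det (g.1.map σ.1) = 1
  have h2 := RingHom.map_det (σ.1 : K ≃+* K).toRingHom g.1
  rw [h1, map_one] at h2
  exact h2.symm

instance psu'_normal : (PSU' K n).Normal := by
  constructor
  rintro _ ⟨x, hx, rfl⟩ y
  have hy : y = SemidirectProduct.inl y.left * SemidirectProduct.inr y.right :=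
    (SemidirectProduct.inl_left_mul_inr_right y).symm
  have h1 : SemidirectProduct.inr y.right * SemidirectProduct.inl x *
      (SemidirectProduct.inr y.right)⁻¹ = (SemidirectProduct.inl (act n y.right x) : PGamU K n) := by
    rw [SemidirectProduct.inl_aut, map_inv]
  have h2 : y * SemidirectProduct.inl x * y⁻¹ =
      SemidirectProduct.inl (y.left * act n y.right x * y.left⁻¹) := by
    rw [map_mul, map_mul, ← h1, map_inv]
    conv_lhs => rw [hy]
    group
  rw [h2]
  exact ⟨_, psu_normal.conj_mem _ (act_psu _ hx) _, rfl⟩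

/-- subgroups of `PΓU` that contain `PSU` and an elementary abelian subgroup -/
lemma comap_sup (E : Subgroup (PGamU K n)) :
    (PSU' K n ⊔ E).comap (il K n) = PSU K n ⊔ E.comap (il K n) := by
  apply le_antisymm
  · intro x hx
    have hx' : il K n x ∈ PSU' K n ⊔ E := hx
    rw [Subgroup.mem_sup_of_normal_left] at hx'
    obtain ⟨y, ⟨y', hy', rfl⟩, z, hz, hyz⟩ := hx'
    have hz' : z = il K n (y'⁻¹ * x) := by
      rw [map_mul, map_inv, ← hyz]
      show z = (il K n y')⁻¹ * (il K n y' * z)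
      group
    have h1 : y'⁻¹ * x ∈ E.comap (il K n) := by
      show il K n (y'⁻¹ * x) ∈ E
      rwa [← hz']
    have h2 : x = y' * (y'⁻¹ * x) := by group
    rw [h2]
    exact Subgroup.mul_mem_sup hy' h1
  · refine sup_le ?_ ?_
    · intro x hx
      exact Subgroup.mem_sup_left (S := PSU' K n) ⟨x, hx, rfl⟩
    · intro x hx
      exact Subgroup.mem_sup_right hx

lemma comap_comm {E : Subgroup (PGamU K n)} (h : ∀ x ∈ E, ∀ y ∈ E, x * y = y * x) :
    ∀ x ∈ E.comap (il K n), ∀ y ∈ E.comap (il K n), x * y = y * x := by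
  intro x hx y hy
  apply il_inj
  rw [map_mul, map_mul]
  exact h _ hx _ hy

lemma comap_pow {p : ℕ} {E : Subgroup (PGamU K n)} (h : ∀ x ∈ E, x ^ p = 1) :
    ∀ x ∈ E.comap (il K n), x ^ p = 1 := by
  intro x hx
  apply il_inj
  rw [map_pow, map_one]
  exact h _ hx

end groups

section main

/-- `PSU_n(q)`, `(q + 1)_p ∣ n` -/
lemma psu_case (hM2 : StmtM2.{u}) (hSUB : StmtSUB.{u, u}) (hA2 : StmtA2.{u}) (hA3 : StmtA3.{u})
    (K : Type u) [Field K] [Fintype K] [StarRing K] (q : ℕ) (hq : 3 ≤ q) (hK : Nat.card K = q ^ 2)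
    (hs : ∀ x : K, star x = x ^ q) (p : ℕ) [Fact p.Prime] (hp2 : p ≠ 2) (hpq : p ∣ q + 1) {ζ : K}
    (h1 : ζ ^ p = 1) (h2 : ζ ≠ 1) (h3 : ζ * star ζ = 1) (n : ℕ) (hn : 2 ≤ n)
    (hv : p ^ (padicValNat p (q + 1)) ∣ n) (h33 : ¬ (p = 3 ∧ n = 3)) :
    QuillenDim ℚ p (PSU K n) := by
  have hp : p.Prime := Fact.out
  have hpn : p ∣ n := by
    refine dvd_trans (dvd_pow_self p ?_) hv
    have : 1 ≤ padicValNat p (q + 1) := one_le_padicValNat_of_dvd (by omega) hpq
    omega
  have hp3 : 3 ≤ p := by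
    have := hp.two_le
    omega
  have hn3 : 3 ≤ n := hp3.trans (Nat.le_of_dvd (by omega) hpn)
  obtain ⟨m, rfl⟩ : ∃ m, n = m + 1 := ⟨n - 1, by omega⟩
  obtain ⟨hC, hmem⟩ := hA2 K q hq hK hs p ζ h1 h2 h3 m (by omega) hpn
  have ht : 0 < t (Fr K m) := by
    have := hM2 K q hq hK hs m (by omega)
    by_contra h0
    have h0' : t (Fr K m) = 0 := by omega
    rw [h0', mul_zero] at this
    omega
  obtain ⟨z, hz, f, hf, hne⟩ := exists_z hC.perm ht
  have hO : ∀ u v : List (Ln K m), u ++ v ∈ Fr K m → eW' ζ u ∈ PSU K (m + 1) := by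
    intro u v huv
    exact hmem u (List.pairwise_append.1 ((mem_Fr K).1 huv).2).1
  obtain ⟨c, hc⟩ := hSUB p m (PGU K (m + 1)) (Ln K m) (Fr K m) (eW' ζ) (by omega) hC
    (PSU K (m + 1)) hO z hz f hf hne
  refine qd_of _ (m - 1) ?_ ⟨c, hc⟩
  intro E hE hEc hEp
  exact hA3 K q hq hK hs p hpq hp2 (m + 1) hv (by omega) h33 E hE hEc hEp

theorem stmtAS (hM2 : StmtM2.{u}) (hM4 : StmtM4.{u}) (hM6 : StmtM6.{u, 0}) (hSUB : StmtSUB.{u, u})
    (hA1 : StmtA1.{u}) (hA2 : StmtA2.{u}) (hA3 : StmtA3.{u}) (hA4 : StmtA4.{u}) (hA5 : StmtA5.{u})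
    (hA7 : StmtA7.{u}) (hA8 : StmtA8.{u}) (hREL : StmtREL.{u}) (hCYC : StmtCYC.{u})
    (hLTE : StmtLTE.{u})
    (hζ : ∀ (K : Type u) [Field K] [Fintype K] [StarRing K] (q : ℕ), 3 ≤ q → Nat.card K = q ^ 2 →
      (∀ x : K, star x = x ^ q) → ∀ (p : ℕ) [Fact p.Prime], p ∣ q + 1 →
      ∃ ζ : K, ζ ^ p = 1 ∧ ζ ≠ 1 ∧ ζ * star ζ = 1) : StmtAS.{u, v} := by
  intro K _ _ _ q hq hK hs p _ hp2 hpq n hn E hEc hEp h83 𝕜 _
  apply quillenDim_of_rat
  obtain ⟨ζ, h1, h2, h3⟩ := hζ K q hq hK hs p hpq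
  have hp : p.Prime := Fact.out
  by_cases hE1 : ∀ x ∈ E, x.right = 1
  · -- inside `PGU`
    have hE0 := map_comap_il hE1
    set E0 := E.comap (il K n) with hE0def
    have hH : PSU' K n ⊔ E = (PSU K n ⊔ E0).map (il K n) := by
      rw [Subgroup.map_sup, hE0]
      rfl
    rw [hH, qd_map il_inj]
    have hrel := hREL K p n E0 (comap_comm hEc) (comap_pow hEp)
    by_cases hc : ¬ p ^ (padicValNat p (q + 1)) ∣ n ∨ PSU K n ⊔ E0 ≠ PSU K n
    · exact hM6 K q hq hK hs p hpq n (by omega) (Or.inl hp2) ζ h1 h2 _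
        (hA1 K q hq hK hs p hpq ζ h1 h2 n (by omega) _ le_sup_left hrel hc) ℚ
    · push Not at hc
      rw [hc.2]
      by_cases h33 : p = 3 ∧ n = 3
      · obtain ⟨rfl, rfl⟩ := h33
        refine hA4 K q hq hK hs hpq fun h9 => ?_
        have hv2 : 2 ≤ padicValNat 3 (q + 1) := by
          rw [← padicValNat_dvd_iff_le (by omega)]
          exact h9
        have := Nat.le_of_dvd (by norm_num) ((pow_dvd_pow 3 hv2).trans hc.1)
        norm_num at this
      · exact psu_case hM2 hSUB hA2 hA3 K q hq hK hs p hp2 hpq h1 h2 h3 n hn hc.1 h33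
  · push Not at hE1
    obtain ⟨x, hxE, hx1⟩ := hE1
    have h83' : ¬ (p = 3 ∧ q = 8) := fun h => hx1 (h83 h x hxE)
    obtain ⟨h, hxh⟩ := hA5 K q hq hK hs p hp2 hpq n (by omega) x (hEp x hxE) hx1
    set σ := x.right with hσ
    have hσp : orderOf σ = p := by
      refine orderOf_eq_prime ?_ hx1
      have := congrArg (SemidirectProduct.rightHom : PGamU K n →* SA K) (hEp x hxE)
      rw [map_pow, map_one] at this
      exact this
    set g : PGamU K n := SemidirectProduct.inl h with hg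
    set E' := E.map (MulAut.conj g⁻¹).toMonoidHom with hE'
    have hE'c : ∀ x ∈ E', ∀ y ∈ E', x * y = y * x := by
      rintro _ ⟨a, ha, rfl⟩ _ ⟨b, hb, rfl⟩
      rw [← map_mul, ← map_mul, hEc a ha b hb]
    have hE'p : ∀ x ∈ E', x ^ p = 1 := by
      rintro _ ⟨a, ha, rfl⟩
      rw [← map_pow, hEp a ha, map_one]
    have hinr : SemidirectProduct.inr σ ∈ E' := by
      refine ⟨x, hxE, ?_⟩
      show g⁻¹ * x * g⁻¹⁻¹ = _
      rw [hxh]
      group
    have hH : (PSU' K n ⊔ E).map (MulAut.conj g⁻¹).toMonoidHom = PSU' K n ⊔ E' := by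
      rw [Subgroup.map_sup]
      congr 1
      apply le_antisymm
      · rintro _ ⟨a, ha, rfl⟩
        exact psu'_normal.conj_mem a ha g⁻¹
      · intro a ha
        refine ⟨g * a * g⁻¹, psu'_normal.conj_mem a ha g, ?_⟩
        show g⁻¹ * (g * a * g⁻¹) * g⁻¹⁻¹ = a
        group
    rw [← qd_map (f := (MulAut.conj g⁻¹).toMonoidHom) (MulAut.conj g⁻¹).injective, hH]
    have hrel := hREL K p n (E'.comap (il K n)) (comap_comm hE'c) (comap_pow hE'p)
    by_cases hc : ¬ p ^ (padicValNat p (q + 1)) ∣ n ∨ PSU K n ⊔ E'.comap (il K n) ≠ PSU K n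
    · have hall := hA1 K q hq hK hs p hpq ζ h1 h2 n (by omega) _ le_sup_left hrel hc
      rw [← comap_sup] at hall
      refine qd_of _ n ?_ (hA7 K q hq hK hs p hp2 hpq h83' n hn ζ h1 h2 σ hσp _ le_sup_left
        (Subgroup.mem_sup_right hinr) hall)
      intro D hD hDc hDp
      refine (hCYC K p n D hDc hDp).trans ?_
      rw [card_inf_ker]
      have := hM4 K q (by omega) hK hs p hpq n (by omega) (Or.inl hp2) (D.comap (il K n))
        (comap_comm hDc) (comap_pow hDp)
      calc p * Nat.card (D.comap (il K n)) ≤ p * p ^ (n - 1) := Nat.mul_le_mul_left _ this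
        _ = p ^ n := by rw [← pow_succ']; congr 1; omega
    · push Not at hc
      have hv2 : 2 ≤ padicValNat p (q + 1) := by
        rw [← padicValNat_dvd_iff_le (by omega)]
        exact hLTE K q hq hK hs p hp2 hpq σ hσp
      have hpn : p ∣ n := (dvd_pow_self p (by omega)).trans hc.1
      have h33 : ¬ (p = 3 ∧ n = 3) := by
        rintro ⟨rfl, rfl⟩
        have := Nat.le_of_dvd (by norm_num) ((pow_dvd_pow 3 hv2).trans hc.1)
        norm_num at this
      refine qd_of _ (n - 1) ?_ (hA8 K q hq hK hs p hp2 hpq h83' n hn hpn σ hσp _ le_sup_left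
        (Subgroup.mem_sup_right hinr))
      intro D hD hDc hDp
      refine (hCYC K p n D hDc hDp).trans ?_
      rw [card_inf_ker]
      have hD0 : D.comap (il K n) ≤ PSU K n := by
        rw [← hc.2, ← comap_sup]
        exact Subgroup.comap_mono hD
      have := hA3 K q hq hK hs p hpq hp2 n hc.1 (by omega) h33 (D.comap (il K n)) hD0
        (comap_comm hDc) (comap_pow hDp)
      calc p * Nat.card (D.comap (il K n)) ≤ p * p ^ (n - 2) := Nat.mul_le_mul_left _ this
        _ = p ^ (n - 1) := by rw [← pow_succ']; congr 1; omega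

end main

end Vale.Agent.P240.R2.H63.As
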