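import Vale.Agent.P240.R2.AS.Stmts5
import Vale.Agent.P240.R2.H63.AsFin

/-!
Assembly of `StmtASa`.
-/

set_option autoImplicit false

namespace Vale.Agent.P240.R2.H63.As

open Finset Matrix Vale.Agent.P240 Vale.Agent.P240.K Vale.Agent.P240.R2.AS
open Vale.Agent.P240.R2.H275 (QuillenDim quillenDim_sub Tp_map quillenDim_of_rat Tp)
open scoped Classical

universe u v w

noncomputable section

variable {K : Type u} [Field K] [StarRing K] {n : ℕ}

/-- `PSU_n(q)` and its copy in `PΓU_n(q)` -/
def psuEquiv (K : Type u) [Field K] [StarRing K] (n : ℕ) : ↥(PSU K n) ≃* ↥(PSU' K n) :=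
  Subgroup.equivMapOfInjective (PSU K n) (il K n) il_inj

lemma psuEquiv_coe (y : ↥(PSU K n)) : ((psuEquiv K n y : ↥(PSU' K n)) : PGamU K n) = il K n y := rfl

/-- the action of `PΓU_n(q)` on `PSU_n(q)` by conjugation -/
def th (K : Type u) [Field K] [StarRing K] (n : ℕ) : PGamU K n →* MulAut ↥(PSU K n) where
  toFun x := (psuEquiv K n).trans (((MulAut.conjNormal (H := PSU' K n)) x).trans (psuEquiv K n).symm)
  map_one' := by
    ext y
    simp
  map_mul' x y := by
    ext z
    simp

lemma th_apply (x : PGamU K n) (y : ↥(PSU K n)) : il K n (th K n x y) = x * il K n y * x⁻¹ := by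
  have h : psuEquiv K n (th K n x y) = MulAut.conjNormal x (psuEquiv K n y) := by
    simp [th]
  have h2 := congrArg (Subtype.val) h
  rw [psuEquiv_coe, MulAut.conjNormal_apply, psuEquiv_coe] at h2
  exact h2

lemma th_inj {h : ∀ x : PGamU K n, (∀ y ∈ PSU' K n, x * y = y * x) → x = 1} :
    Function.Injective (th K n) := by
  rw [injective_iff_map_eq_one]
  intro x hx
  apply h
  rintro _ ⟨y, hy, rfl⟩
  have h1 := th_apply x ⟨y, hy⟩
  rw [hx] at h1
  have h2 : il K n y = x * il K n y * x⁻¹ := h1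
  have h3 : il K n y * x = x * il K n y := by
    conv_lhs => rw [h2]
    group
  exact h3.symm

lemma th_surj {h : ∀ α : MulAut ↥(PSU K n),
    ∃ (s : SA K) (g : GU K n), ∀ y : ↥(PSU K n),
      ((α y : ↥(PSU K n)) : PGU K n) =
        (QuotientGroup.mk g : PGU K n) * act n s (y : PGU K n) * (QuotientGroup.mk g : PGU K n)⁻¹} :
    Function.Surjective (th K n) := by
  intro α
  obtain ⟨s, g, hg⟩ := h α
  refine ⟨il K n (QuotientGroup.mk g) * SemidirectProduct.inr s, ?_⟩
  ext y
  apply il_inj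
  rw [th_apply, hg y, map_mul, map_mul, map_inv]
  have h1 : SemidirectProduct.inr s * il K n (y : PGU K n) * (SemidirectProduct.inr s)⁻¹ =
      il K n (act n s (y : PGU K n)) := by
    show _ = SemidirectProduct.inl _
    rw [SemidirectProduct.inl_aut, map_inv]
    rfl
  rw [← h1]
  group

lemma th_psu : (PSU' K n).map (th K n) = (MulAut.conj (G := ↥(PSU K n))).range := by
  ext α
  constructor
  · rintro ⟨_, ⟨y, hy, rfl⟩, rfl⟩
    refine ⟨⟨y, hy⟩, ?_⟩
    ext z
    apply il_inj
    have := th_apply (il K n y) z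
    rw [← map_mul, ← map_inv, ← map_mul] at this
    exact this.symm
  · rintro ⟨y, rfl⟩
    refine ⟨il K n y, ⟨y, y.2, rfl⟩, ?_⟩
    ext z
    apply il_inj
    have := th_apply (il K n y) z
    rw [← map_mul, ← map_inv, ← map_mul] at this
    exact this

theorem stmtASa (hAS : StmtAS.{u, v}) (hTR : StmtTR.{u}) (hINJ : StmtINJ.{u}) : StmtASa.{u, v} := by
  intro K _ _ _ q hq hK hs hqo p _ hp2 hpq n hn E hEc hEp 𝕜 _
  have hinj : Function.Injective (th K n) := th_inj (h := hINJ K q hq hK hs hqo n hn)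
  have hq3 : 3 < q := by
    rcases Nat.lt_or_ge 3 q with h | h
    · exact h
    · exfalso
      have hq' : q = 3 := le_antisymm h hq
      subst hq'
      have hp : p.Prime := Fact.out
      have h4 : p ∣ 2 ^ 2 := by norm_num at hpq ⊢; exact hpq
      exact hp2 ((Nat.prime_dvd_prime_iff_eq hp Nat.prime_two).1 (hp.dvd_of_dvd_pow h4))
  have hsurj : Function.Surjective (th K n) := th_surj (h := hTR K q hq3 hK hs hqo n hn)
  set E0 := E.comap (th K n) with hE0
  have hE : E0.map (th K n) = E := Subgroup.map_comap_eq_self_of_surjective hsurj E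
  have h1 : (MulAut.conj (G := ↥(PSU K n))).range ⊔ E = (PSU' K n ⊔ E0).map (th K n) := by
    rw [Subgroup.map_sup, th_psu, hE]
  rw [h1, qd_map hinj]
  refine hAS K q hq hK hs p hp2 hpq n (by omega) E0 ?_ ?_ ?_ 𝕜
  · intro x hx y hy
    apply hinj
    rw [map_mul, map_mul]
    exact hEc _ hx _ hy
  · intro x hx
    apply hinj
    rw [map_pow, map_one]
    exact hEp _ hx
  · rintro ⟨_, rfl⟩
    exact absurd hqo (by norm_num)

end

end Vale.Agent.P240.R2.H63.As
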