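import Vale.Agent.P240.R2.AS.Stmts5
import Vale.Agent.P240.R2.H296.Cen
import Vale.Agent.P240.R2.H472.Nrm
import Vale.Agent.P240.R2.H986.A5c

/-!
`StmtINJ`: the centralizer of `PSU_n(q)` in `PΓU_n(q)` is trivial, `n ≥ 3`.
-/

set_option autoImplicit false
set_option linter.unusedSectionVars false

namespace Vale.Agent.P240.R2.H63.Inj

open Finset Matrix Vale.Agent.P240.R2.AS
open scoped Classical

universe u

variable {K : Type u} [Field K] [StarRing K] {n : ℕ}

/-- the unitary transvections -/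
def tvM (l : K) (v : Fin n → K) : Matrix (Fin n) (Fin n) K := 1 + l • vecMulVec v (star v)

lemma tvM_det {l : K} {v : Fin n → K} (hv : star v ⬝ᵥ v = 0) : (tvM l v).det = 1 := by
  rw [tvM, vecMulVec_eq Unit, ← Matrix.smul_mul]
  have : l • replicateCol Unit v = replicateCol Unit (l • v) := by
    ext i j
    simp
  rw [this, det_one_add_replicateCol_mul_replicateRow, dotProduct_smul, hv]
  simp

lemma tvM_mem {l : K} {v : Fin n → K} (hl : l + star l = 0) (hv : star v ⬝ᵥ v = 0) :
    tvM l v ∈ unitaryGroup (Fin n) K := by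
  have h1 : star (vecMulVec v (star v)) = vecMulVec v (star v) := by
    rw [star_eq_conjTranspose, conjTranspose_vecMulVec, star_star]
  have h2 : vecMulVec v (star v) * vecMulVec v (star v) = 0 := by
    rw [vecMulVec_mul_vecMulVec, hv]
    simp
  rw [mem_unitaryGroup_iff, tvM, star_add, star_one, star_smul, h1, add_mul, one_mul, mul_add,
    mul_one, smul_mul_smul_comm, h2, smul_zero, add_zero, add_assoc, ← add_smul, add_comm (star l),
    hl, zero_smul, add_zero]

lemma tvM_map (σ : SA K) (l : K) (v : Fin n → K) :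
    (tvM l v).map σ.1 = tvM (σ.1 l) (fun i => σ.1 (v i)) := by
  ext i j
  simp only [tvM, Matrix.map_apply, Matrix.add_apply, Matrix.smul_apply, vecMulVec_apply,
    Pi.star_apply, smul_eq_mul, map_add, map_mul, SA_star, Matrix.one_apply]
  split_ifs <;> simp

lemma eig (hn : 3 ≤ n) {g : GU K n} {σ : SA K}
    (H : ∀ h : GU K n, h.1.det = 1 → ∃ c : K, g.1 * h.1.map σ.1 = c • (h.1 * g.1))
    {l : K} (hl : l + star l = 0) (hl0 : l ≠ 0) {v : Fin n → K} (hv : star v ⬝ᵥ v = 0)
    {k : Fin n} (hk : v k ≠ 0) : ∃ a : K, g.1 *ᵥ (fun i => σ.1 (v i)) = a • v := by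
  set v' : Fin n → K := fun i => σ.1 (v i) with hv'
  obtain ⟨c, hc⟩ := H ⟨tvM l v, tvM_mem hl hv⟩ (tvM_det hv)
  have hc' : g.1 * (tvM l v).map σ.1 = c • (tvM l v * g.1) := hc
  rw [tvM_map, ← hv', tvM, tvM, Matrix.mul_add, Matrix.add_mul, Matrix.mul_one, Matrix.one_mul,
    Matrix.mul_smul, mul_vecMulVec, Matrix.smul_mul, vecMulVec_mul] at hc'
  have hsum : (1 - c) • g.1 = (c * l) • vecMulVec v (star v ᵥ* g.1) -
      σ.1 l • vecMulVec (g.1 *ᵥ v') (star v') := by
    rw [sub_smul, one_smul, eq_sub_iff_add_eq]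
    rw [smul_add, smul_smul] at hc'
    rw [sub_add_eq_add_sub, hc']
    abel
  have hc1 : c = 1 := by
    let L : (Fin n → K) →ₗ[K] (Fin 2 → K) := (Matrix.of ![star v ᵥ* g.1, star v']).mulVecLin
    have hker : LinearMap.ker L ≠ ⊥ := LinearMap.ker_ne_bot_of_finrank_lt (by simp; omega)
    obtain ⟨w, hw, hw0⟩ := Submodule.exists_mem_ne_zero_of_ne_bot hker
    have hw1 := congrFun (LinearMap.mem_ker.1 hw) 0
    have hw2 := congrFun (LinearMap.mem_ker.1 hw) 1
    have e1 : (star v ᵥ* g.1) ⬝ᵥ w = 0 := hw1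
    have e2 : (star v') ⬝ᵥ w = 0 := hw2
    have h3 := congrArg (fun M => M *ᵥ w) hsum
    simp only [Matrix.sub_mulVec, Matrix.smul_mulVec, vecMulVec_mulVec, e1, e2] at h3
    have h4 : (1 - c) • (g.1 *ᵥ w) = 0 := by
      rw [h3]
      simp
    have h5 : g.1 *ᵥ w ≠ 0 := by
      intro h
      apply hw0
      have := congrArg (fun x => (star g.1) *ᵥ x) h
      simp only [mulVec_mulVec, mem_unitaryGroup_iff'.1 g.2, one_mulVec, mulVec_zero] at this
      exact this
    rcases smul_eq_zero.1 h4 with h | h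
    · exact (sub_eq_zero.1 h).symm
    · exact absurd h h5
  rw [hc1, sub_self, zero_smul, one_mul] at hsum
  have hsl : σ.1 l ≠ 0 := by
    intro h
    exact hl0 (σ.1.injective (by rw [h, map_zero]))
  have hsk : star (v' k) ≠ 0 := by
    intro h
    apply hk
    have h1 : v' k = 0 := star_eq_zero.1 h
    exact σ.1.injective (by rw [map_zero]; exact h1)
  refine ⟨(σ.1 l * star (v' k))⁻¹ * (l * (star v ᵥ* g.1) k), ?_⟩
  funext r
  have h6 := congrFun (congrFun hsum r) k
  simp only [Matrix.zero_apply, Matrix.sub_apply, Matrix.smul_apply, vecMulVec_apply, smul_eq_mul,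
    Pi.star_apply] at h6
  have h7 : (g.1 *ᵥ v') r * (σ.1 l * star (v' k)) = v r * (l * (star v ᵥ* g.1) k) := by
    linear_combination h6
  have hne : σ.1 l * star (v' k) ≠ 0 := mul_ne_zero hsl hsk
  rw [Pi.smul_apply, smul_eq_mul]
  field_simp
  linear_combination h7

/-- `e_i + t e_j` -/
def v2 (i j : Fin n) (t : K) : Fin n → K := Pi.single i 1 + Pi.single j t

lemma v2_dot {i j : Fin n} (hij : i ≠ j) {t : K} (ht : t * star t = -1) :
    star (v2 i j t) ⬝ᵥ v2 i j t = 0 := by
  have h1 : star (v2 i j t) = v2 i j (star t) := by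
    funext k
    simp only [v2, Pi.star_apply, Pi.add_apply, star_add, Pi.single_apply]
    split_ifs <;> simp
  rw [h1, v2, v2, add_dotProduct, dotProduct_add, dotProduct_add]
  simp [hij, hij.symm]
  rw [mul_comm, ht]
  ring

lemma v2_mulVec (M : Matrix (Fin n) (Fin n) K) (i j r : Fin n) (t : K) :
    (M *ᵥ v2 i j t) r = M r i + M r j * t := by
  rw [v2, mulVec_add, Pi.add_apply, mulVec_single, mulVec_single]
  simp [Matrix.col_apply]

lemma v2_map (σ : SA K) (i j : Fin n) (t : K) : (fun k => σ.1 (v2 i j t k)) = v2 i j (σ.1 t) := by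
  funext k
  simp only [v2, Pi.add_apply, map_add, Pi.single_apply]
  split_ifs <;> simp

lemma v2_i {i j : Fin n} (hij : i ≠ j) (t : K) : v2 i j t i = 1 := by
  simp [v2, hij]

lemma v2_j {i j : Fin n} (hij : i ≠ j) (t : K) : v2 i j t j = t := by
  simp [v2, hij.symm]

lemma v2_k {i j k : Fin n} (hi : k ≠ i) (hj : k ≠ j) (t : K) : v2 i j t k = 0 := by
  simp [v2, hi, hj]

variable [Fintype K]

theorem fix_all {q : ℕ} (hq : 3 ≤ q) (hK : Nat.card K = q ^ 2) (hs : ∀ x : K, star x = x ^ q)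
    (hn : 3 ≤ n) {g : GU K n} {σ : SA K}
    (H : ∀ h : GU K n, h.1.det = 1 → ∃ c : K, g.1 * h.1.map σ.1 = c • (h.1 * g.1)) :
    σ = 1 ∧ ∃ c : K, g.1 = c • (1 : Matrix (Fin n) (Fin n) K) := by
  -- a scalar of trace zero
  obtain ⟨a, ha⟩ := H986.A5.exists_star_ne (by omega : 2 ≤ q) hK hs
  have hl : (a - star a) + star (a - star a) = 0 := by
    rw [star_sub, star_star]
    ring
  have hl0 : a - star a ≠ 0 := fun h => ha (sub_eq_zero.1 h).symm
  -- norm `-1`
  obtain ⟨t₀, ht₀⟩ : ∃ t : K, t * star t = -1 := by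
    obtain ⟨t, ht⟩ := H472.exists_norm (c := (-1 : K))
      (by rw [← Nat.card_eq_fintype_card]; exact hK) hs (neg_ne_zero.2 one_ne_zero)
      (by rw [star_neg, star_one])
    exact ⟨t, by rw [mul_comm]; exact ht⟩
  have ha0 : a ≠ 0 := fun h => ha (by rw [h, star_zero])
  have hsa0 : star a ≠ 0 := star_ne_zero.2 ha0
  have nz : ∀ t : K, t * star t = -1 → t ≠ 0 := by
    intro t ht h
    rw [h, zero_mul] at ht
    exact one_ne_zero (neg_eq_zero.1 ht.symm)
  -- the basic relations
  have key : ∀ (i j : Fin n), i ≠ j → ∀ t : K, t * star t = -1 →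
      (∀ k, k ≠ i → k ≠ j → g.1 k i + g.1 k j * σ.1 t = 0) ∧
      g.1 j i + g.1 j j * σ.1 t = (g.1 i i + g.1 i j * σ.1 t) * t := by
    intro i j hij t ht
    obtain ⟨b, hb⟩ := eig hn H hl hl0 (v2_dot hij ht) (k := i) (by rw [v2_i hij]; exact one_ne_zero)
    rw [v2_map] at hb
    have hb' : ∀ k, g.1 k i + g.1 k j * σ.1 t = b * v2 i j t k := by
      intro k
      have := congrFun hb k
      rw [v2_mulVec] at this
      exact this
    refine ⟨fun k h1 h2 => ?_, ?_⟩
    · rw [hb', v2_k h1 h2, mul_zero]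
    · rw [hb', hb', v2_i hij, v2_j hij, mul_one]
  set u₀ : K := star a * a⁻¹ with hu₀
  have hu₀1 : u₀ * star u₀ = 1 := by
    rw [hu₀, star_mul, star_star, star_inv₀]
    field_simp
  have hu₀2 : u₀ ≠ 1 := by
    intro h
    apply ha
    have h1 : star a = u₀ * a := by rw [hu₀, mul_assoc, inv_mul_cancel₀ ha0, mul_one]
    rw [h1, h, one_mul]
  have nm : ∀ t u : K, t * star t = -1 → u * star u = 1 → (t * u) * star (t * u) = -1 := by
    intro t u ht hu
    rw [star_mul]
    calc t * u * (star u * star t) = (t * star t) * (u * star u) := by ring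
      _ = -1 := by rw [ht, hu, mul_one]
  have hoff : ∀ k j : Fin n, k ≠ j → g.1 k j = 0 := by
    intro k j hkj
    obtain ⟨i, hi1, hi2⟩ : ∃ i : Fin n, i ≠ k ∧ i ≠ j := by
      have hc : ({k, j} : Finset (Fin n)).card < (Finset.univ : Finset (Fin n)).card := by
        have := Finset.card_le_two (a := k) (b := j)
        rw [Finset.card_univ, Fintype.card_fin]
        omega
      obtain ⟨i, _, hi⟩ := Finset.exists_mem_notMem_of_card_lt_card hc
      simp only [Finset.mem_insert, Finset.mem_singleton, not_or] at hi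
      exact ⟨i, hi.1, hi.2⟩
    have h1 := (key i j hi2 t₀ ht₀).1 k (Ne.symm hi1) hkj
    have h2 := (key i j hi2 (t₀ * u₀) (nm _ _ ht₀ hu₀1)).1 k (Ne.symm hi1) hkj
    have h3 : g.1 k j * σ.1 (t₀ * (1 - u₀)) = 0 := by
      rw [map_mul, map_sub, map_one]
      rw [map_mul] at h2
      linear_combination h1 - h2
    rcases mul_eq_zero.1 h3 with h | h
    · exact h
    · exfalso
      have h4 : t₀ * (1 - u₀) = 0 := σ.1.injective (by rw [h, map_zero])
      rcases mul_eq_zero.1 h4 with h5 | h5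
      · exact nz _ ht₀ h5
      · exact hu₀2 (sub_eq_zero.1 h5).symm
  have hdiag : ∀ i j : Fin n, i ≠ j → ∀ t : K, t * star t = -1 →
      g.1 j j * σ.1 t = g.1 i i * t := by
    intro i j hij t ht
    have h1 := (key i j hij t ht).2
    rw [hoff j i hij.symm, hoff i j hij, zero_mul, add_zero, zero_add] at h1
    exact h1
  have hg0 : ∀ i : Fin n, g.1 i i ≠ 0 := by
    intro i h
    have h1 := congrFun (congrFun (mem_unitaryGroup_iff.1 g.2) i) i
    rw [Matrix.mul_apply, Matrix.one_apply_eq, Finset.sum_eq_single i, h, zero_mul] at h1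
    · exact zero_ne_one h1
    · intro b _ hb
      rw [hoff i b hb.symm, zero_mul]
    · simp
  set i₀ : Fin n := ⟨0, by omega⟩ with hi₀
  set i₁ : Fin n := ⟨1, by omega⟩ with hi₁
  have h01 : i₀ ≠ i₁ := by
    intro h
    have := congrArg Fin.val h
    simp [hi₀, hi₁] at this
  have hu : ∀ u : K, u * star u = 1 → σ.1 u = u := by
    intro u hu
    have h1 := hdiag i₀ i₁ h01 t₀ ht₀
    have h2 := hdiag i₀ i₁ h01 (t₀ * u) (nm _ _ ht₀ hu)
    rw [map_mul, ← mul_assoc, h1] at h2
    have h3 : g.1 i₀ i₀ * t₀ ≠ 0 := mul_ne_zero (hg0 _) (nz _ ht₀)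
    apply mul_left_cancel₀ h3
    rw [h2]
    ring
  -- `σ w / w` is fixed by `star`
  have hA : ∀ w : K, star (σ.1 w) * w = star w * σ.1 w := by
    intro w
    by_cases hw : w = 0
    · rw [hw, map_zero, star_zero]
    have hsw : star w ≠ 0 := star_ne_zero.2 hw
    have h1 := hu (star w * w⁻¹) (by
      rw [star_mul, star_star, star_inv₀]
      field_simp)
    have hσw : σ.1 w ≠ 0 := fun h => hw (σ.1.injective (by rw [h, map_zero]))
    rw [map_mul, map_inv₀, SA_star] at h1
    field_simp at h1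
    linear_combination h1
  have h1 : ∀ w : K, star w ≠ w → σ.1 w = w := by
    intro w hw
    have e1 := hA w
    have e2 := hA (1 + w)
    rw [map_add, map_one, star_add, star_add, star_one] at e2
    have e3 : (w - star w) * (σ.1 w - w) = 0 := by
      linear_combination (-w) * e2 + (w + 1) * e1
    rcases mul_eq_zero.1 e3 with h | h
    · exact absurd (sub_eq_zero.1 h).symm hw
    · exact sub_eq_zero.1 h
  have hσ : ∀ w : K, σ.1 w = w := by
    intro w
    by_cases hw : star w = w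
    · have h2 := h1 (w + a) (by
        rw [star_add, hw]
        intro h
        exact ha (add_left_cancel h))
      rw [map_add, h1 a ha] at h2
      exact add_right_cancel h2
    · exact h1 w hw
  refine ⟨Subtype.ext (RingEquiv.ext hσ), g.1 i₀ i₀, ?_⟩
  ext i j
  rw [Matrix.smul_apply, smul_eq_mul]
  by_cases hij : i = j
  · subst hij
    rw [Matrix.one_apply_eq, mul_one]
    by_cases hi : i₀ = i
    · rw [← hi]
    · have h2 := hdiag i₀ i hi t₀ ht₀
      rw [hσ] at h2
      exact mul_right_cancel₀ (nz _ ht₀) h2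
  · rw [Matrix.one_apply_ne hij, mul_zero]
    exact hoff i j hij

/-- the centralizer of `PSU_n(q)` in `PΓU_n(q)`, `n ≥ 3`, `q ≥ 3` -/
theorem inj {q : ℕ} (hq : 3 ≤ q) (hK : Nat.card K = q ^ 2) (hs : ∀ x : K, star x = x ^ q)
    (hn : 3 ≤ n) (x : PGamU K n) (hx : ∀ y ∈ PSU' K n, x * y = y * x) : x = 1 := by
  obtain ⟨b, σ⟩ := x
  obtain ⟨g, rfl⟩ := QuotientGroup.mk_surjective b
  obtain ⟨a, ha⟩ := H986.A5.exists_star_ne (by omega : 2 ≤ q) hK hs
  have ha0 : a ≠ 0 := fun h => ha (by rw [h, star_zero])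
  have hsa0 : star a ≠ 0 := star_ne_zero.2 ha0
  have hu1 : (star a * a⁻¹) * star (star a * a⁻¹) = 1 := by
    rw [star_mul, star_star, star_inv₀]
    field_simp
  have hu2 : star a * a⁻¹ ≠ 1 := by
    intro h
    apply ha
    have h1 : star a = (star a * a⁻¹) * a := by rw [mul_assoc, inv_mul_cancel₀ ha0, mul_one]
    rw [h1, h, one_mul]
  have H : ∀ h : GU K n, h.1.det = 1 → ∃ c : K, g.1 * h.1.map σ.1 = c • (h.1 * g.1) := by
    intro h hh
    have h1 := hx (SemidirectProduct.inl (QuotientGroup.mk h)) ⟨QuotientGroup.mk h, ⟨h, hh, rfl⟩, rfl⟩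
    have h2 := congrArg SemidirectProduct.left h1
    rw [SemidirectProduct.mul_left, SemidirectProduct.mul_left] at h2
    have h3 : (QuotientGroup.mk (g * mapGU σ h) : PGU K n) = QuotientGroup.mk (h * g) := by
      have e : (act n (1 : SA K)) (QuotientGroup.mk g : PGU K n) = QuotientGroup.mk g := by
        rw [map_one]
        rfl
      calc (QuotientGroup.mk (g * mapGU σ h) : PGU K n) = _ := h2
        _ = _ := by
          show (QuotientGroup.mk h : PGU K n) * (act n (1 : SA K)) (QuotientGroup.mk g : PGU K n) = _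
          rw [e]
          rfl
    rw [QuotientGroup.eq] at h3
    obtain ⟨c, hc⟩ := (H296.mem_center_iff hu2 hu1 _).1 h3
    have h4 : (h * g) = (g * mapGU σ h) * ((g * mapGU σ h)⁻¹ * (h * g)) := by group
    have h5 := congrArg Subtype.val h4
    have h6 : h.1 * g.1 = (g.1 * h.1.map σ.1) * (c • 1) := by
      rw [← hc]
      exact h5
    rw [Matrix.mul_smul, Matrix.mul_one] at h6
    have hc0 : c ≠ 0 := by
      intro h7
      rw [h7, zero_smul] at h6
      have : Nonempty (Fin n) := ⟨⟨0, by omega⟩⟩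
      have h8 := congrArg det h6
      rw [det_mul, hh, one_mul, det_zero] at h8
      have h9 := congrArg det (mem_unitaryGroup_iff.1 g.2)
      rw [det_mul, h8, zero_mul, det_one] at h9
      exact zero_ne_one h9
    refine ⟨c⁻¹, ?_⟩
    rw [h6, smul_smul, inv_mul_cancel₀ hc0, one_smul]
  obtain ⟨hσ, c, hc⟩ := fix_all hq hK hs hn H
  subst hσ
  have : (QuotientGroup.mk g : PGU K n) = 1 := by
    rw [QuotientGroup.eq_one_iff]
    exact (H296.mem_center_iff hu2 hu1 _).2 ⟨c, hc⟩
  rw [this]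
  rfl

theorem stmtINJ : StmtINJ.{u} := by
  intro K _ _ _ q hq hK hs _ n hn x hx
  exact inj hq hK hs hn x hx

end Vale.Agent.P240.R2.H63.Inj

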