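import Vale.Agent.P240.R2.H63.OddU
import Vale.Agent.P240.R2.H938.W13
import Vale.Agent.P240.R2.H687.FewUA

/-!
The small unitary groups at odd primes.
-/

set_option autoImplicit false

namespace Vale.Agent.P240.R2.H63.Odd

open Matrix Subgroup Vale.Agent.P240 Vale.Agent.P240.K Vale.Agent.P240.R2.AS Vale.Agent.P240.H195
open Vale.Agent.P240.R2.H275 Vale.Agent.P240.R2.H63 Vale.Agent.P240.R2.H487

universe u v

/-- the characteristic of `K` is the prime divisor of `q` -/
lemma cast_zero_of_dvd {K : Type} [Field K] [Fintype K] {q r : ℕ} (hr : r.Prime)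
    (hK : Nat.card K = q ^ 2) (h : r ∣ q) : (r : K) = 0 := by
  haveI : Fact r.Prime := ⟨hr⟩
  have h3 : r ∣ Fintype.card K := by
    rw [← Nat.card_eq_fintype_card, hK]
    exact dvd_pow h two_ne_zero
  obtain ⟨x, hx⟩ := exists_prime_addOrderOf_dvd_card r h3
  have h4 : (r : ℕ) • x = 0 := by rw [← hx]; exact addOrderOf_nsmul_eq_zero x
  have h5 : x ≠ 0 := by
    intro h
    rw [h, addOrderOf_zero] at hx
    exact hr.one_lt.ne hx
  rw [nsmul_eq_mul] at h4
  exact (mul_eq_zero.1 h4).resolve_right h5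

theorem smallU : SmallU.{u, v} := by
  intro p hp hp2 K _ _ _ q n hK hs hn hq1 hpK hcase hsim hd 𝕜 _ L _ hLn hLe
  obtain ⟨e⟩ := hLe
  have hfin : Finite L := Finite.of_equiv _ e.symm.toEquiv
  haveI hL : IsSimpleGroup L := e.isSimpleGroup
  have hq2 : 2 ≤ q := by
    rcases hcase with h | h <;> omega
  have hK' : Fintype.card K = q ^ 2 := by rw [← Nat.card_eq_fintype_card]; exact hK
  have hZ := centre_one hLn
  obtain ⟨r, hr, hrq⟩ : ∃ r : ℕ, r.Prime ∧ r ∣ q := Nat.exists_prime_and_dvd (by omega)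
  haveI : Fact r.Prime := ⟨hr⟩
  have hrK := cast_zero_of_dvd hr hK hrq
  have hpr : p ≠ r := by
    rintro rfl
    exact hpK hrK
  have hlt : LieType r L := lie_psu hq2 hK hs hrK (by omega) hZ e
  have hf : FewAut p (PSU K n) := by
    rcases hcase with rfl | ⟨rfl, rfl, h3, h4, h9⟩
    · exact H687.U.fewAut_psu_three hp.out hp2 hK hs hn
    · exact H938.fewAut_33 (by omega) hK hs h4 h9
  exact Cov.few hp.out hr hpr hlt (hf.congr e.symm)

/-- **`PSU_n(q)`, `n ≥ 3`, at every odd prime, over every field** -/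
theorem cov_psu_all {K : Type} [Field K] [Fintype K] [StarRing K] {q n : ℕ} {L : Type u} [Group L]
    [hL : IsSimpleGroup L] {p : ℕ} [hp : Fact p.Prime] (hp2 : p ≠ 2)
    (hK : Nat.card K = q ^ 2) (hs : ∀ x : K, star x = x ^ q) (hn : 3 ≤ n)
    (hLn : ∃ x y : L, x * y ≠ y * x) (hd : p ∣ Nat.card L) (e : L ≃* ↥(PSU K n))
    (𝕜 : Type v) [Field 𝕜] : Cov 𝕜 p L :=
  cov_psu smallU hp2 hK hs hn hLn hd e 𝕜

end Vale.Agent.P240.R2.H63.Odd
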