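import Vale.Agent.P240.R2.H63.P4b

/-!
`PSL_4(F)` is the group `PΩ` of a six-dimensional form of plus type, part 3.
-/

set_option autoImplicit false
set_option linter.all false

namespace Vale.Agent.P240.R2.H63.P4

open Matrix Vale.Agent.P240.R2.H945.U4
open Vale.Agent.P240.R2 (OF.POm)
open Vale.Agent.P240.R2.H145.EO (B ac OD OD_B rf rf_mem rf_conj Big ac_mul ac_rf gl_ext ac_one ac_add)

open scoped commutatorElement

universe u

section perfect
variable {F : Type u} [Field F] {n : ℕ}

lemma tv_coe {i j : Fin n} (hij : i ≠ j) (b : F) :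
    (SpecialLinearGroup.transvection hij b).1 = 1 + Matrix.single i j b := rfl

/-- transvections are commutators -/
lemma tv_comm {i j k : Fin n} (hij : i ≠ j) (hik : i ≠ k) (hkj : k ≠ j) (b : F) :
    SpecialLinearGroup.transvection hij b =
      SpecialLinearGroup.transvection hik b * SpecialLinearGroup.transvection hkj (1 : F) *
        SpecialLinearGroup.transvection hik (-b) * SpecialLinearGroup.transvection hkj (-1 : F) := by
  apply Subtype.ext
  show (1 + Matrix.single i j b : Matrix (Fin n) (Fin n) F) =
    (1 + Matrix.single i k b) * (1 + Matrix.single k j 1) * (1 + Matrix.single i k (-b)) *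
      (1 + Matrix.single k j (-1))
  have e1 : (Matrix.single i k b : Matrix (Fin n) (Fin n) F) * Matrix.single k j 1 =
      Matrix.single i j b := by rw [Matrix.single_mul_single_same, mul_one]
  have e2 : ∀ x y : F, (Matrix.single k j x : Matrix (Fin n) (Fin n) F) * Matrix.single i k y = 0 :=
    fun x y => Matrix.single_mul_single_of_ne _ _ _ _ hij.symm _
  have e3 : ∀ x y : F, (Matrix.single k j x : Matrix (Fin n) (Fin n) F) * Matrix.single k j y = 0 :=
    fun x y => Matrix.single_mul_single_of_ne _ _ _ _ hkj.symm _
  have e4 : ∀ x y : F, (Matrix.single i k x : Matrix (Fin n) (Fin n) F) * Matrix.single i k y = 0 :=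
    fun x y => Matrix.single_mul_single_of_ne _ _ _ _ hik.symm _
  have e5 : ∀ x y : F, (Matrix.single i j x : Matrix (Fin n) (Fin n) F) * Matrix.single i k y = 0 :=
    fun x y => Matrix.single_mul_single_of_ne _ _ _ _ hij.symm _
  have e6 : ∀ x y : F, (Matrix.single i j x : Matrix (Fin n) (Fin n) F) * Matrix.single k j y = 0 :=
    fun x y => Matrix.single_mul_single_of_ne _ _ _ _ hkj.symm _
  have e7 : (Matrix.single i k (-b) : Matrix (Fin n) (Fin n) F) * Matrix.single k j (-1) =
      Matrix.single i j b := by rw [Matrix.single_mul_single_same]; congr 1; ring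
  have e8 : (Matrix.single i k b : Matrix (Fin n) (Fin n) F) * Matrix.single k j (-1) =
      Matrix.single i j (-b) := by rw [Matrix.single_mul_single_same]; congr 1; ring
  have n1 : (Matrix.single i k (-b) : Matrix (Fin n) (Fin n) F) = -Matrix.single i k b := by
    rw [← Matrix.single_neg]
  have n2 : (Matrix.single k j (-1) : Matrix (Fin n) (Fin n) F) = -Matrix.single k j 1 := by
    rw [← Matrix.single_neg]
  have n3 : (Matrix.single i j (-b) : Matrix (Fin n) (Fin n) F) = -Matrix.single i j b := by
    rw [← Matrix.single_neg]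
  simp only [mul_add, add_mul, mul_one, one_mul, e1, e2, e3, e4, e5, e6, e7, e8, zero_mul, add_zero,
    zero_add, mul_assoc]
  rw [n1, n2, n3]
  abel

/-- the monomial element -/
lemma w_apply {i j : Fin n} (hij : i ≠ j) (a b : Fin n) :
    (SpecialLinearGroup.transvection hij (1 : F) * SpecialLinearGroup.transvection hij.symm (-1 : F) *
      SpecialLinearGroup.transvection hij (1 : F)).1 a b =
    if a = i then (if b = j then 1 else 0) else if a = j then (if b = i then -1 else 0) else
      if a = b then 1 else 0 := by
  have h1 : (SpecialLinearGroup.transvection hij (1 : F) *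
      SpecialLinearGroup.transvection hij.symm (-1 : F) *
      SpecialLinearGroup.transvection hij (1 : F)).1 =
      1 + Matrix.single i j 1 - Matrix.single j i 1 - Matrix.single i i 1 - Matrix.single j j 1 := by
    show (1 + Matrix.single i j (1 : F)) * (1 + Matrix.single j i (-1 : F)) *
      (1 + Matrix.single i j (1 : F)) = _
    have e1 : (Matrix.single i j 1 : Matrix (Fin n) (Fin n) F) * Matrix.single j i (-1) =
        -Matrix.single i i 1 := by rw [Matrix.single_mul_single_same, one_mul, ← Matrix.single_neg]
    have e2 : (Matrix.single i j 1 : Matrix (Fin n) (Fin n) F) * Matrix.single i j 1 = 0 :=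
      Matrix.single_mul_single_of_ne _ _ _ _ hij.symm _
    have e3 : (Matrix.single j i (-1) : Matrix (Fin n) (Fin n) F) * Matrix.single i j 1 =
        -Matrix.single j j 1 := by rw [Matrix.single_mul_single_same, mul_one, ← Matrix.single_neg]
    have e4 : (Matrix.single i i 1 : Matrix (Fin n) (Fin n) F) * Matrix.single i j 1 =
        Matrix.single i j 1 := by rw [Matrix.single_mul_single_same, one_mul]
    have n1 : (Matrix.single j i (-1) : Matrix (Fin n) (Fin n) F) = -Matrix.single j i 1 := by
      rw [← Matrix.single_neg]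
    simp only [mul_add, add_mul, mul_one, one_mul, e1, e2, e3, e4, neg_mul, add_zero]
    rw [n1]
    abel
  rw [h1]
  simp only [Matrix.sub_apply, Matrix.add_apply, Matrix.single_apply, Matrix.one_apply]
  by_cases hai : a = i
  · subst hai
    by_cases hbj : b = j
    · subst hbj
      simp [hij, hij.symm]
    · by_cases hba : b = a
      · subst hba
        simp [hij, hij.symm]
      · simp [hij, hij.symm, hbj, Ne.symm hbj, hba, Ne.symm hba, eq_comm]
  · by_cases haj : a = j
    · subst haj
      by_cases hbi : b = i
      · subst hbi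
        simp [hij, hij.symm]
      · by_cases hba : b = a
        · subst hba
          simp [hij, hij.symm]
        · simp [hij, hij.symm, hbi, Ne.symm hbi, hba, Ne.symm hba]
    · simp [hai, haj, Ne.symm hai, Ne.symm haj]

/-- `SL_n` is perfect, `n ≥ 3` -/
theorem sl_perfect (hn : 3 ≤ n) : commutator (SpecialLinearGroup (Fin n) F) = ⊤ := by
  have hex : ∀ i j : Fin n, ∃ k : Fin n, i ≠ k ∧ k ≠ j := by
    intro i j
    by_contra hcon
    push Not at hcon
    have h1 : (Finset.univ : Finset (Fin n)) ⊆ {i, j} := by
      intro k _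
      rw [Finset.mem_insert, Finset.mem_singleton]
      by_cases h : i = k
      · exact Or.inl h.symm
      · exact Or.inr (hcon k h)
    have h3 := Finset.card_le_card h1
    have h4 := Finset.card_le_two (a := i) (b := j)
    rw [Finset.card_univ, Fintype.card_fin] at h3
    omega
  have htv : ∀ (i j : Fin n) (hij : i ≠ j) (b : F),
      SpecialLinearGroup.transvection hij b ∈ commutator (SpecialLinearGroup (Fin n) F) := by
    intro i j hij b
    obtain ⟨k, hik, hkj⟩ := hex i j
    have h1 : SpecialLinearGroup.transvection hij b =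
        ⁅SpecialLinearGroup.transvection hik b, SpecialLinearGroup.transvection hkj (1 : F)⁆ := by
      rw [commutatorElement_def, SpecialLinearGroup.transvection_inv,
        SpecialLinearGroup.transvection_inv]
      exact tv_comm hij hik hkj b
    rw [h1]
    exact Subgroup.commutator_mem_commutator (Subgroup.mem_top _) (Subgroup.mem_top _)
  have : Nontrivial (Fin n) := Fin.nontrivial_iff_two_le.2 (by omega)
  refine eq_top_iff.2 fun M _ => SpecialLinearGroup.diagonal_transvection_induction'
    (fun M => M ∈ commutator (SpecialLinearGroup (Fin n) F)) M ?_ htv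
    (fun A B hA hB => mul_mem hA hB)
  intro i j hij c hc
  obtain ⟨k, hik, hkj⟩ := hex i j
  set w := SpecialLinearGroup.transvection hij (1 : F) *
    SpecialLinearGroup.transvection hij.symm (-1 : F) * SpecialLinearGroup.transvection hij (1 : F)
    with hw
  have h1 : SpecialLinearGroup.diag2n hij c hc = ⁅SpecialLinearGroup.diag2n hik c hc, w⁆ := by
    rw [commutatorElement_def, eq_mul_inv_iff_mul_eq, eq_mul_inv_iff_mul_eq]
    apply Subtype.ext
    show (SpecialLinearGroup.diag2n hij c hc).1 * w.1 * (SpecialLinearGroup.diag2n hik c hc).1 =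
      (SpecialLinearGroup.diag2n hik c hc).1 * w.1
    rw [SpecialLinearGroup.diag2n_coe, SpecialLinearGroup.diag2n_coe]
    ext a b
    rw [Matrix.mul_diagonal, Matrix.diagonal_mul, Matrix.diagonal_mul, hw, w_apply]
    by_cases hai : a = i
    · subst hai
      by_cases hbj : b = j
      · subst hbj
        simp [hij, hij.symm, hik, hkj, hkj.symm]
      · simp [hbj]
    · by_cases haj : a = j
      · subst haj
        by_cases hbi : b = i
        · subst hbi
          simp [hij, hij.symm, hik, hkj, hkj.symm, hc]
        · simp [hbi, hij, hij.symm]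
      · by_cases hab : a = b
        · subst hab
          simp [hai, haj]
        · simp [hai, haj, hab]
  rw [h1]
  exact Subgroup.commutator_mem_commutator (Subgroup.mem_top _) (Subgroup.mem_top _)

end perfect

section iso
variable {F : Type u} [Field F]

/-- `PSL_4 ≃ PΩ` of the form `<1, -1, 1, -1, 1, -1>` -/
theorem psl4_iso (h2 : (2 : F) ≠ 0) :
    Nonempty (ProjectiveSpecialLinearGroup (Fin 4) F ≃* OF.POm (diagonal (dd (1 : F)))) := by
  have hval : ∀ i, dd (1 : F) i = 1 ∨ dd (1 : F) i = -1 := by
    intro i
    fin_cases i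
    · exact Or.inl rfl
    · exact Or.inr rfl
    · exact Or.inl rfl
    · exact Or.inr rfl
    · exact Or.inl rfl
    · exact Or.inr rfl
  have ha : ∀ i, dd (1 : F) i ≠ 0 := by
    intro i
    rcases hval i with h | h
    · rw [h]; exact one_ne_zero
    · rw [h]; exact neg_ne_zero.2 one_ne_zero
  let ρ : SpecialLinearGroup (Fin 4) F →* ↥(OD (dd (1 : F))) :=
    (rho h2).codRestrict (OD (dd (1 : F))) (rho_mem h2)
  have hperf : commutator (ProjectiveSpecialLinearGroup (Fin 4) F) = ⊤ := by
    have h1 := congrArg (Subgroup.map (QuotientGroup.mk' (Subgroup.center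
      (SpecialLinearGroup (Fin 4) F)))) (sl_perfect (F := F) (n := 4) (by norm_num))
    rw [commutator_def, Subgroup.map_commutator, Subgroup.map_top_of_surjective _
      (QuotientGroup.mk'_surjective _)] at h1
    rw [commutator_def]
    exact h1
  have hk : ∀ g : SpecialLinearGroup (Fin 4) F,
      QuotientGroup.mk' (Subgroup.center (SpecialLinearGroup (Fin 4) F)) g = 1 ↔
        ρ g ∈ Subgroup.center ↥(OD (dd (1 : F))) := by
    intro g
    rw [QuotientGroup.mk'_apply, QuotientGroup.eq_one_iff, Matrix.SpecialLinearGroup.mem_center_iff,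
      center_iff h2]
    constructor
    · rintro ⟨r, hr, hg⟩
      have hg' : g.1 = r • (1 : Matrix (Fin 4) (Fin 4) F) := by
        rw [← hg]
        exact (smul_one_eq_diagonal r).symm
      refine ⟨r * r, ?_⟩
      apply Matrix.ext_of_mulVec_single
      intro i
      rw [smul_mulVec, one_mulVec]
      apply Y_inj h2
      have h3 := Y_rho h2 g (Pi.single i 1)
      rw [hg', transpose_smul, transpose_one, smul_mul_assoc, one_mul, mul_smul_comm, mul_one,
        smul_smul] at h3
      rw [Y_smul]
      exact h3
    · rintro ⟨l, hl⟩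
      have h3 : ∀ y : Fin 6 → F, g.1 * Y y * g.1ᵀ = l • Y y := by
        intro y
        rw [← Y_rho h2 g, ← Y_smul]
        congr 1
        show (rho h2 g).1 *ᵥ y = l • y
        have h4 : (rho h2 g).1 = l • (1 : Matrix (Fin 6) (Fin 6) F) := hl
        rw [h4, smul_mulVec, one_mulVec]
      have hg : g.1.det = 1 := g.2
      have hl0 : l ≠ 0 := by
        rintro rfl
        have h4 := congrArg Matrix.det (h3 ![1, 0, 0, 0, 0, 0])
        rw [det_mul, det_mul, det_transpose, hg, zero_smul, det_zero, det_Y, one_mul, mul_one,
          Bd] at h4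
        simp at h4
      obtain ⟨z, hz⟩ := scal hl0 h3 h2
      refine ⟨z, ?_, ?_⟩
      · rw [hz, det_smul, det_one, mul_one] at hg
        exact hg
      · rw [hz]
        exact (smul_one_eq_diagonal z).symm
  obtain ⟨f⟩ := abs_iso ρ (QuotientGroup.mk' (Subgroup.center (SpecialLinearGroup (Fin 4) F)))
    (QuotientGroup.mk'_surjective _) hk hperf (fun x y => by
      obtain ⟨g, hg⟩ := comm_mem h2 ha (big h2) x.2 y.2
      exact ⟨g, Subtype.ext hg⟩)
  obtain ⟨f'⟩ := congr_comm (OD_eq_OA (dd (1 : F)))
  exact ⟨f.trans f'⟩

end iso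

end Vale.Agent.P240.R2.H63.P4
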