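import Mathlib.Algebra.Group.End
import Mathlib.GroupTheory.OrderOfElement

set_option autoImplicit false

namespace Vale.Agent.P240.R2.H63

/-- `p` divides `|L|`, and `L` has an element `s` that is fixed by no automorphism of order `p`, and
whose order is prime to `p ^ j - 1` whenever `j > 0` and `p ^ j` divides the order of an elementary
abelian `p`-subgroup of `L`. -/
def OrdFree (p : ℕ) (L : Type*) [Group L] : Prop :=
  p ∣ Nat.card L ∧ ∃ s : L, (∀ f : MulAut L, f ^ p = 1 → f s = s → f = 1) ∧
    ∀ E : Subgroup L, (∀ x ∈ E, x ^ p = 1 ∧ ∀ y ∈ E, x * y = y * x) →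
      ∀ j : ℕ, 0 < j → p ^ j ∣ Nat.card E → (orderOf s).Coprime (p ^ j - 1)

end Vale.Agent.P240.R2.H63
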