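import Vale.Agent.P240.R2.H63.Odd8
import Vale.Agent.P240.R2.H687.TI
import Vale.Agent.P240.R2.H687.TJ

/-!
The orthogonal groups at odd primes, without exception.
-/

set_option autoImplicit false

namespace Vale.Agent.P240.R2.H63.Odd

open Matrix Subgroup Vale.Agent.P240 Vale.Agent.P240.K Vale.Agent.P240.R2.AS Vale.Agent.P240.H195
open Vale.Agent.P240.R2.H275 Vale.Agent.P240.R2.H63 Vale.Agent.P240.R2.H487
open Vale.Agent.P240.R2.H432.Q (POQ)

universe u v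

/-- **the orthogonal groups** at odd primes, from the case `n = 8`, `|F| = 5`, `p = 3` -/
theorem cov_POQ_five (hQ5 : H687.T.StmtQ5.{0}) {L : Type u} [Group L] {F : Type} [Field F]
    [Finite F] {p : ℕ} [hp : Fact p.Prime] (hp2 : p ≠ 2) (hs : IsSimpleGroup L)
    (hnab : ∃ x y : L, x * y ≠ y * x) (hd : p ∣ Nat.card L) {n : ℕ} (hn5 : 5 ≤ n)
    {Q : QuadraticForm F (Fin n → F)} (hQ : ∀ v, (∀ w, QuadraticMap.polar Q v w = 0) → v = 0)
    (e : L ≃* POQ Q) (𝕜 : Type v) [Field 𝕜] : Cov 𝕜 p L :=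
  cov_POQ_of hp2 hs hnab hd hn5 hQ (fun _ _ h2 h3 _ hD hsq hsim =>
    H687.T.euFree_D4' H687.T.stmtField hQ5 h2 h3 hD hsq hsim) e 𝕜

/-- **the orthogonal groups** at odd primes, `(n, |F|, p) ≠ (8, 5, 3)` -/
theorem cov_POQ_big {L : Type u} [Group L] {F : Type} [Field F] [Finite F] {p : ℕ}
    [hp : Fact p.Prime] (hp2 : p ≠ 2) (hs : IsSimpleGroup L)
    (hnab : ∃ x y : L, x * y ≠ y * x) (hd : p ∣ Nat.card L) {n : ℕ} (hn5 : 5 ≤ n)
    {Q : QuadraticForm F (Fin n → F)} (hQ : ∀ v, (∀ w, QuadraticMap.polar Q v w = 0) → v = 0)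
    (hF : ¬ (n = 8 ∧ p = 3 ∧ Nat.card F = 5)) (e : L ≃* POQ Q) (𝕜 : Type v) [Field 𝕜] :
    Cov 𝕜 p L := by
  refine cov_POQ_of hp2 hs hnab hd hn5 hQ (fun h8 h3 h2 h3' D hD hsq _ => ?_) e 𝕜
  have : Fintype F := Fintype.ofFinite F
  rcases card_cases h2 with h | h | h
  · exfalso
    apply h3'
    have h1 := Nat.cast_card_eq_zero F
    rw [← Nat.card_eq_fintype_card, h] at h1
    exact_mod_cast h1
  · exact absurd ⟨h8, h3, h⟩ hF
  · exact H687.T.euFree_big H687.T.stmtField h2 (by rwa [← Nat.card_eq_fintype_card]) hD hsq h3'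

end Vale.Agent.P240.R2.H63.Odd
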