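import Mathlib.GroupTheory.PGroup
import Vale.Agent.P240.H195.SLJ
import Vale.Agent.P240.H195.SO6
import Vale.Agent.P240.R2.H63.OrdDefs

/-!
`EuFree` from an element of suitable order.
-/

set_option autoImplicit false

namespace Vale.Agent.P240.R2.H63

open Subgroup Vale.Agent.P240.K Vale.Agent.P240.H195

/-- automorphisms of order prime to `|GL_m(p)|` -/
lemma aut_one {E : Type*} [Group E] [Finite E] {p : ℕ} [hp : Fact p.Prime] (hE : IsPGroup p E)
    (a : MulAut E) {n : ℕ} (hn : a ^ n = 1) (hpn : ¬ p ∣ n)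
    (hc : ∀ j : ℕ, 0 < j → p ^ j ∣ Nat.card E → n.Coprime (p ^ j - 1)) : a = 1 := by
  by_contra h
  have ho : orderOf a ≠ 1 := fun h1 => h (orderOf_eq_one_iff.1 h1)
  obtain ⟨l, hl, hlo⟩ := Nat.exists_prime_and_dvd ho
  have hfin : Finite (MulAut E) := inferInstance
  have ho0 : orderOf a ≠ 0 := (orderOf_pos a).ne'
  have hln : l ∣ n := hlo.trans (orderOf_dvd_of_pow_eq_one hn)
  have hlp : l ≠ p := by
    rintro rfl
    exact hpn hln
  have : Fact l.Prime := ⟨hl⟩
  set b : MulAut E := a ^ (orderOf a / l) with hb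
  have hob : orderOf b = l := orderOf_pow_orderOf_div ho0 hlo
  have hb1 : b ≠ 1 := by
    intro h1
    rw [h1, orderOf_one] at hob
    exact hl.one_lt.ne hob
  have hP : IsPGroup l (zpowers b) := IsPGroup.of_card (n := 1) (by
    rw [Nat.card_zpowers, hob, pow_one])
  have hfix := hP.card_modEq_card_fixedPoints E
  let C : Subgroup E :=
    { carrier := {e | b e = e}
      one_mem' := map_one b
      mul_mem' := fun {x y} hx hy => by
        show b (x * y) = x * y
        rw [map_mul, show b x = x from hx, show b y = y from hy]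
      inv_mem' := fun {x} hx => by
        show b x⁻¹ = x⁻¹
        rw [map_inv, show b x = x from hx] }
  have hset : MulAction.fixedPoints (zpowers b) E = (C : Set E) := by
    ext e
    constructor
    · intro he
      exact he ⟨b, mem_zpowers b⟩
    · rintro (he : b e = e) ⟨g, hg⟩
      obtain ⟨k, rfl⟩ := hg
      have h1 : b ∈ MulAction.stabilizer (MulAut E) e := he
      exact (zpow_mem h1 k : b ^ k ∈ MulAction.stabilizer (MulAut E) e)
  rw [hset] at hfix
  obtain ⟨m, hm⟩ := IsPGroup.iff_card.1 hE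
  obtain ⟨i, hi⟩ := IsPGroup.iff_card.1 (hE.to_subgroup C)
  have hCcard : Nat.card (C : Set E) = p ^ i := hi
  rw [hCcard, hm] at hfix
  have hlt : p ^ i < p ^ m := by
    rw [← hi, ← hm]
    refine lt_of_le_of_ne (Subgroup.card_le_card_group C) fun h1 => hb1 ?_
    have h2 : C = ⊤ := Subgroup.eq_top_of_card_eq C h1
    ext e
    have h3 : e ∈ C := by rw [h2]; exact mem_top e
    exact h3
  have him : i < m := (Nat.pow_lt_pow_iff_right hp.out.one_lt).1 hlt
  have hd : l ∣ p ^ m - p ^ i := (Nat.modEq_iff_dvd' hlt.le).1 hfix.symm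
  have he : p ^ m - p ^ i = p ^ i * (p ^ (m - i) - 1) := by
    rw [Nat.mul_sub, mul_one, ← pow_add, Nat.add_sub_cancel' him.le]
  rw [he] at hd
  have hli : ¬ l ∣ p ^ i := fun h1 =>
    hlp ((Nat.prime_dvd_prime_iff_eq hl hp.out).1 (hl.dvd_of_dvd_pow h1))
  have hd2 := ((Nat.Prime.dvd_mul hl).1 hd).resolve_left hli
  have h3 := hc (m - i) (by omega) (by rw [hm]; exact pow_dvd_pow p (Nat.sub_le m i))
  have h4 : l ∣ Nat.gcd n (p ^ (m - i) - 1) := Nat.dvd_gcd hln hd2
  rw [h3] at h4
  exact hl.one_lt.ne' (Nat.dvd_one.1 h4)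

/-- `EuFree` from an element of suitable order -/
theorem OrdFree.euFree {p : ℕ} [hp : Fact p.Prime] {L : Type*} [Group L] [Finite L]
    (hZ : ∀ x : L, (∀ y, x * y = y * x) → x = 1) (h : OrdFree p L) : EuFree p L := by
  obtain ⟨-, s, hs, hE⟩ := h
  have hconj : ∀ e : L, e ^ p = 1 → e * s = s * e → e = 1 := by
    intro e he hes
    have h1 : MulAut.conj e = 1 := hs (MulAut.conj e) (by rw [← map_pow, he, map_one]) (by
      rw [MulAut.conj_apply, hes, mul_inv_cancel_right])
    refine hZ e fun y => ?_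
    have h2 : MulAut.conj e y = y := by rw [h1]; rfl
    rw [MulAut.conj_apply] at h2
    calc e * y = e * y * e⁻¹ * e := by group
      _ = y * e := by rw [h2]
  have hps : ¬ p ∣ orderOf s := by
    intro hd
    have h1 : orderOf (s ^ (orderOf s / p)) = p :=
      orderOf_pow_orderOf_div (orderOf_pos s).ne' hd
    have h3 := pow_orderOf_eq_one (s ^ (orderOf s / p))
    rw [h1] at h3
    have h2 := hconj (s ^ (orderOf s / p)) h3 ((Commute.refl s).pow_left _)
    rw [h2, orderOf_one] at h1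
    exact hp.out.one_lt.ne h1
  have hno : ∀ E : Subgroup L, ElemAb p E → s ∈ normalizer (E : Set L) → False := by
    intro E h1 h2
    have hPE : IsPGroup p E := fun x => ⟨1, by
      rw [pow_one]
      exact Subtype.ext (h1.2.2 x x.2)⟩
    have h3 : E.normalizerMonoidHom ⟨s, h2⟩ = 1 := by
      refine aut_one hPE _ (n := orderOf s) ?_ hps (fun j hj hd => hE E
        (fun x hx => ⟨h1.2.2 x hx, fun y hy => h1.2.1 x hx y hy⟩) j hj hd)
      rw [← map_pow]
      have : (⟨s, h2⟩ : normalizer (E : Set L)) ^ orderOf s = 1 :=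
        Subtype.ext (pow_orderOf_eq_one s)
      rw [this, map_one]
    have h4 : s ∈ centralizer (E : Set L) := by
      have h5 : (⟨s, h2⟩ : normalizer (E : Set L)) ∈ E.normalizerMonoidHom.ker := h3
      rw [normalizerMonoidHom_ker, Subgroup.mem_subgroupOf] at h5
      exact h5
    apply h1.1
    rw [eq_bot_iff]
    intro e he
    exact mem_bot.2 (hconj e (h1.2.2 e he) ((mem_centralizer_iff.1 h4) e he))
  refine ⟨s, ?_, fun f hf hfo hfs => hfo ?_⟩
  · have h0 : {E | E ∈ Ain p (⊤ : Subgroup L) ∧ s ∈ normalizer (E : Set L)} = ∅ := by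
      ext E
      simp only [Set.mem_ofPred_eq, Set.mem_empty_iff_false, iff_false]
      rintro ⟨⟨h1, -⟩, h3⟩
      exact hno E h1 h3
    rw [eulerFix_eq, Vale.Agent.P240.K.lam, h0, eu_empty]
    exact one_ne_zero
  · rw [hs f hf hfs]
    exact one_mem _

theorem OrdFree.good {p : ℕ} [hp : Fact p.Prime] {L : Type*} [Group L] [Finite L]
    (h : OrdFree p L) (hs : IsSimpleGroup L) (hnab : ∃ x y : L, x * y ≠ y * x)
    (𝕜 : Type*) [Field 𝕜] (l : ℕ) : GoodFactor 𝕜 p l L :=
  Or.inr (Or.inr (Or.inl ⟨h.euFree (centreless_of_simple hs hnab), h.1⟩))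

end Vale.Agent.P240.R2.H63
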