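import Vale.Agent.P240.R2.AS.Stmts4
import Vale.Agent.P240.R2.H63.AsFin

/-!
Assembly of `StmtALL`.
-/

set_option autoImplicit false

namespace Vale.Agent.P240.R2.H63.As

open Finset Matrix Vale.Agent.P240 Vale.Agent.P240.K Vale.Agent.P240.R2.AS
open Vale.Agent.P240.R2.H986 (ev ev_eq_zero)
open Vale.Agent.P240.R2.H275 (QuillenDim quillenDim_sub Tp_map quillenDim_of_rat Tp)
open scoped Classical

universe u v w

theorem stmtA1_of (h : StmtA1g.{u}) : StmtA1.{u} := by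
  intro K _ _ _ q hq hK hs p _ hpq ζ h1 h2 n hn H hH hrel hc
  refine h K q hq hK hs p hpq ζ h1 h2 n hn H hH ?_
  rcases hc with hc | hc
  · exact Or.inl hc
  · right
    rcases (Nat.dvd_prime Fact.out).1 hrel with h0 | h0
    · exact absurd (le_antisymm (Subgroup.relIndex_eq_one.1 h0) hH) hc
    · rw [h0]

theorem stmtA3_of (h : StmtA3g.{u}) : StmtA3.{u} := by
  intro K _ _ _ q hq hK hs p _ hpq hp2 n hv hn h33 E hE hc hp
  exact h K q hq hK hs p hpq n hv hn h33 (fun h => hp2 h.1) (fun h => hp2 h.1) E hE hc hp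

/-- `PSU_n(q)`, `(q + 1)_p ∣ n` -/
lemma psu_case' (hM2 : StmtM2.{u}) (hSUB : StmtSUB.{u, u}) (hA2 : StmtA2.{u}) (hA3 : StmtA3g.{u})
    (K : Type u) [Field K] [Fintype K] [StarRing K] (q : ℕ) (hq : 3 ≤ q) (hK : Nat.card K = q ^ 2)
    (hs : ∀ x : K, star x = x ^ q) (p : ℕ) [Fact p.Prime] (hpq : p ∣ q + 1) {ζ : K}
    (h1 : ζ ^ p = 1) (h2 : ζ ≠ 1) (h3 : ζ * star ζ = 1) (n : ℕ) (hn : 3 ≤ n)
    (hv : p ^ (padicValNat p (q + 1)) ∣ n) (h33 : ¬ (p = 3 ∧ n = 3)) (h24 : ¬ (p = 2 ∧ n = 4)) :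
    QuillenDim ℚ p (PSU K n) := by
  have hp : p.Prime := Fact.out
  have hpn : p ∣ n := by
    refine dvd_trans (dvd_pow_self p ?_) hv
    have : 1 ≤ padicValNat p (q + 1) := one_le_padicValNat_of_dvd (by omega) hpq
    omega
  obtain ⟨m, rfl⟩ : ∃ m, n = m + 1 := ⟨n - 1, by omega⟩
  obtain ⟨hC, hmem⟩ := hA2 K q hq hK hs p ζ h1 h2 h3 m (by omega) hpn
  have ht : 0 < t (Fr K m) := by
    have := hM2 K q hq hK hs m (by omega)
    by_contra h0
    have h0' : t (Fr K m) = 0 := by omega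
    rw [h0', mul_zero] at this
    omega
  obtain ⟨z, hz, f, hf, hne⟩ := exists_z hC.perm ht
  have hO : ∀ u v : List (Ln K m), u ++ v ∈ Fr K m → eW' ζ u ∈ PSU K (m + 1) := by
    intro u v huv
    exact hmem u (List.pairwise_append.1 ((mem_Fr K).1 huv).2).1
  obtain ⟨c, hc⟩ := hSUB p m (PGU K (m + 1)) (Ln K m) (Fr K m) (eW' ζ) (by omega) hC
    (PSU K (m + 1)) hO z hz f hf hne
  refine qd_of _ (m - 1) ?_ ⟨c, hc⟩
  intro E hE hEc hEp
  exact hA3 K q hq hK hs p hpq (m + 1) hv (by omega) h33 (by omega) h24 E hE hEc hEp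

lemma qd_relIndex {A : Type u} [Group A] [Finite A] {p : ℕ} [Fact p.Prime] {N H : Subgroup A} [N.Normal]
    (hNH : N ≤ H) (hrel : ¬ p ∣ N.relIndex H) (h : QuillenDim ℚ p N) : QuillenDim ℚ p H := by
  rw [quillenDim_sub] at h ⊢
  obtain ⟨m, hm⟩ := h
  refine ⟨m, ?_⟩
  have hA : Ain p H = Ain p N := by
    ext E
    refine ⟨fun hE => ⟨hE.1, ?_⟩, fun hE => ⟨hE.1, hE.2.trans hNH⟩⟩
    have hEH : E ≤ H := hE.2
    have hEp : ∀ x ∈ E, x ^ p = 1 := hE.1.2.2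
    intro x hx
    by_contra hxN
    -- the class of `x` in `H ⧸ N` has order `p`
    have h1 : orderOf (QuotientGroup.mk (s := N.subgroupOf H) (⟨x, hEH hx⟩ : H)) = p := by
      refine orderOf_eq_prime ?_ ?_
      · rw [← QuotientGroup.mk_pow]
        have : (⟨x, hEH hx⟩ : H) ^ p = 1 := Subtype.ext (hEp x hx)
        rw [this]
        rfl
      · intro h0
        rw [QuotientGroup.eq_one_iff] at h0
        exact hxN h0
    apply hrel
    have h2 : orderOf (QuotientGroup.mk (s := N.subgroupOf H) (⟨x, hEH hx⟩ : H)) ∣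
        Nat.card (H ⧸ N.subgroupOf H) := orderOf_dvd_natCard _
    rw [h1] at h2
    exact h2
  have : Tp ℚ p H m ↔ Tp ℚ p N m := by
    rw [Tp, Tp, hA]
  exact this.2 hm

theorem stmtALL (hM2 : StmtM2.{u}) (hM6 : StmtM6.{u, v}) (hSUB : StmtSUB.{u, u})
    (hA1 : StmtA1g.{u}) (hA2 : StmtA2.{u}) (hA3 : StmtA3g.{u}) (hA4 : StmtA4.{u})
    (hζ : ∀ (K : Type u) [Field K] [Fintype K] [StarRing K] (q : ℕ), 3 ≤ q → Nat.card K = q ^ 2 →
      (∀ x : K, star x = x ^ q) → ∀ (p : ℕ) [Fact p.Prime], p ∣ q + 1 →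
      ∃ ζ : K, ζ ^ p = 1 ∧ ζ ≠ 1 ∧ ζ * star ζ = 1) : StmtALL.{u, v} := by
  intro K _ _ _ q hq hK hs p _ hpq n hn h2n H hH 𝕜 _
  have hp : p.Prime := Fact.out
  obtain ⟨ζ, h1, h2, h3⟩ := hζ K q hq hK hs p hpq
  by_cases hc : ¬ p ^ (padicValNat p (q + 1)) ∣ n ∨ p ∣ (PSU K n).relIndex H
  · exact hM6 K q hq hK hs p hpq n (by omega) h2n ζ h1 h2 H
      (hA1 K q hq hK hs p hpq ζ h1 h2 n (by omega) H hH hc) 𝕜
  · push Not at hc
    apply quillenDim_of_rat
    refine qd_relIndex hH hc.2 ?_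
    have hpn : p ∣ n := by
      refine dvd_trans (dvd_pow_self p ?_) hc.1
      have : 1 ≤ padicValNat p (q + 1) := one_le_padicValNat_of_dvd (by omega) hpq
      omega
    by_cases h33 : p = 3 ∧ n = 3
    · obtain ⟨rfl, rfl⟩ := h33
      refine hA4 K q hq hK hs hpq fun h9 => ?_
      have hv2 : 2 ≤ padicValNat 3 (q + 1) := by
        rw [← padicValNat_dvd_iff_le (by omega)]
        exact h9
      have := Nat.le_of_dvd (by norm_num) ((pow_dvd_pow 3 hv2).trans hc.1)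
      norm_num at this
    · have hn3 : 3 ≤ n := by
        by_contra h0
        have hn2 : n = 2 := by omega
        subst hn2
        have : p = 2 := (Nat.prime_dvd_prime_iff_eq hp Nat.prime_two).1 hpn
        omega
      exact psu_case' hM2 hSUB hA2 hA3 K q hq hK hs p hpq h1 h2 h3 n hn3 hc.1 h33 (by omega)

end Vale.Agent.P240.R2.H63.As
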