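import Vale.Agent.P240.R2.AS.Stmts3
import Vale.Agent.P240.R2.H687.Gal

namespace Vale.Agent.P240.R2.H63.As
open Vale.Agent.P240.R2.AS
universe u

theorem stmtLTE : StmtLTE.{u} := by
  intro K _ _ _ q hq hK hs p hp hp2 hpq σ hσ
  by_cases h38 : p = 3 ∧ q = 8
  · obtain ⟨rfl, rfl⟩ := h38
    norm_num
  obtain ⟨a, ha4, hqa, hpa, -⟩ := Vale.Agent.P240.R2.H687.fix_data hq hK hs hp.out hp2 hpq h38 σ hσ
  have hodd : Odd p := hp.out.odd_of_ne_two hp2
  have hna : ¬ p ∣ a := by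
    intro h
    have h1 := (Nat.dvd_add_right h).1 hpa
    exact hp.out.one_lt.ne' (Nat.dvd_one.1 h1)
  have h1 : padicValNat p (a ^ p + 1 ^ p) = padicValNat p (a + 1) + padicValNat p p :=
    padicValNat.pow_add_pow hodd hpa hna hodd
  rw [one_pow, padicValNat_self] at h1
  have h2 : 1 ≤ padicValNat p (a + 1) := one_le_padicValNat_of_dvd (by omega) hpa
  rw [hqa, padicValNat_dvd_iff_le (by positivity), h1]
  omega

end Vale.Agent.P240.R2.H63.As
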