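import Vale.Agent.P240.R2.H63.AsJump
import Vale.Agent.P240.R2.H63.Lte
import Vale.Agent.P240.R2.H938.T2
import Vale.Agent.P240.R2.H195.A1
import Vale.Agent.P240.R2.H195.RelCyc
import Vale.Agent.P240.R2.H979.A3g
import Vale.Agent.P240.R2.H687.A7
import Vale.Agent.P240.R2.H613.A5
import Vale.Agent.P240.R2.H402.A2
import Vale.Agent.P240.R2.H221.A4
import Vale.Agent.P240.R2.H620.EX

namespace Vale.Agent.P240.R2.H63.As
open Vale.Agent.P240.R2.AS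
universe u v

theorem hzeta (K : Type u) [Field K] [Fintype K] [StarRing K] (q : ℕ) (_ : 3 ≤ q)
    (hK : Nat.card K = q ^ 2) (hs : ∀ x : K, star x = x ^ q) (p : ℕ) [hp : Fact p.Prime]
    (hpq : p ∣ q + 1) : ∃ ζ : K, ζ ^ p = 1 ∧ ζ ≠ 1 ∧ ζ * star ζ = 1 :=
  Vale.Agent.P240.R2.H296.exists_zeta hK hs hp.out hpq

theorem all : StmtALL.{u, v} :=
  stmtALL H387.stmtM2 H938.m6 H938.stmtSUB H195.stmtA1g H402.stmtA2 H979.stmtA3g H221.stmtA4 hzeta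

theorem as_of (hA8 : StmtA8.{u}) : StmtAS.{u, v} :=
  stmtAS H387.stmtM2 H727.stmtM4 H938.m6 H938.stmtSUB H195.stmtA1 H402.stmtA2 H979.stmtA3
    H221.stmtA4 H613.stmtA5 (H687.stmtA7_of H387.stmtM2 H938.stmtM4c) hA8 H195.stmtREL H195.stmtCYC
    stmtLTE hzeta

end Vale.Agent.P240.R2.H63.As
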