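import Vale.Agent.P240.R2.H63.AsDone
import Vale.Agent.P240.R2.H164.A8

namespace Vale.Agent.P240.R2.H63.As
open Vale.Agent.P240.R2.AS
universe u v

/-- QD_p for every extension of `PSU_n(q)` by inner, diagonal and field automorphisms (`p` odd). -/
theorem as : StmtAS.{u, v} := as_of (H164.stmtA8_of H387.stmtM2 H402.stmtA2)

end Vale.Agent.P240.R2.H63.As
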