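import Vale.Agent.P240.R2.H487.NT2
import Vale.Agent.P240.R2.H275.Core
import Vale.Agent.P240.H148.Two

/-!
Local or `l`-adic conditions for some components, elimination of the other ones.
-/

namespace Vale.Agent.P240.R2.H63

open Finsupp Subgroup Vale.Agent.P240.K Vale.Agent.P240.H195
open Vale.Agent.P240.R2.H487 Vale.Agent.P240.R2.H275 Vale.Agent.P240.H148

universe u v

section
variable {G : Type u} [Group G] {p : ℕ}

/-- the common centralizer of a set `T` of components, if the other components satisfy the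
local condition -/
theorem twin_core {𝕜 : Type v} [Field 𝕜] [hp : Fact p.Prime] [Finite G]
    (hO : OpTrivial p G) (hO' : OpPrimeTrivial p G) {S X : Set G} {T : Set (Subgroup G)}
    (hTF : T ⊆ Q.Comp G) (hTc : ∀ (L : Subgroup G) (g : G), K.cj g L ∈ T → L ∈ T)
    (h : ∀ L ∈ Q.Comp G, L ∉ T → TwinGood p S X L) : NA 𝕜 (Ain p (Cen T)) := by
  classical
  have hF : Family p (K.Comp G) := comp_family hO hO'
  set D : Set (Subgroup G) := {L | L ∈ Q.Comp G ∧ L ∉ T} with hD
  have hDF : D ⊆ K.Comp G := fun L hL => hL.1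
  have hconj : ∀ L ∈ D, ∀ g : G, L.map (MulAut.conj g).toMonoidHom ∈ D :=
    fun L hL g => ⟨hF.conj L hL.1 g, fun hcon => hL.2 (hTc L g hcon)⟩
  have hT : ∀ L ∈ D, TwinGood p S X L := fun L hL => h L hL.1 hL.2
  have hC := comp_rest hO hO'
  obtain ⟨D2, hD2, hD2', hHit, hFull⟩ := exists_D2 hF hDF hconj hC hT
  obtain ⟨k, hk⟩ := sign_const2 hF hDF hconj hC hHit hFull hT
  refine NA_of_rat (Set.toFinite _) ?_
  by_contra hac
  have h0 : ∑ z ∈ (Set.toFinite (Sel2 D D2 S X)).toFinset,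
      lam p (Rz (Rest (K.Comp G) D) D) z = 0 := by
    refine (family_Fam hF hDF hconj).extract
      (fun L hL h _ hp' hn s hs hsL => ((hT L hL).move h hp' hn s hsL).1 hs)
      (fun L hL h _ hp' hn s hs hsL => ((hT L hL).move h hp' hn s hsL).2 hs)
      (fun L hL => (hT L hL).zero) (fun g hg => ?_) D2 hD2
    have h0 : ((0 : ℕ) : ℤ) ∣ lam p (Rest (K.Comp G) D) g :=
      residue_lam hF (T := T) (fun L hL => hTF hL) (fun L hL => hL.2) hp.out.ne_zero.symm
        (fun L h1 h2 h3 => absurd ⟨h1, h2⟩ h3) hac hg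
    rw [Nat.cast_zero, zero_dvd_iff] at h0
    exact h0
  obtain ⟨y, hy⟩ := sel2_nonempty (D2 := D2) hF hDF hT hD2'
  have h1 : 0 < ∑ z ∈ (Set.toFinite (Sel2 D D2 S X)).toFinset,
      (-1 : ℤ) ^ k * lam p (Rz (Rest (K.Comp G) D) D) z :=
    Finset.sum_pos (fun z hz => hk z ((Set.Finite.mem_toFinset _).1 hz))
      ⟨y, (Set.Finite.mem_toFinset _).2 hy⟩
  rw [← Finset.mul_sum, h0, mul_zero] at h1
  exact lt_irrefl _ h1

/-- the common centralizer of a set `T` of components, if the other components satisfy the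
`l`-adic condition or `FreeSub` -/
theorem adic_core {𝕜 : Type v} [Field 𝕜] [hp : Fact p.Prime] [Finite G] (hO : OpTrivial p G)
    (hO' : OpPrimeTrivial p G) {S : Set G} {T : Set (Subgroup G)}
    (hTF : T ⊆ Q.Comp G) (hTc : ∀ (L : Subgroup G) (g : G), K.cj g L ∈ T → L ∈ T)
    {l : ℕ} (hl : l.Prime)
    (h : ∀ L ∈ Q.Comp G, L ∉ T → AdicGood p l S L ∨ FreeSub p l L) : NA 𝕜 (Ain p (Cen T)) := by
  classical
  have : Fact l.Prime := ⟨hl⟩
  have hfam : Family p (K.Comp G) := comp_family hO hO'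
  set D : Set (Subgroup G) := {L | L ∈ Q.Comp G ∧ L ∉ T} with hD
  have hDF : D ⊆ K.Comp G := fun L hL => hL.1
  have hconj : ∀ L ∈ D, ∀ g : G, L.map (MulAut.conj g).toMonoidHom ∈ D :=
    fun L hL g => ⟨hfam.conj L hL.1 g, fun hcon => hL.2 (hTc L g hcon)⟩
  have hloc : ∀ L ∈ D, AdicGood p l S L ∨ FreeSub p l L := fun L hL => h L hL.1 hL.2
  set S' : Set G := {x | (x ∈ S ∧ (x = 1 ∨ ∀ L ∈ D, FreeSub p l L → x ∉ L)) ∨
    ((1 : G) ∉ S ∧ x ≠ 1 ∧ ∃ L ∈ D, FreeSub p l L ∧ x ∈ L)} with hS'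
  have hdisj : ∀ L ∈ D, ∀ M ∈ D, L ≠ M → ∀ x ∈ L, x ∈ M → x = 1 := by
    intro L hL M hM hne x hxL hxM
    have h1 : x ∈ L ⊓ centralizer (L : Set G) := by
      refine ⟨hxL, mem_centralizer_iff.2 fun y hy => ?_⟩
      exact hfam.comm L (hDF hL) M (hDF hM) hne y hy x hxM
    rw [hfam.centre L (hDF hL)] at h1
    exact h1
  have hfree1 : ∀ L ∈ D, FreeSub p l L → (1 : G) ∈ S → ∀ x ∈ L, (x ∈ S' ↔ x = 1) := by
    intro L hL hF h1 x hx
    constructor
    · rintro (⟨_, h2 | h2⟩ | ⟨h2, _⟩)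
      · exact h2
      · exact absurd hx (h2 L hL hF)
      · exact absurd h1 h2
    · rintro rfl
      exact Or.inl ⟨h1, Or.inl rfl⟩
  have hfree2 : ∀ L ∈ D, FreeSub p l L → (1 : G) ∉ S → ∀ x ∈ L, (x ∈ S' ↔ x ≠ 1) := by
    intro L hL hF h1 x hx
    constructor
    · rintro (⟨h2, h3 | h3⟩ | ⟨_, h2, _⟩)
      · rintro rfl
        exact h1 h2
      · exact absurd hx (h3 L hL hF)
      · exact h2
    · intro h2
      exact Or.inr ⟨h1, h2, L, hL, hF, hx⟩
  have hadic : ∀ L ∈ D, ¬ FreeSub p l L → ∀ x ∈ L, (x ∈ S' ↔ x ∈ S) := by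
    intro L hL hF x hx
    constructor
    · rintro (⟨h2, _⟩ | ⟨_, h2, M, hM, hMF, hxM⟩)
      · exact h2
      · refine absurd (hdisj L hL M hM ?_ x hx hxM) h2
        rintro rfl
        exact hF hMF
    · intro h2
      refine Or.inl ⟨h2, ?_⟩
      by_cases h3 : x = 1
      · exact Or.inl h3
      · refine Or.inr fun M hM hMF hxM => h3 (hdisj L hL M hM ?_ x hx hxM)
        rintro rfl
        exact hF hMF
  refine adic_cen (S := S') hl hfam (comp_rest hO hO') (D := D) hDF hconj (fun L hL => ?_)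
    (T := T) hTF (fun L hL => hL.2) (fun L hL => ?_)
  rotate_left
  · by_cases h1 : L ∈ T
    · exact Or.inr h1
    · exact Or.inl ⟨hL, h1⟩
  by_cases hF : FreeSub p l L
  · refine ⟨fun h hh hn s hs hsL => ?_, fun g hg s hs hsL => ?_, 0, ?_, ?_⟩
    · have h1 : h * s * h⁻¹ ∈ K.cj h L := cj_mul_mem hsL
      have h2 : K.cj h L ∈ D := hconj L hL h
      have h3 : FreeSub p l (K.cj h L) := freeSub_cj hF h
      by_cases h1S : (1 : G) ∈ S
      · rw [hfree1 _ h2 h3 h1S _ h1]
        rw [hfree1 L hL hF h1S s hsL] at hs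
        rw [hs, mul_one, mul_inv_cancel]
      · rw [hfree2 _ h2 h3 h1S _ h1]
        rw [hfree2 L hL hF h1S s hsL] at hs
        intro h4
        exact hs (by simpa using h4)
    · have h1 : g * s * g⁻¹ ∈ L := L.mul_mem (L.mul_mem hg hsL) (L.inv_mem hg)
      by_cases h1S : (1 : G) ∈ S
      · rw [hfree1 _ hL hF h1S _ h1]
        rw [hfree1 L hL hF h1S s hsL] at hs
        rw [hs, mul_one, mul_inv_cancel]
      · rw [hfree2 _ hL hF h1S _ h1]
        rw [hfree2 L hL hF h1S s hsL] at hs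
        intro h4
        exact hs (by simpa using h4)
    · rw [zero_add, pow_one]
      have hlam := free_lam (p := p) (l := l) (hfam.centre L (hDF hL)) hF
      have hmem1 : (1 : G) ∈ (Set.toFinite (L : Set G)).toFinset := by
        rw [Set.Finite.mem_toFinset]
        exact L.one_mem
      rw [wsum_eq]
      simp only [ite_mul, one_mul, zero_mul]
      by_cases h1S : (1 : G) ∈ S
      · have h1 : ∑ a ∈ (Set.toFinite (L : Set G)).toFinset,
            (if a ∈ S' then lam p L a else 0) = lam p L 1 := by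
          rw [Finset.sum_eq_single_of_mem 1 hmem1]
          · rw [if_pos ((hfree1 L hL hF h1S 1 L.one_mem).2 rfl)]
          · intro b hb hb1
            rw [Set.Finite.mem_toFinset] at hb
            rw [if_neg fun h => hb1 ((hfree1 L hL hF h1S b hb).1 h)]
        rw [h1]
        exact hlam
      · have h1 : ∑ a ∈ (Set.toFinite (L : Set G)).toFinset,
            (if a ∈ S' then lam p L a else 0) = - lam p L 1 := by
          have hw := webb (p := p) L (hfam.dvd L (hDF hL))
          rw [← Finset.add_sum_erase _ _ hmem1] at hw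
          rw [← Finset.add_sum_erase _ _ hmem1,
            if_neg fun h => (hfree2 L hL hF h1S 1 L.one_mem).1 h rfl, zero_add]
          have h2 : ∑ x ∈ (Set.toFinite (L : Set G)).toFinset.erase 1,
              (if x ∈ S' then lam p L x else 0) =
              ∑ x ∈ (Set.toFinite (L : Set G)).toFinset.erase 1, lam p L x := by
            refine Finset.sum_congr rfl fun x hx => ?_
            rw [Finset.mem_erase, Set.Finite.mem_toFinset] at hx
            rw [if_pos ((hfree2 L hL hF h1S x hx.2).2 hx.1)]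
          rw [h2]
          linarith
        rw [h1, dvd_neg]
        exact hlam
    · intro E hEN hE hEC
      rw [zero_add, pow_one]
      exact Dvd.dvd.mul_right (by exact_mod_cast free_index hF hE hEN hEC) _
  · have hA := (hloc L hL).resolve_right hF
    obtain ⟨k, hk1, hk2⟩ := hA.adic
    have hws : ∀ K ≤ L, wsum p S' K = wsum p S K := by
      intro K hK
      have h1 : S' ∩ (K : Set G) = S ∩ (K : Set G) := by
        ext x
        constructor
        · rintro ⟨h1, h2⟩
          exact ⟨(hadic L hL hF x (hK h2)).1 h1, h2⟩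
        · rintro ⟨h1, h2⟩
          exact ⟨(hadic L hL hF x (hK h2)).2 h1, h2⟩
      rw [wsum, wsum, h1]
    refine ⟨fun h hh hn s hs hsL => ?_, fun g hg s hs hsL => ?_, k, ?_, ?_⟩
    · have h1 : h * s * h⁻¹ ∈ K.cj h L := cj_mul_mem hsL
      have h2 : K.cj h L ∈ D := hconj L hL h
      rw [hadic _ h2 (fun h3 => hF (freeSub_cj_iff.1 h3)) _ h1]
      exact hA.move h hh hn s ((hadic L hL hF s hsL).1 hs) hsL
    · have h1 : g * s * g⁻¹ ∈ L := L.mul_mem (L.mul_mem hg hsL) (L.inv_mem hg)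
      rw [hadic _ hL hF _ h1]
      exact hA.conj g hg s ((hadic L hL hF s hsL).1 hs) hsL
    · rw [hws L le_rfl]
      exact hk1
    · intro E hEN hE hEC
      rw [hws _ inf_le_left]
      exact hk2 E hEN hE hEC


/-- **Local or `l`-adic conditions, with elimination of the other components.** -/
theorem mixed_main {𝕜 : Type v} [Field 𝕜] [hp : Fact p.Prime] [Finite G] (hO : OpTrivial p G)
    (hO' : OpPrimeTrivial p G) (D : Set (Subgroup G)) (S A X : Set G)
    (hc : ∀ L ∈ D, ∀ g : G, L.map (MulAut.conj g).toMonoidHom ∈ D)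
    (hl : (∀ L ∈ D, Q.Local p S A X L) ∨
      ∃ l : ℕ, l.Prime ∧ ∀ L ∈ D, Q.Adic p l S L ∨ FreeSub p l L)
    (hT : ∀ L ∈ Q.Comp G, L ∈ D ∨ LocN p L ∨ Removable 𝕜 p L ∨ RigidLie p L ∨
      ((p : 𝕜) = 0 ∧ JumpSub 𝕜 p L) ∨ (p = 2 ∧ PauliPSL L)) : HQ 𝕜 p G := by
  refine combineP hO hO' (P := fun L => L ∈ D) (fun L g hL => hc L hL g) ?_ fun L hL => ?_
  · intro T hTF hTc hP
    rcases hl with h | ⟨l, hl, h⟩
    · exact twin_core hO hO' hTF hTc fun L hL hLT => local_twin (h L (hP L hL hLT))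
    · exact adic_core hO hO' hTF hTc hl fun L hL hLT => (h L (hP L hL hLT)).imp_left adic_adic
  · rcases hT L hL with h | h | h | h | h | h
    · exact Or.inr (Or.inr (Or.inr (Or.inr h)))
    · exact Or.inl (Or.inl h)
    · exact Or.inr (Or.inr (Or.inr (Or.inl h)))
    · exact Or.inr (Or.inl h)
    · exact Or.inr (Or.inr (Or.inl ⟨h.1, h.2.qdl⟩))
    · obtain ⟨h1, h2⟩ := h
      subst h1
      exact Or.inl (Or.inr (pauli_locTopF (comp_factor hO hO' hL).1 h2))

end

end Vale.Agent.P240.R2.H63
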