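import Vale.Agent.P240.R2.H63.Fin

/-!
`p`-solvable groups have the Quillen dimension property.
-/

namespace Vale.Agent.P240.R2.H63

open Finsupp Subgroup Vale.Agent.P240.K Vale.Agent.P240.H195
open Vale.Agent.P240.R2.H487 Vale.Agent.P240.R2.H275

universe u v

section
variable {G : Type u} [Group G] {p : ℕ}

/-- a finite group without minimal normal subgroups of minimal normal subgroups is trivial -/
lemma trivial_of_comp [Finite G] (h : ∀ L : Subgroup G, L ∉ Q.Comp G) (x : G) : x = 1 := by
  by_contra hx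
  have h1 : (⊤ : Subgroup G) ≠ ⊥ := by
    intro h1
    have h2 : x ∈ (⊤ : Subgroup G) := mem_top x
    rw [h1, mem_bot] at h2
    exact hx h2
  obtain ⟨M, -, hM⟩ := l2_exists_min (⊤ : Subgroup G) inferInstance h1
  have h2 : (⊤ : Subgroup M) ≠ ⊥ := by
    intro h2
    apply hM.2.1
    rw [eq_bot_iff]
    intro y hy
    have h3 : (⟨y, hy⟩ : M) ∈ (⊤ : Subgroup M) := mem_top _
    rw [h2, mem_bot] at h3
    exact mem_bot.2 (congrArg Subtype.val h3)
  obtain ⟨K, -, hK⟩ := l2_exists_min (⊤ : Subgroup M) inferInstance h2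
  exact h _ ⟨M, hM, K, hK, rfl⟩

/-- the centralizer of `O_{p'}(G)` -/
theorem cent_le_of [hp : Fact p.Prime] [Finite G] (hO : OpTrivial p G) (N : Subgroup G) [N.Normal]
    (hN : ¬ p ∣ Nat.card N) (hmax : ∀ X : Subgroup G, X.Normal → ¬ p ∣ Nat.card X → X ≤ N)
    (h : ∀ (L : Type u) [Group L], CompFactor G L → ¬ p ∣ Nat.card L) :
    centralizer (N : Set G) ≤ N := by
  have hO1 := reduced_op hO N hN
  have hO2 := reduced_op' N hN hmax
  have h1 : ∀ L : Subgroup (Reduced N), L ∉ Q.Comp (Reduced N) := by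
    intro L hL
    have h1 : CompFactor (Reduced N) L := comp_factor hO1 hO2 hL
    have h2 : CompFactor (centralizer (N : Set G)) L :=
      h1.of_map (QuotientGroup.mk' _) (QuotientGroup.mk'_surjective _)
    have h3 : CompFactor G L :=
      h2.of_sub (inferInstance : (centralizer (N : Set G)).Normal).isSubnormal
    exact h L h3 (l2_dvd hO2 L hL)
  intro x hx
  have h2 := trivial_of_comp h1 (QuotientGroup.mk' _ (⟨x, hx⟩ : centralizer (N : Set G)))
  rw [QuotientGroup.mk'_apply, QuotientGroup.eq_one_iff, mem_subgroupOf] at h2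
  exact h2

/-- **`p`-solvable groups**: all composition factors have order `p` or prime to `p`. -/
theorem quillenDim_psolvable {𝕜 : Type v} [Field 𝕜] [hp : Fact p.Prime] [Finite G]
    (hO : OpTrivial p G) (h : ∀ (L : Type u) [Group L], CompFactor G L → ¬ p ∣ Nat.card L) :
    QuillenDim 𝕜 p G := by
  classical
  by_cases hE : ∃ E : Subgroup G, ElemAb p E
  · obtain ⟨E₀, hE₀⟩ := hE
    obtain ⟨E, hE, hEmax⟩ := Set.exists_max_image {E : Subgroup G | ElemAb p E}
      (fun E => Nat.card E) (Set.toFinite _) ⟨E₀, hE₀⟩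
    obtain ⟨N, hNn, hN, hmax⟩ := l2_exists_pprime (p := p) (H := G)
    have hle := cent_le_of hO N hN hmax h
    refine quillenDim_coprime (E := E) (Y := N) hE (fun F hF => hEmax F hF) hN
      (fun x _ y hy => hNn.conj_mem y hy x) fun x hx hxN => ?_
    · have h1 : x ∈ N := hle (mem_centralizer_iff.2 fun y hy => (hxN y hy).symm)
      have h2 : orderOf x ∣ p := orderOf_dvd_of_pow_eq_one (hE.2.2 x hx)
      have h3 : orderOf x ∣ Nat.card N := by
        have : orderOf (⟨x, h1⟩ : N) ∣ Nat.card N := orderOf_dvd_natCard _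
        rwa [Subgroup.orderOf_mk] at this
      rcases (Nat.dvd_prime hp.out).1 h2 with h4 | h4
      · exact orderOf_eq_one_iff.1 h4
      · exact absurd (h4 ▸ h3) hN
  · push Not at hE
    rw [quillenDim_iff]
    refine ⟨0, fun F hF => absurd hF.1 (hE F), single [] 1, ?_, by simp, by simp⟩
    refine single_mem_Sp ⟨⟨List.Pairwise.nil, by simp⟩, rfl⟩ _

end

end Vale.Agent.P240.R2.H63
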