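import Vale.Agent.P240.R2.H63.TwoDefs
import Vale.Agent.P240.R2.H487.TwoM

/-!
The main theorem for the prime `2`.
-/

namespace Vale.Agent.P240.R2.H63

open Subgroup Vale.Agent.P240.K Vale.Agent.P240.H195
open Vale.Agent.P240.R2.H487 Vale.Agent.P240.R2.H275

universe u v

theorem PSLTwo.linTwo {𝕜 : Type v} [Field 𝕜] {L : Type u} [Group L] (h : PSLTwo L) :
    LinTwo 𝕜 2 L := by
  obtain ⟨n, F, hF1, hF2, hex1, hex2, ⟨e⟩⟩ := h
  refine ⟨n, F, hF1, hF2, fun a ha hn hq => Or.inr (Or.inr ?_), ⟨e⟩⟩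
  have h1 := hex1 a ha hn
  simp only [Set.mem_insert_iff, Set.mem_singleton_iff, not_or] at h1 hq
  have h3 : Nat.card F = 3 := by omega
  refine ⟨rfl, h3, fun h8 => hex2 ⟨h8, ?_, by rw [h3]⟩⟩
  have : Fintype F := Fintype.ofFinite F
  have h4 := FiniteField.cast_card_eq_zero F
  rw [← Nat.card_eq_fintype_card, h3] at h4
  exact_mod_cast h4

/-- the groups `PSL_n(F)` for `p = 2` -/
theorem PSLTwo.listed {𝕜 : Type v} [Field 𝕜] {G : Type u} [Group G] {L : Type u} [Group L]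
    (hL : CompFactor G L) (h : PSLTwo L) : ListedFactorP 𝕜 2 2 L :=
  (PSLTwo.linTwo h).listed Nat.prime_two hL

/-- **The main theorem for the prime `2`**: alternating groups and groups `PSL_n(F)`. -/
theorem two_main [Fact (Nat.Prime 2)] {𝕜 : Type v} [Field 𝕜] {G : Type u} [Group G] [Finite G]
    (hO : OpTrivial 2 G)
    (h : ∀ (L : Type u) [Group L], CompFactor G L → 2 ∣ Nat.card L →
      (∃ n : ℕ, 5 ≤ n ∧ Nonempty (L ≃* alternatingGroup (Fin n))) ∨ PSLTwo L) : HQ 𝕜 2 G :=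
  lin_two (l := 2) Nat.prime_two hO fun L _ hL hd => (h L hL hd).imp id PSLTwo.linTwo

end Vale.Agent.P240.R2.H63
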