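import Vale.Agent.P240.R2.H63.StDefs
import Vale.Agent.P240.R2.H612.MinC
import Vale.Agent.P240.R2.H63.PSolv
import Vale.Agent.P240.R2.H63.Two
import Vale.Agent.P240.R2.H63.Mixed

/-!
The parts of `CoprimeRadical` in terms of the definitions of `StDefs`.
-/

namespace Vale.Agent.P240.R2.H63

open Subgroup Vale.Agent.P240.K Vale.Agent.P240.H195
open Vale.Agent.P240.R2.H487 Vale.Agent.P240.R2.H275

universe u v

section
variable {𝕜 : Type v} [Field 𝕜] {p : ℕ} [hp : Fact p.Prime] {G : Type u} [Group G] [Finite G]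

theorem st_linked {C A : Subgroup G} (h : Linked p C A) (hC : HQ 𝕜 p C) : HQ 𝕜 p G := by
  obtain ⟨h1, h2, h3, h4⟩ := h
  refine coprime_elim C A h1 h2 h3 (fun E hE hAE hEC => ?_) hC
  obtain ⟨W, ⟨h5, h6, h7⟩, h8⟩ := h4 E hE hAE hEC
  exact ⟨W, h5, h6, h7, h8⟩

theorem st_family {D : Set (Subgroup G)} (hD : CommFam p D)
    (h : ∀ L ∈ D, Elim 𝕜 p L ∧ (PauliPSL L → IsSimpleGroup L)) (hC : HQ 𝕜 p (CenAll D)) :
    HQ 𝕜 p G := by
  obtain ⟨h1, h2, h3⟩ := hD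
  refine family_elimP h1 h2 (fun L hL => (h3 L hL).1) (fun L hL => (h3 L hL).2)
    (fun L hL => ?_) hC
  obtain ⟨h4 | h4 | h4 | h4 | h4, h5⟩ := h L hL
  · exact Or.inl h4
  · exact Or.inr (Or.inl h4)
  · exact Or.inr (Or.inr (Or.inl h4))
  · exact Or.inr (Or.inr (Or.inr (Or.inl h4)))
  · exact Or.inr (Or.inr (Or.inr (Or.inr ⟨h4.1, h5 h4.2, h4.2⟩)))

omit hp [Finite G] in
theorem Good.listed {l : ℕ} {L : Subgroup G} : Good 𝕜 p l L ↔ ListedP 𝕜 p l L := by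
  constructor
  · rintro (h | h | h | h | h | h)
    · exact Or.inr (Or.inl h)
    · exact Or.inr (Or.inr (Or.inl h))
    · exact Or.inr (Or.inr (Or.inr (Or.inl h)))
    · exact Or.inl h
    · exact Or.inr (Or.inr (Or.inr (Or.inr (Or.inl h))))
    · exact Or.inr (Or.inr (Or.inr (Or.inr (Or.inr h))))
  · rintro (h | h | h | h | h | h)
    · exact Or.inr (Or.inr (Or.inr (Or.inl h)))
    · exact Or.inl h
    · exact Or.inr (Or.inl h)
    · exact Or.inr (Or.inr (Or.inl h))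
    · exact Or.inr (Or.inr (Or.inr (Or.inr (Or.inl h))))
    · exact Or.inr (Or.inr (Or.inr (Or.inr (Or.inr h))))

theorem st_factor {l : ℕ} (hl : l.Prime) (hO : OpTrivial p G)
    (h : ∀ (L : Type u) [Group L], CompFactor G L → p ∣ Nat.card L → GoodFac 𝕜 p l L) :
    HQ 𝕜 p G := by
  refine factor_mainP hl hO fun L _ hL hd => ?_
  rcases h L hL hd with h | h | h | h | h
  · exact Or.inr (Or.inl h)
  · exact Or.inr (Or.inr (Or.inl h))
  · exact Or.inr (Or.inr (Or.inr (Or.inl h)))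
  · exact Or.inl h
  · exact Or.inr (Or.inr (Or.inr (Or.inr h)))

theorem st_minimal (hO : OpTrivial p G) (hG : ¬ HQ 𝕜 p G)
    (hmin : ∀ (H : Type u) [Group H] [Finite H], Nat.card H < Nat.card G → OpTrivial p H →
      HQ 𝕜 p H) :
    OpPrimeTrivial p G ∧ (∀ L ∈ Q.Comp G, ¬ Elim 𝕜 p L) ∧
      ∀ l : ℕ, l.Prime → ∃ L ∈ Q.Comp G, ¬ Good 𝕜 p l L := by
  obtain ⟨h1, h2, h3⟩ := H612.minimal_main hO hG hmin
  refine ⟨h1, h2, fun l hl => ?_⟩
  obtain ⟨L, hL, h4⟩ := h3 l hl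
  exact ⟨L, hL, fun h => h4 (Good.listed.1 h)⟩

theorem st_manageable (hO : OpTrivial p G) (hO' : OpPrimeTrivial p G) (h : Manageable 𝕜 p G) :
    HQ 𝕜 p G := by
  rcases h with ⟨l, hl, h⟩ | h | h | ⟨D, S, A, X, hc, hl, hT⟩
  · exact handled_mainP hO hO' hl fun L hL =>
      listed_handledP hO hO' hL (Good.listed.1 (h L hL))
  · exact comp_separated hO hO' h
  · exact comp_labelled hO hO' h
  · exact mixed_main hO hO' D S A X hc hl hT

theorem st_reduce (h : ∀ (G : Type u) [Group G] [Finite G], OpTrivial p G → OpPrimeTrivial p G →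
    HQ 𝕜 p G) (hO : OpTrivial p G) : HQ 𝕜 p G := by
  obtain ⟨N, hNn, hN, hmax⟩ := l2_exists_pprime (p := p) (H := G)
  exact reduce_all' N hN (h _ (reduced_op hO N hN) (reduced_op' N hN hmax))

end

end Vale.Agent.P240.R2.H63
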