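import Vale.Agent.P240.R2.H986.B8r
import Vale.Agent.P240.R2.H63.AsAut
import Vale.Agent.P240.R2.H63.AsAll
import Vale.Agent.P240.R2.H63.StMain
import Vale.Agent.P240.R2.H63.Two

/-!
Consequences of the Quillen dimension property of the `p`-extensions of `PSU_n(q)`.
-/

set_option autoImplicit false

namespace Vale.Agent.P240.R2.H63.As

open Finset Matrix Vale.Agent.P240 Vale.Agent.P240.K Vale.Agent.P240.R2.AS Vale.Agent.P240.H195
open Vale.Agent.P240.R2.H275 Vale.Agent.P240.R2.H63 Vale.Agent.P240.R2.H487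
open scoped Classical

universe u v w

/-- passage to groups of automorphisms -/
theorem abs_of (hTR : StmtTR.{u}) (hINJ : StmtINJ.{u})
    (K : Type u) [Field K] [Fintype K] [StarRing K] (q : ℕ) (hq : 3 < q) (hK : Nat.card K = q ^ 2)
    (hs : ∀ x : K, star x = x ^ q) (hqo : q % 2 = 1) (p : ℕ) (n : ℕ) (hn : 3 ≤ n)
    (𝕜 : Type v) [Field 𝕜]
    (h : ∀ E : Subgroup (PGamU K n), (∀ x ∈ E, ∀ y ∈ E, x * y = y * x) → (∀ x ∈ E, x ^ p = 1) →
      QuillenDim 𝕜 p ↥(PSU' K n ⊔ E))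
    (E : Subgroup (MulAut ↥(PSU K n))) (hEc : ∀ x ∈ E, ∀ y ∈ E, x * y = y * x)
    (hEp : ∀ x ∈ E, x ^ p = 1) :
    QuillenDim 𝕜 p ↥((MulAut.conj (G := ↥(PSU K n))).range ⊔ E) := by
  have hinj : Function.Injective (th K n) := th_inj (h := hINJ K q (by omega) hK hs hqo n hn)
  have hsurj : Function.Surjective (th K n) := th_surj (h := hTR K q hq hK hs hqo n hn)
  set E0 := E.comap (th K n) with hE0
  have hE : E0.map (th K n) = E := Subgroup.map_comap_eq_self_of_surjective hsurj E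
  have h1 : (MulAut.conj (G := ↥(PSU K n))).range ⊔ E = (PSU' K n ⊔ E0).map (th K n) := by
    rw [Subgroup.map_sup, th_psu, hE]
  rw [h1, qd_map hinj]
  refine h E0 ?_ ?_
  · intro x hx y hy
    apply hinj
    rw [map_mul, map_mul]
    exact hEc _ hx _ hy
  · intro x hx
    apply hinj
    rw [map_pow, map_one]
    exact hEp _ hx

/-- B8a: the groups `Inn(L) E`, `E` an elementary abelian `2`-subgroup of `Aut(L)`, `L = PSU_n(q)`,
`n` and `q` odd -/
def StmtB8a : Prop :=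
  ∀ (K : Type u) [Field K] [Fintype K] [StarRing K] (q : ℕ), q % 2 = 1 → 11 ≤ q →
    Nat.card K = q ^ 2 → (∀ x : K, star x = x ^ q) → ∀ n : ℕ, n % 2 = 1 → 3 ≤ n →
    ∀ E : Subgroup (MulAut ↥(PSU K n)), (∀ x ∈ E, ∀ y ∈ E, x * y = y * x) →
    (∀ x ∈ E, x ^ 2 = 1) → ∀ (𝕜 : Type v) [Field 𝕜],
    QuillenDim 𝕜 2 ↥((MulAut.conj (G := ↥(PSU K n))).range ⊔ E)

theorem stmtB8a (hB8 : H986.B7.StmtB8r.{u, v}) (hTR : StmtTR.{u}) (hINJ : StmtINJ.{u}) :
    StmtB8a.{u, v} := by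
  intro K _ _ _ q hqo hq hK hs n hno hn E hEc hEp 𝕜 _
  exact abs_of hTR hINJ K q (by omega) hK hs hqo 2 n hn 𝕜
    (fun E hc hp => hB8 K q (Nat.odd_iff.2 hqo) hq hK hs n (Nat.odd_iff.2 hno) hn E hc hp 𝕜)
    E hEc hEp

lemma jumpQD_of {𝕜 : Type v} [Field 𝕜] {p : ℕ} [Fact p.Prime] {L : Type u} [Group L] [Finite L]
    (hpL : p ∣ Nat.card L) (hZ : ∀ x : L, (∀ y, x * y = y * x) → x = 1)
    (h : ∀ E : Subgroup (MulAut L), (∀ x ∈ E, ∀ y ∈ E, x * y = y * x) → (∀ x ∈ E, x ^ p = 1) →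
      QuillenDim 𝕜 p ↥((MulAut.conj (G := L)).range ⊔ E)) : JumpQD 𝕜 p L := by
  intro A hA
  haveI : Finite (MulAut L) :=
    Finite.of_injective (fun f : MulAut L => (f : L → L)) DFunLike.coe_injective
  obtain ⟨x, hx⟩ := exists_prime_orderOf_dvd_card' p hpL
  have hp : p.Prime := Fact.out
  have hinj : Function.Injective (MulAut.conj (G := L)) := by
    rw [injective_iff_map_eq_one]
    intro y hy
    refine hZ y fun z => ?_
    have := congrArg (fun f : MulAut L => f z) hy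
    simp only [MulAut.conj_apply, MulAut.one_apply] at this
    calc y * z = y * z * y⁻¹ * y := by group
      _ = z * y := by rw [this]
  set S : Set (Subgroup (MulAut L)) := {F | ElemAb p F ∧ F ≤ A} with hS
  have hne : S.Nonempty := by
    refine ⟨Subgroup.zpowers (MulAut.conj x), ⟨?_, ?_, ?_⟩, ?_⟩
    · intro h0
      rw [Subgroup.zpowers_eq_bot] at h0
      have h1 : x = 1 := hinj (by rw [h0, map_one])
      rw [h1, orderOf_one] at hx
      exact hp.one_lt.ne hx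
    · rintro _ ⟨i, rfl⟩ _ ⟨j, rfl⟩
      show MulAut.conj x ^ i * MulAut.conj x ^ j = MulAut.conj x ^ j * MulAut.conj x ^ i
      rw [← _root_.zpow_add, ← _root_.zpow_add, add_comm]
    · rintro _ ⟨i, rfl⟩
      show (MulAut.conj x ^ i) ^ p = 1
      rw [← _root_.zpow_natCast, ← _root_.zpow_mul, mul_comm, _root_.zpow_mul, _root_.zpow_natCast,
        ← map_pow, ← hx, pow_orderOf_eq_one, map_one, _root_.one_zpow]
    · rw [Subgroup.zpowers_le]
      exact hA.1 ⟨x, rfl⟩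
  obtain ⟨E, hE, hmax⟩ := Set.exists_max_image S (fun F => Nat.card F) (Set.toFinite S) hne
  have h1 := hA.2 E hE.1 hE.2 (fun F hF1 hF2 => hmax F ⟨hF1, hF2⟩)
  rw [← h1, sup_comm]
  exact h E hE.1.2.1 hE.1.2.2

end Vale.Agent.P240.R2.H63.As
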