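import Vale.Agent.P240.R2.AS.UDefs
import Vale.Agent.P240.R2.H63.AsFull
import Vale.Agent.P240.R2.H63.Inj
import Vale.Agent.P240.R2.H63.StMain
import Vale.Agent.P240.R2.H472.PH
import Vale.Agent.P240.R2.H487.TwoM
import Vale.Agent.P240.R2.H620.B4u
import Vale.Agent.P240.R2.H387.B8s
import Vale.Agent.P240.R2.H923.TR5

/-!
The parts of `AUnitary`.
-/

set_option autoImplicit false

namespace Vale.Agent.P240.R2.H63.As

open Matrix Vale.Agent.P240 Vale.Agent.P240.K Vale.Agent.P240.R2.AS Vale.Agent.P240.H195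
open Vale.Agent.P240.R2.H275 Vale.Agent.P240.R2.H63 Vale.Agent.P240.R2.H487

universe u v

variable {𝕜 : Type v} [Field 𝕜] {p : ℕ} [hp : Fact p.Prime]

/-- all automorphisms of `PSU_n(q)`, `n ≥ 3`, `q > 3`, `q ≠ 8` -/
theorem tr_all (K : Type) [Field K] [Fintype K] [StarRing K] (q : ℕ) (hq : 3 < q) (h8 : q ≠ 8)
    (hK : Nat.card K = q ^ 2) (hs : ∀ x : K, star x = x ^ q) (n : ℕ) (hn : 3 ≤ n)
    (α : MulAut ↥(PSU K n)) :
    ∃ (s : SA K) (g : GU K n), ∀ y : ↥(PSU K n),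
      ((α y : ↥(PSU K n)) : PGU K n) =
        (QuotientGroup.mk g : PGU K n) * act n s (y : PGU K n) *
          (QuotientGroup.mk g : PGU K n)⁻¹ := by
  rcases Nat.even_or_odd q with he | ho
  · exact H923.TR.stmtTReven K q (by omega) h8 he ⟨hK, hs⟩ n hn α
  · refine H472.tr_PSU hq hK hs ?_ hn α
    intro h2
    have hodd : Nat.card K % 2 = 1 := by
      rw [hK, pow_two, Nat.mul_mod, Nat.odd_iff.1 ho]
    have h3 : ringChar K = 2 := by
      have : ((2 : ℕ) : K) = 0 := by exact_mod_cast h2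
      have h4 := (ringChar.spec K 2).1 this
      rcases (Nat.dvd_prime Nat.prime_two).1 h4 with h5 | h5
      · exact absurd h5 (CharP.ringChar_ne_one)
      · exact h5
    have h6 : Nat.card K % 2 = 0 := by
      rw [Nat.card_eq_fintype_card]
      exact FiniteField.even_card_of_char_two h3
    omega

/-- passage to groups of automorphisms -/
theorem abs_all (K : Type) [Field K] [Fintype K] [StarRing K] (q : ℕ) (hq : 3 < q) (h8 : q ≠ 8)
    (hK : Nat.card K = q ^ 2) (hs : ∀ x : K, star x = x ^ q) (p : ℕ) (n : ℕ) (hn : 3 ≤ n)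
    (𝕜 : Type v) [Field 𝕜]
    (h : ∀ E : Subgroup (PGamU K n), (∀ x ∈ E, ∀ y ∈ E, x * y = y * x) → (∀ x ∈ E, x ^ p = 1) →
      QuillenDim 𝕜 p ↥(PSU' K n ⊔ E)) : ExtQD 𝕜 p ↥(PSU K n) := by
  intro E hE
  have hinj : Function.Injective (th K n) :=
    th_inj (h := Inj.inj (by omega) hK hs hn)
  have hsurj : Function.Surjective (th K n) := th_surj (h := tr_all K q hq h8 hK hs n hn)
  set E0 := E.comap (th K n) with hE0
  have hE' : E0.map (th K n) = E := Subgroup.map_comap_eq_self_of_surjective hsurj E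
  have h1 : (MulAut.conj (G := ↥(PSU K n))).range ⊔ E = (PSU' K n ⊔ E0).map (th K n) := by
    rw [Subgroup.map_sup, th_psu, hE']
  rw [h1, qd_map hinj]
  refine h E0 ?_ ?_
  · intro x hx y hy
    apply hinj
    rw [map_mul, map_mul]
    exact hE.1 _ hx _ hy
  · intro x hx
    apply hinj
    rw [map_pow, map_one]
    exact hE.2 _ hx

theorem part2 (K : Type u) [Field K] [Fintype K] [StarRing K] (q n : ℕ) (hH : Herm K q)
    (hU : UCase p q n) (hn : 2 ≤ n) (E : Subgroup (PGamU K n)) (hE : ExpP p E)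
    (h38 : p = 3 ∧ q = 8 → ∀ x ∈ E, x.right = 1) : QuillenDim 𝕜 p ↥(PSU' K n ⊔ E) := by
  obtain ⟨hpq, h2⟩ := hU
  by_cases hp2 : p = 2
  · subst hp2
    have hqo : Odd q := by
      rcases Nat.even_or_odd q with h | h
      · exfalso
        obtain ⟨k, hk⟩ := h
        obtain ⟨j, hj⟩ := hpq
        omega
      · exact h
    have h3 : 3 ≤ n := by
      have := (h2 rfl).1
      omega
    exact H387B8.stmtB8s K q hqo (h2 rfl).2 hH.2.1 hH.2.2 n (Nat.odd_iff.2 (h2 rfl).1) h3 E hE.1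
      hE.2 𝕜
  · exact as K q hH.1 hH.2.1 hH.2.2 p hp2 hpq n hn E hE.1 hE.2 h38 𝕜

theorem part2' (K : Type*) [Field K] [Fintype K] [StarRing K] (q n : ℕ) (hH : Herm K q)
    (hU : UCase p q n) (hn : 2 ≤ n) {Γ : Type u} [Group Γ] {S B : Subgroup Γ} (h : IsPGamU K n S B)
    (E : Subgroup Γ) (hE : ExpP p E) (h38 : p = 3 ∧ q = 8 → E ≤ B) :
    QuillenDim 𝕜 p ↥(S ⊔ E) := by
  obtain ⟨e, rfl, rfl⟩ := h
  have hinj : Function.Injective e.toMonoidHom := e.injective
  have h1 : (E.comap e.toMonoidHom).map e.toMonoidHom = E :=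
    Subgroup.map_comap_eq_self_of_surjective e.surjective E
  rw [← h1, ← Subgroup.map_sup, qd_map hinj]
  refine part2 K q n hH hU hn _ ⟨?_, ?_⟩ ?_
  · intro x hx y hy
    apply hinj
    rw [map_mul, map_mul]
    exact hE.1 _ hx _ hy
  · intro x hx
    apply hinj
    rw [map_pow, map_one]
    exact hE.2 _ hx
  · intro h x hx
    obtain ⟨_, ⟨y, rfl⟩, h2⟩ := h38 h hx
    rw [← hinj h2]
    rfl

theorem ExtQD.congr {A : Type*} {B : Type*} [Group A] [Group B] (e : A ≃* B) (h : ExtQD 𝕜 p A) :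
    ExtQD 𝕜 p B := by
  intro E hE
  set f : MulAut A →* MulAut B := (MulAut.congr e).toMonoidHom with hf
  have hinj : Function.Injective f := (MulAut.congr e).injective
  have hsurj : Function.Surjective f := (MulAut.congr e).surjective
  have hconj : ∀ x : A, f (MulAut.conj x) = MulAut.conj (e x) := by
    intro x
    ext z
    obtain ⟨z, rfl⟩ := e.surjective z
    simp [hf, MulAut.congr]
  have h2 : (MulAut.conj (G := A)).range.map f = (MulAut.conj (G := B)).range := by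
    ext y
    constructor
    · rintro ⟨_, ⟨x, rfl⟩, rfl⟩
      exact ⟨e x, (hconj x).symm⟩
    · rintro ⟨y, rfl⟩
      obtain ⟨x, rfl⟩ := e.surjective y
      exact ⟨MulAut.conj x, ⟨x, rfl⟩, hconj x⟩
  have h1 : (E.comap f).map f = E := Subgroup.map_comap_eq_self_of_surjective hsurj E
  rw [← h1, ← h2, ← Subgroup.map_sup, qd_map hinj]
  refine h _ ⟨?_, ?_⟩
  · intro x hx y hy
    apply hinj
    rw [map_mul, map_mul]
    exact hE.1 _ hx _ hy
  · intro x hx
    apply hinj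
    rw [map_pow, map_one]
    exact hE.2 _ hx

/-- all groups of `PSUFac` -/
theorem part1 {L : Type u} [Group L] (h : PSUFac p L) : ExtQD 𝕜 p L := by
  obtain ⟨n, q, K, _, _, _, hH, hn, hU, h38, ⟨e⟩⟩ := h
  refine ExtQD.congr e.symm ?_
  have hpp : p.Prime := Fact.out
  have hq3 : 3 < q := by
    rcases Nat.lt_or_ge 3 q with h | h
    · exact h
    · exfalso
      have hq' : q = 3 := le_antisymm h hH.1
      by_cases hp2 : p = 2
      · have := (hU.2 hp2).2
        omega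
      · have hpq := hU.1
        subst hq'
        have h4 : p ∣ 2 ^ 2 := by norm_num at hpq ⊢; exact hpq
        exact hp2 ((Nat.prime_dvd_prime_iff_eq hpp Nat.prime_two).1 (hpp.dvd_of_dvd_pow h4))
  have h8 : q ≠ 8 := by
    intro h
    apply h38
    refine ⟨?_, h⟩
    have hpq := hU.1
    rw [h] at hpq
    have h4 : p ∣ 3 ^ 2 := by norm_num at hpq ⊢; exact hpq
    exact (Nat.prime_dvd_prime_iff_eq hpp Nat.prime_three).1 (hpp.dvd_of_dvd_pow h4)
  exact abs_all K q hq3 h8 hH.2.1 hH.2.2 p n hn 𝕜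
    (fun E hc hp => part2 K q n hH hU (by omega) E ⟨hc, hp⟩ (fun h => absurd h h38))

theorem part3 (K : Type u) [Field K] [Fintype K] [StarRing K] (q n : ℕ) (hH : Herm K q)
    (hpq : p ∣ q + 1) (hn : 2 ≤ n) (h2 : p = 2 → n ≠ 2 ∧ n ≠ 4)
    (H : Subgroup (PGU K n)) (h : PSU K n ≤ H) : QuillenDim 𝕜 p H := by
  refine all K q hH.1 hH.2.1 hH.2.2 p hpq n hn ?_ H h 𝕜
  by_cases hp2 : p = 2
  · exact Or.inr (h2 hp2)
  · exact Or.inl hp2

theorem part3' (K : Type*) [Field K] [Fintype K] [StarRing K] (q n : ℕ) (hH : Herm K q)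
    (hpq : p ∣ q + 1) (hn : 2 ≤ n) (h2 : p = 2 → n ≠ 2 ∧ n ≠ 4) {Γ : Type u} [Group Γ]
    {S : Subgroup Γ} (h : IsPGU K n S) (H : Subgroup Γ) (hS : S ≤ H) : QuillenDim 𝕜 p H := by
  obtain ⟨e, rfl⟩ := h
  have hinj : Function.Injective e.toMonoidHom := e.injective
  have h1 : (H.comap e.toMonoidHom).map e.toMonoidHom = H :=
    Subgroup.map_comap_eq_self_of_surjective e.surjective H
  rw [← h1, qd_map hinj]
  exact part3 K q n hH hpq hn h2 _ (Subgroup.map_le_iff_le_comap.1 hS)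

theorem part4 (hp2 : p = 2) (K : Type u) [Field K] [Fintype K] [StarRing K]
    (hs : ∀ x : K, star x = x) (hK : Nat.card K % 2 = 1) (hK' : 11 ≤ Nat.card K) (n : ℕ)
    (hn : n % 2 = 1) (H : Subgroup (PGU K n)) (hH : commutator (PGU K n) ≤ H) :
    QuillenDim 𝕜 p H := by
  subst hp2
  exact H620.b4 K hs (Nat.odd_iff.2 hK) hK' n (Nat.odd_iff.2 hn) H hH 𝕜

theorem part4' (hp2 : p = 2) (K : Type*) [Field K] [Fintype K] [StarRing K]
    (hs : ∀ x : K, star x = x) (hK : Nat.card K % 2 = 1) (hK' : 11 ≤ Nat.card K) (n : ℕ)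
    (hn : n % 2 = 1) {Γ : Type u} [Group Γ] {S : Subgroup Γ} (h : IsPGU K n S) (H : Subgroup Γ)
    (hH : commutator Γ ≤ H) : QuillenDim 𝕜 p H := by
  obtain ⟨e, rfl⟩ := h
  have hinj : Function.Injective e.toMonoidHom := e.injective
  have h1 : (H.comap e.toMonoidHom).map e.toMonoidHom = H :=
    Subgroup.map_comap_eq_self_of_surjective e.surjective H
  rw [← h1, qd_map hinj]
  refine part4 hp2 K hs hK hK' n hn _ ?_
  rw [← Subgroup.map_le_iff_le_comap, map_commutator_eq]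
  refine le_trans (Subgroup.commutator_mono le_top le_top) hH

theorem jumpQD_uni {L : Type u} [Group L] [IsSimpleGroup L] (hL : ∃ x y : L, x * y ≠ y * x)
    (hpL : p ∣ Nat.card L) (h : PSUFac p L) : JumpQD 𝕜 p L := by
  have hfin : Finite L := by
    obtain ⟨n, q, K, _, _, _, hH, hn, hU, h38, ⟨e⟩⟩ := h
    exact Finite.of_equiv _ e.symm.toEquiv
  refine jumpQD_of hpL ?_ (fun E h1 h2 => part1 h E ⟨h1, h2⟩)
  intro x hx
  have h1 : x ∈ Subgroup.center L := by
    rw [Subgroup.mem_center_iff]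
    intro g
    exact (hx g).symm
  rcases (inferInstance : (Subgroup.center L).Normal).eq_bot_or_eq_top with h2 | h2
  · rw [h2, Subgroup.mem_bot] at h1
    exact h1
  · obtain ⟨a, b, hab⟩ := hL
    refine absurd ?_ hab
    have : b ∈ Subgroup.center L := by rw [h2]; trivial
    exact Subgroup.mem_center_iff.1 this a

theorem part5 (hk : (p : 𝕜) = 0) (G : Type u) [Group G] [Finite G] (D : Set (Subgroup G))
    (hD : CommFam p D) (h : ∀ L ∈ D, IsSimpleGroup L ∧ PSUFac p L) (hC : HQ 𝕜 p (CenAll D)) :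
    HQ 𝕜 p G := by
  refine st_family hD (fun L hL => ⟨?_, fun _ => (h L hL).1⟩) hC
  haveI : IsSimpleGroup L := (h L hL).1
  refine Or.inr (Or.inr (Or.inr (Or.inl ⟨hk, ?_⟩)))
  refine JumpQD.sub (jumpQD_uni ?_ (hD.2.2 L hL).2 (h L hL).2)
  by_contra hcon
  push Not at hcon
  have h1 := (hD.2.2 L hL).1
  obtain ⟨x, hx⟩ := exists_ne (1 : L)
  apply hx
  apply Subtype.ext
  exact h1 x x.2 fun y hy => congrArg Subtype.val (hcon x ⟨y, hy⟩)

theorem part6 (hk : (p : 𝕜) = 0) (G : Type u) [Group G] [Finite G] (hO : OpTrivial p G) (l : ℕ)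
    (hl : l.Prime)
    (h : ∀ (L : Type u) [Group L], CompFactor G L → p ∣ Nat.card L → UFactor 𝕜 p l L) :
    HQ 𝕜 p G := by
  refine factor_mainP (l := l) hl hO fun L _ hL hd => ?_
  rcases h L hL hd with h1 | h1 | h1 | ⟨h2, h1⟩
  · exact Or.inr (Or.inl (Or.inl h1))
  · haveI : IsSimpleGroup L := hL.1
    exact Or.inr (Or.inr (Or.inr (Or.inl ⟨hk, jumpQD_uni hL.2.1 hd h1⟩)))
  · exact Or.inr (Or.inr (Or.inr (Or.inr h1)))
  · subst h2
    exact h1.listed hl hL

theorem part7 (q : ℕ) (hq : IsPrimePow q) (h3 : 3 ≤ q) :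
    ∃ (K : Type) (_ : Field K) (_ : Fintype K) (_ : StarRing K), Herm K q := by
  obtain ⟨r, m, hr, hm, rfl⟩ := hq
  obtain ⟨K, i1, i2, i3, h1, h2⟩ := H620.stmtEX r m hr.nat_prime hm
  exact ⟨K, i1, i2, i3, h3, h1, h2⟩

end Vale.Agent.P240.R2.H63.As
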