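import Vale.Agent.P240.R2.H63.LocN
import Vale.Agent.P240.R2.H487.LQ
import Vale.Agent.P240.R2.H275.Main

/-!
The main theorem for components, with components satisfying `LocN`.
-/

namespace Vale.Agent.P240.R2.H63

open Finsupp Subgroup Vale.Agent.P240.K Vale.Agent.P240.H195
open Vale.Agent.P240.R2.H487 Vale.Agent.P240.R2.H275

universe u v

section
variable {G : Type u} [Group G] {p : ℕ}

/-- the combination of all steps, for a conjugation invariant property `P` of components which is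
sufficient for the remaining ones -/
theorem combineN {𝕜 : Type v} [Field 𝕜] [hp : Fact p.Prime] [Finite G]
    (hO : OpTrivial p G) (hO' : OpPrimeTrivial p G) {P : Subgroup G → Prop}
    (hP : ∀ (L : Subgroup G) (g : G), P L → P (K.cj g L))
    (hcore : ∀ T : Set (Subgroup G), T ⊆ Q.Comp G →
      (∀ (L : Subgroup G) (g : G), K.cj g L ∈ T → L ∈ T) →
      (∀ L ∈ Q.Comp G, L ∉ T → P L) → NA 𝕜 (Ain p (Cen T)))
    (h : ∀ L ∈ Q.Comp G, LocN p L ∨ RigidLie p L ∨ ((p : 𝕜) = 0 ∧ QDL 𝕜 p L) ∨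
      Removable 𝕜 p L ∨ P L) : HQ 𝕜 p G := by
  classical
  have hF := comp_family hO hO'
  have hPi : ∀ (L : Subgroup G) (g : G), P (K.cj g L) → P L := by
    intro L g h1
    have h2 := hP _ g⁻¹ h1
    rwa [cj_inv_cj] at h2
  have hQi : ∀ (L : Subgroup G) (g : G), QDL 𝕜 p (K.cj g L) → QDL 𝕜 p L := by
    intro L g h1
    have h2 := QDL_cj h1 g⁻¹
    rwa [cj_inv_cj] at h2
  have hCi : ∀ (L : Subgroup G) (g : G), K.cj g L ∈ Q.Comp G → L ∈ Q.Comp G := by
    intro L g h1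
    have h2 := hF.conj _ h1 g⁻¹
    have h3 : K.cj g⁻¹ (K.cj g L) ∈ Q.Comp G := h2
    rwa [cj_inv_cj] at h3
  rw [HQ_iff]
  set VV : Set (Subgroup G) := {L | L ∈ Q.Comp G ∧ LocN p L} with hVV
  set RR : Set (Subgroup G) := {L | L ∈ Q.Comp G ∧ ¬ LocN p L ∧ RigidLie p L} with hRR
  set QQ : Set (Subgroup G) := {L | L ∈ Q.Comp G ∧ ¬ LocN p L ∧ ¬ RigidLie p L ∧
    ((p : 𝕜) = 0 ∧ QDL 𝕜 p L)} with hQQ
  set TT : Set (Subgroup G) := {L | L ∈ Q.Comp G ∧ ¬ LocN p L ∧ ¬ RigidLie p L ∧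
    ¬ ((p : 𝕜) = 0 ∧ QDL 𝕜 p L) ∧ ¬ P L} with hTT
  have hTsub : TT ⊆ Q.Comp G := fun L hL => hL.1
  refine remove hF (T := TT) hTsub (fun L hL => ?_) ?_
  · rcases h L hL.1 with h1 | h1 | h1 | h1 | h1
    · exact absurd h1 hL.2.1
    · exact absurd h1 hL.2.2.1
    · exact absurd h1 hL.2.2.2.1
    · exact h1
    · exact absurd h1 hL.2.2.2.2
  refine rigid_step (R := RR) (fun L hL => hF.le_Cen hTsub hL.1 fun hcon => hcon.2.2.1 hL.2.2)
    (fun g _ L hL => ⟨hF.conj L hL.1 g, fun hcon => hL.2.1 (locN_cj_iff.1 hcon),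
      rigidLie_cj hL.2.2⟩)
    (fun L hL M hM => hF.comm L hL.1 M hM.1) (fun L hL => hL.2.2) ?_
  rw [← Cen_union]
  have hUR : TT ∪ RR ⊆ Q.Comp G := Set.union_subset hTsub fun L hL => hL.1
  have hqq : NA 𝕜 (Ain p (Cen (TT ∪ RR) ⊓ Cen QQ)) → NA 𝕜 (Ain p (Cen (TT ∪ RR))) := by
    intro hNA
    by_cases hchar : (p : 𝕜) = 0
    · refine qd_step hchar (R := QQ) (fun L hL => hF.le_Cen hUR hL.1 ?_) (fun g _ M hM => ?_)
        (fun L hL M hM => hF.comm L hL.1 M hM.1) (fun L hL => hF.centre L hL.1)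
        (fun L hL => hF.dvd L hL.1) (fun L hL => hL.2.2.2.2) hNA
      · rintro (hcon | hcon)
        · exact hcon.2.2.2.1 hL.2.2.2
        · exact hL.2.2.1 hcon.2.2
      · exact ⟨hF.conj M hM.1 g, fun hcon => hM.2.1 (locN_cj_iff.1 hcon),
          fun hcon => hM.2.2.1 (rigidLie_cj_iff.1 hcon), hchar, QDL_cj hM.2.2.2.2 g⟩
    · have h0 : QQ = ∅ := by
        ext L
        simp only [Set.mem_empty_iff_false, iff_false]
        intro hL
        exact hchar hL.2.2.2.1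
      have h1 : Cen QQ = ⊤ := by
        rw [h0, eq_top_iff]
        intro x _
        exact mem_Cen.2 fun L hL => absurd hL (Set.notMem_empty L)
      rwa [h1, inf_top_eq] at hNA
  refine hqq ?_
  rw [← Cen_union]
  have hUQ : TT ∪ RR ∪ QQ ⊆ Q.Comp G := Set.union_subset hUR fun L hL => hL.1
  refine loc_step' (D := VV) (fun L hL => hF.le_Cen hUQ hL.1 ?_)
    (fun g _ L hL => ⟨hF.conj L hL.1 g, hL.2.cj g⟩)
    (fun L hL M hM => hF.comm L hL.1 M hM.1) (fun L hL => hF.centre L hL.1)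
    (fun L hL => hL.2) ?_
  · rintro ((hcon | hcon) | hcon)
    · exact hcon.2.1 hL.2
    · exact hcon.2.1 hL.2
    · exact hcon.2.1 hL.2
  rw [← Cen_union]
  refine hcore _ (Set.union_subset hUQ fun L hL => hL.1) ?_ ?_
  · rintro L g (((⟨h1, h0, h2, h3, h4⟩ | ⟨h1, h0, h2⟩) | ⟨h1, h0, h2, h3⟩) | ⟨h1, h0⟩)
    · exact Or.inl (Or.inl (Or.inl ⟨hCi L g h1, fun hcon => h0 (hcon.cj g),
        fun hcon => h2 (rigidLie_cj hcon),
        fun hcon => h3 ⟨hcon.1, QDL_cj hcon.2 g⟩, fun hcon => h4 (hP L g hcon)⟩))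
    · exact Or.inl (Or.inl (Or.inr ⟨hCi L g h1, fun hcon => h0 (hcon.cj g),
        rigidLie_cj_iff.1 h2⟩))
    · exact Or.inl (Or.inr ⟨hCi L g h1, fun hcon => h0 (hcon.cj g),
        fun hcon => h2 (rigidLie_cj hcon), h3.1, hQi L g h3.2⟩)
    · exact Or.inr ⟨hCi L g h1, locN_cj_iff.1 h0⟩
  · intro L hL hLT
    by_contra hcon
    apply hLT
    by_cases h0 : LocN p L
    · exact Or.inr ⟨hL, h0⟩
    by_cases h1 : RigidLie p L
    · exact Or.inl (Or.inl (Or.inr ⟨hL, h0, h1⟩))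
    · by_cases h2 : (p : 𝕜) = 0 ∧ QDL 𝕜 p L
      · exact Or.inl (Or.inr ⟨hL, h0, h1, h2⟩)
      · exact Or.inl (Or.inl (Or.inl ⟨hL, h0, h1, h2, hcon⟩))

/-- the conditions on components -/
def Handled (𝕜 : Type v) [Field 𝕜] (p l : ℕ) (L : Subgroup G) : Prop :=
  LocN p L ∨ GoodComp 𝕜 p l L ∨ ((p : 𝕜) = 0 ∧ JumpSub 𝕜 p L)

/-- **The main theorem** for groups with `O_p(G) = O_{p'}(G) = 1`. -/
theorem handled_main {𝕜 : Type v} [Field 𝕜] [hp : Fact p.Prime] [Finite G] {l : ℕ}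
    (hO : OpTrivial p G) (hO' : OpPrimeTrivial p G) (hl : l.Prime)
    (h : ∀ L ∈ Q.Comp G, Handled 𝕜 p l L) : HQ 𝕜 p G := by
  have hF := comp_family hO hO'
  by_cases hlp : l = p
  · refine combineN hO hO' (P := fun L => EuSub p L ∨ RegFree p L) ?_
      (fun T hT hTc hTP => reg_core hO hO' hT hTc hTP) fun L hL => ?_
    · rintro L g (h1 | h1)
      · exact Or.inl (h1.cj g)
      · exact Or.inr (h1.congr
          (L.equivMapOfInjective (MulAut.conj g).toMonoidHom (MulAut.conj g).injective))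
    · rcases h L hL with h1 | (h1 | h1 | h1 | ⟨-, h1⟩) | ⟨h0, h1⟩
      · exact Or.inl h1
      · exact Or.inr (Or.inl h1)
      · rcases treated_cases hl (hF.dvd L hL) (hF.centre L hL) h1 with h2 | ⟨h2, -⟩
        · exact Or.inr (Or.inr (Or.inr (Or.inl h2)))
        · exact absurd hlp h2
      · exact Or.inr (Or.inr (Or.inr (Or.inr (Or.inl h1))))
      · exact Or.inr (Or.inr (Or.inr (Or.inr (Or.inr h1))))
      · exact Or.inr (Or.inr (Or.inl ⟨h0, h1.qdl⟩))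
  · refine combineN hO hO' (P := fun L => (AO p l L ∨ FreeSub p l L) ∨ EuSub p L) ?_
      (fun T hT hTc hTP => eu_core hO hO' hl hT hTc hTP) fun L hL => ?_
    · rintro L g ((h1 | h1) | h1)
      · exact Or.inl (Or.inl (h1.cj g))
      · exact Or.inl (Or.inr (H148.freeSub_cj h1 g))
      · exact Or.inr (h1.cj g)
    · rcases h L hL with h1 | (h1 | h1 | h1 | ⟨h1, -⟩) | ⟨h0, h1⟩
      · exact Or.inl h1
      · exact Or.inr (Or.inl h1)
      · rcases treated_cases hl (hF.dvd L hL) (hF.centre L hL) h1 with h2 | ⟨-, h2⟩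
        · exact Or.inr (Or.inr (Or.inr (Or.inl h2)))
        · exact Or.inr (Or.inr (Or.inr (Or.inr (Or.inl h2))))
      · exact Or.inr (Or.inr (Or.inr (Or.inr (Or.inr h1))))
      · exact absurd h1 hlp
      · exact Or.inr (Or.inr (Or.inl ⟨h0, h1.qdl⟩))

end

end Vale.Agent.P240.R2.H63
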