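import Vale.Agent.P240.R2.H63.Comb
import Vale.Agent.P240.R2.H275.Crit

/-!
The main theorems without conditions on `p'`-sections.
-/

namespace Vale.Agent.P240.R2.H63

open Finsupp Subgroup Vale.Agent.P240.K Vale.Agent.P240.H195
open Vale.Agent.P240.R2.H487 Vale.Agent.P240.R2.H275

universe u v

section
variable {G : Type u} [Group G] {p : ℕ}

lemma LocSub.locN {L : Subgroup G} (h : LocSub p L) : LocN p L := by
  obtain ⟨A, hAL, hA, h⟩ := h
  refine ⟨A, hAL, hA, fun E hE hE' hAE => ?_⟩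
  obtain ⟨W, h1, -, h2⟩ := h E hE hE' hAE
  exact ⟨W, h1, h2⟩

/-- automorphisms induced by subgroups -/
theorem LocAutN.sub {L : Subgroup G} (h : LocAutN p L) (hc : L ⊓ centralizer (L : Set G) = ⊥) :
    LocN p L := by
  obtain ⟨A, hA, h⟩ := h
  have hinj : Function.Injective L.subtype := L.subtype_injective
  refine ⟨A.map L.subtype, map_subtype_le A, ⟨?_, ?_, ?_⟩, fun E hEn hE hAE => ?_⟩
  · intro h0
    exact hA.1 ((map_eq_bot_iff_of_injective A hinj).1 h0)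
  · rintro _ ⟨x, hx, rfl⟩ _ ⟨y, hy, rfl⟩
    rw [← map_mul, hA.2.1 x hx y hy, map_mul]
  · rintro _ ⟨x, hx, rfl⟩
    rw [← map_pow, hA.2.2 x hx, map_one]
  · set φ : E →* MulAut L := L.normalizerMonoidHom.comp (Subgroup.inclusion hEn) with hφ
    have hφa : ∀ (x : E) (y : L), ((φ x y : L) : G) = x * y * (x : G)⁻¹ := fun x y => rfl
    have hAφ : A.map MulAut.conj ≤ φ.range := by
      rintro _ ⟨a, ha, rfl⟩
      refine ⟨⟨a, hAE ⟨a, ha, rfl⟩⟩, ?_⟩
      ext y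
      rw [hφa]
      rfl
    have hEE : ElemAb p φ.range := by
      refine ⟨?_, ?_, ?_⟩
      · intro h0
        rw [h0, le_bot_iff] at hAφ
        apply hA.1
        rw [eq_bot_iff]
        intro a ha
        have h1 : MulAut.conj a = 1 := by
          have h2 : MulAut.conj a ∈ A.map MulAut.conj := ⟨a, ha, rfl⟩
          rw [hAφ] at h2
          exact mem_bot.1 h2
        have h3 : (a : G) ∈ L ⊓ centralizer (L : Set G) := by
          refine mem_inf.2 ⟨a.2, mem_centralizer_iff.2 fun y hy => ?_⟩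
          have h4 := DFunLike.congr_fun h1 (⟨y, hy⟩ : L)
          have h5 : a * ⟨y, hy⟩ * a⁻¹ = (⟨y, hy⟩ : L) := h4
          have h6 : a * ⟨y, hy⟩ = (⟨y, hy⟩ : L) * a := mul_inv_eq_iff_eq_mul.1 h5
          exact (congrArg Subtype.val h6).symm
        rw [hc, mem_bot] at h3
        exact mem_bot.2 (Subtype.ext h3)
      · rintro _ ⟨x, rfl⟩ _ ⟨y, rfl⟩
        rw [← map_mul, ← map_mul]
        congr 1
        exact Subtype.ext (hE.2.1 x x.2 y y.2)
      · rintro _ ⟨x, rfl⟩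
        rw [← map_pow]
        have h1 : x ^ p = 1 := Subtype.ext (hE.2.2 x x.2)
        rw [h1, map_one]
    obtain ⟨W, hW1, hW2, hW3⟩ := h φ.range hEE hAφ
    refine ⟨W.map L.subtype, map_subtype_le W, ?_, ?_, ?_⟩
    · rwa [card_map_of_injective hinj]
    · rintro x hx _ ⟨w, hw, rfl⟩
      exact ⟨φ ⟨x, hx⟩ w, hW2 _ ⟨⟨x, hx⟩, rfl⟩ w hw, rfl⟩
    · intro x hx hxW
      have h1 : φ ⟨x, hx⟩ = 1 := by
        refine hW3 _ ⟨⟨x, hx⟩, rfl⟩ fun w hw => ?_
        apply Subtype.ext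
        rw [hφa]
        have h2 := hxW w ⟨w, hw, rfl⟩
        exact mul_inv_eq_iff_eq_mul.2 h2
      rw [mem_centralizer_iff]
      intro y hy
      have h2 : x * y * x⁻¹ = y := congrArg Subtype.val (DFunLike.congr_fun h1 (⟨y, hy⟩ : L))
      exact (mul_inv_eq_iff_eq_mul.1 h2).symm

/-- Family elimination: a conjugation-stable set of commuting subgroups. -/
theorem family_elim {𝕜 : Type v} [Field 𝕜] [hp : Fact p.Prime] [Finite G] {D : Set (Subgroup G)}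
    (hconj : ∀ L ∈ D, ∀ g : G, L.map (MulAut.conj g).toMonoidHom ∈ D)
    (hcomm : ∀ L ∈ D, ∀ M ∈ D, L ≠ M → ∀ x ∈ L, ∀ y ∈ M, x * y = y * x)
    (hcen : ∀ L ∈ D, ∀ x ∈ L, (∀ y ∈ L, x * y = y * x) → x = 1)
    (hdvd : ∀ L ∈ D, p ∣ Nat.card L)
    (h : ∀ L ∈ D, LocN p L ∨ Removable 𝕜 p L ∨ RigidLie p L ∨ ((p : 𝕜) = 0 ∧ JumpSub 𝕜 p L))
    (hC : HQ 𝕜 p (CenAll D)) : HQ 𝕜 p G := by
  classical
  have hc : ∀ L ∈ D, L ⊓ centralizer (L : Set G) = ⊥ := by
    intro L hL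
    rw [eq_bot_iff]
    intro x hx
    obtain ⟨h1, h2⟩ := mem_inf.1 hx
    rw [mem_centralizer_iff] at h2
    exact mem_bot.2 (hcen L hL x h1 fun y hy => (h2 y hy).symm)
  have hF : Family p D := ⟨hconj, hcomm, hc, hdvd⟩
  rw [CenAll_eq, HQ_sub_iff] at hC
  rw [HQ_iff]
  set VV : Set (Subgroup G) := {L | L ∈ D ∧ LocN p L} with hVV
  set RR : Set (Subgroup G) := {L | L ∈ D ∧ ¬ LocN p L ∧ RigidLie p L} with hRR
  set QQ : Set (Subgroup G) := {L | L ∈ D ∧ ¬ LocN p L ∧ ¬ RigidLie p L ∧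
    ((p : 𝕜) = 0 ∧ QDL 𝕜 p L)} with hQQ
  set TT : Set (Subgroup G) := {L | L ∈ D ∧ ¬ LocN p L ∧ ¬ RigidLie p L ∧
    ¬ ((p : 𝕜) = 0 ∧ QDL 𝕜 p L)} with hTT
  have hTsub : TT ⊆ D := fun L hL => hL.1
  refine remove hF (T := TT) hTsub (fun L hL => ?_) ?_
  · rcases h L hL.1 with h1 | h1 | h1 | h1
    · exact absurd h1 hL.2.1
    · exact h1
    · exact absurd h1 hL.2.2.1
    · exact absurd ⟨h1.1, h1.2.qdl⟩ hL.2.2.2
  refine rigid_step (R := RR) (fun L hL => hF.le_Cen hTsub hL.1 fun hcon => hcon.2.2.1 hL.2.2)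
    (fun g _ L hL => ⟨hF.conj L hL.1 g, fun hcon => hL.2.1 (locN_cj_iff.1 hcon),
      rigidLie_cj hL.2.2⟩)
    (fun L hL M hM => hF.comm L hL.1 M hM.1) (fun L hL => hL.2.2) ?_
  rw [← Cen_union]
  have hUR : TT ∪ RR ⊆ D := Set.union_subset hTsub fun L hL => hL.1
  have hqq : NA 𝕜 (Ain p (Cen (TT ∪ RR) ⊓ Cen QQ)) → NA 𝕜 (Ain p (Cen (TT ∪ RR))) := by
    intro hNA
    by_cases hchar : (p : 𝕜) = 0
    · refine qd_step hchar (R := QQ) (fun L hL => hF.le_Cen hUR hL.1 ?_) (fun g _ M hM => ?_)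
        (fun L hL M hM => hF.comm L hL.1 M hM.1) (fun L hL => hF.centre L hL.1)
        (fun L hL => hF.dvd L hL.1) (fun L hL => hL.2.2.2.2) hNA
      · rintro (hcon | hcon)
        · exact hcon.2.2.2 hL.2.2.2
        · exact hL.2.2.1 hcon.2.2
      · exact ⟨hF.conj M hM.1 g, fun hcon => hM.2.1 (locN_cj_iff.1 hcon),
          fun hcon => hM.2.2.1 (rigidLie_cj_iff.1 hcon), hchar, QDL_cj hM.2.2.2.2 g⟩
    · have h0 : QQ = ∅ := by
        ext L
        simp only [Set.mem_empty_iff_false, iff_false]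
        intro hL
        exact hchar hL.2.2.2.1
      have h1 : Cen QQ = ⊤ := by
        rw [h0, eq_top_iff]
        intro x _
        exact mem_Cen.2 fun L hL => absurd hL (Set.notMem_empty L)
      rwa [h1, inf_top_eq] at hNA
  refine hqq ?_
  rw [← Cen_union]
  have hUQ : TT ∪ RR ∪ QQ ⊆ D := Set.union_subset hUR fun L hL => hL.1
  refine loc_step' (D := VV) (fun L hL => hF.le_Cen hUQ hL.1 ?_)
    (fun g _ L hL => ⟨hF.conj L hL.1 g, hL.2.cj g⟩)
    (fun L hL M hM => hF.comm L hL.1 M hM.1) (fun L hL => hF.centre L hL.1)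
    (fun L hL => hL.2) ?_
  · rintro ((hcon | hcon) | hcon)
    · exact hcon.2.1 hL.2
    · exact hcon.2.1 hL.2
    · exact hcon.2.1 hL.2
  rw [← Cen_union]
  have hU : TT ∪ RR ∪ QQ ∪ VV = D := by
    ext L
    constructor
    · rintro (h1 | h1)
      · exact hUQ h1
      · exact h1.1
    · intro hL
      by_cases h0 : LocN p L
      · exact Or.inr ⟨hL, h0⟩
      by_cases h1 : RigidLie p L
      · exact Or.inl (Or.inl (Or.inr ⟨hL, h0, h1⟩))
      · by_cases h2 : (p : 𝕜) = 0 ∧ QDL 𝕜 p L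
        · exact Or.inl (Or.inr ⟨hL, h0, h1, h2⟩)
        · exact Or.inl (Or.inl (Or.inl ⟨hL, h0, h1, h2⟩))
  rw [hU]
  exact hC

/-- the conditions on components -/
def Listed (𝕜 : Type v) [Field 𝕜] (p l : ℕ) (L : Subgroup G) : Prop :=
  LocN p L ∨ GoodComp 𝕜 p l L ∨ ((p : 𝕜) = 0 ∧ JumpSub 𝕜 p L) ∨ Explicit 𝕜 p l L ∨
    ∃ r : ℕ, r.Prime ∧ ((p ≠ 2 ∧ H148.IsPSL r L) ∨ SemPSL p r L)

lemma listed_handled [hp : Fact p.Prime] [Finite G] {𝕜 : Type v} [Field 𝕜] {l : ℕ}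
    (hO : OpTrivial p G) (hO' : OpPrimeTrivial p G) {L : Subgroup G} (hL : L ∈ Q.Comp G)
    (h : Listed 𝕜 p l L) : Handled 𝕜 p l L := by
  rcases h with h | h | h | h
  · exact Or.inl h
  · exact Or.inr (Or.inl h)
  · exact Or.inr (Or.inr h)
  · rcases lin_goodComp hO hO' hL h with h1 | h1
    · exact Or.inl (LocSub.locN h1)
    · exact Or.inr (Or.inl h1)

/-- **Main theorem**, groups with `O_p(G) = 1`. -/
theorem comp_main [hp : Fact p.Prime] [Finite G] {𝕜 : Type v} [Field 𝕜] {l : ℕ} (hl : l.Prime)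
    (hO : OpTrivial p G) (N : Subgroup G) [N.Normal] (hN : ¬ p ∣ Nat.card N)
    (hmax : ∀ X : Subgroup G, X.Normal → ¬ p ∣ Nat.card X → X ≤ N)
    (h : ∀ L ∈ Q.Comp (Reduced N), Listed 𝕜 p l L) : HQ 𝕜 p G := by
  have hO1 := reduced_op hO N hN
  have hO2 := reduced_op' N hN hmax
  exact reduce_all' N hN (handled_main hO1 hO2 hl fun L hL => listed_handled hO1 hO2 hL (h L hL))

/-- the conditions on composition factors of order divisible by `p` -/
def ListedFactor (𝕜 : Type v) [Field 𝕜] (p l : ℕ) (L : Type u) [Group L] : Prop :=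
  GoodFactor 𝕜 p l L ∨ LocAutN p L ∨ ((p : 𝕜) = 0 ∧ JumpQD 𝕜 p L) ∨
    (p ≠ 2 ∧ ∃ r : ℕ, r.Prime ∧ H148.IsPSL r L)

/-- **Main theorem** for composition factors: no condition on those of order prime to `p`. -/
theorem factor_main' [hp : Fact p.Prime] [Finite G] {𝕜 : Type v} [Field 𝕜] {l : ℕ} (hl : l.Prime)
    (hO : OpTrivial p G)
    (h : ∀ (L : Type u) [Group L], CompFactor G L → p ∣ Nat.card L → ListedFactor 𝕜 p l L) :
    HQ 𝕜 p G := by
  obtain ⟨N, hNn, hN, hmax⟩ := l2_exists_pprime (p := p) (H := G)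
  have hO1 := reduced_op hO N hN
  have hO2 := reduced_op' N hN hmax
  refine comp_main hl hO N hN hmax fun L hL => ?_
  have h1 : CompFactor (Reduced N) L := comp_factor hO1 hO2 hL
  have h2 : CompFactor (centralizer (N : Set G)) L :=
    h1.of_map (QuotientGroup.mk' _) (QuotientGroup.mk'_surjective _)
  have h3 : CompFactor G L :=
    h2.of_sub (inferInstance : (centralizer (N : Set G)).Normal).isSubnormal
  have hd := l2_dvd hO2 L hL
  have hF := comp_family hO1 hO2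
  rcases h L h3 hd with h4 | h4 | h4 | ⟨h4, r, hr, h5⟩
  · exact Or.inr (Or.inl (h4.treated hd))
  · exact Or.inl (h4.sub (hF.centre L hL))
  · exact Or.inr (Or.inr (Or.inl ⟨h4.1, h4.2.sub⟩))
  · exact Or.inr (Or.inr (Or.inr (Or.inr ⟨r, hr, Or.inl ⟨h4, h5⟩⟩)))

/-- If an elementary abelian `p`-subgroup of largest order acts faithfully on a
`p'`-subgroup, then the Quillen dimension property holds. -/
theorem quillenDim_coprime {𝕜 : Type v} [Field 𝕜] [Finite G]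
    [hp : Fact p.Prime] {E Y : Subgroup G} (hE : ElemAb p E)
    (hmax : ∀ F : Subgroup G, ElemAb p F → Nat.card F ≤ Nat.card E)
    (hY : ¬ p ∣ Nat.card Y) (hn : ∀ x ∈ E, ∀ y ∈ Y, x * y * x⁻¹ ∈ Y)
    (hfaith : ∀ x ∈ E, (∀ y ∈ Y, x * y = y * x) → x = 1) : QuillenDim 𝕜 p G := by
  obtain ⟨α, φ, hα⟩ := LT.lemma_T (𝕜 := 𝕜) (Or.inr hE) hY hn hfaith
  rw [quillenDim_iff]
  refine ⟨φ.length, fun F hF => ?_, α, ?_, hα.cyc, ?_⟩
  · have h1 := hmax F hF.1
    rwa [hα.card] at h1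
  · exact Sp_mono (fun l hl => ⟨⟨hl.1.1, fun a ha => ⟨(hl.1.2 a ha).1, le_top⟩⟩, hl.2⟩) hα.mem
  · intro h0
    apply hα.ne
    rw [h0]
    rfl

end

end Vale.Agent.P240.R2.H63
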