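import Vale.Agent.P240.R2.H121.Spec

/-!
LEMMA T (P240, crux 11): the set `Ω = N / C_N(F)` and the relations `x⁻¹ y ∈ C_N(X)`, `X ≤ F`.
-/

namespace Vale.Agent.P240.LT

open Subgroup

universe u

variable {G : Type u} [Group G]

/-- `C_N(X)` for a subgroup `X` of `F`. -/
def CN (F N : Subgroup G) (X : Subgroup F) : Subgroup G :=
  N ⊓ centralizer ((X.map F.subtype : Subgroup G) : Set G)

lemma mem_CN {F N : Subgroup G} {X : Subgroup F} {g : G} :
    g ∈ CN F N X ↔ g ∈ N ∧ ∀ x ∈ X, (x : G) * g = g * x := by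
  rw [CN, Subgroup.mem_inf, Subgroup.mem_centralizer_iff]
  refine and_congr_right fun _ => ?_
  constructor
  · intro h x hx
    exact h _ ⟨x, hx, rfl⟩
  · rintro h _ ⟨x, hx, rfl⟩
    exact h x hx

lemma CN_anti {F N : Subgroup G} {X Y : Subgroup F} (h : X ≤ Y) : CN F N Y ≤ CN F N X := by
  intro g hg
  rw [mem_CN] at hg ⊢
  exact ⟨hg.1, fun x hx => hg.2 x (h hx)⟩

/-- `N / C_N(F)` -/
abbrev Om (F N : Subgroup G) : Type u := N ⧸ (CN F N ⊤).subgroupOf N

lemma CN_sub_le (F N : Subgroup G) (X : Subgroup F) :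
    (CN F N ⊤).subgroupOf N ≤ (CN F N X).subgroupOf N :=
  fun _ hx => CN_anti (F := F) (N := N) (X := X) le_top hx

/-- The relation `x⁻¹ y ∈ C_N(X)` on `N / C_N(F)`. -/
def rl (F N : Subgroup G) (X : Subgroup F) : Setoid (Om F N) :=
  Setoid.ker (Subgroup.quotientMapOfLE (CN_sub_le F N X))

lemma rl_mk {F N : Subgroup G} {X : Subgroup F} (x y : N) :
    rl F N X (QuotientGroup.mk x : Om F N) (QuotientGroup.mk y : Om F N) ↔
      (x : G)⁻¹ * y ∈ CN F N X := by
  rw [rl, Setoid.ker_def, Subgroup.quotientMapOfLE_apply_mk, Subgroup.quotientMapOfLE_apply_mk,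
    QuotientGroup.eq]
  exact Iff.rfl

end Vale.Agent.P240.LT
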