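import Vale.Agent.P240.R2.H63.TopT
import Vale.Agent.P240.R2.H612.Main
import Vale.Agent.P240.R2.H938.SysF

/-!
LEMMA T (P240, crux 11).
-/

namespace Vale.Agent.P240.LT

open Finsupp Subgroup Vale.Agent.P240.K

universe u v

section
variable {G : Type u} [Group G] {p : ℕ}

/-- **Lemma T**, from the system. -/
theorem lemma_T_of {𝕜 : Type v} [Field 𝕜] [hp : Fact p.Prime] [Finite G] {N F : Subgroup G}
    [Fintype (Om F N)] (S : Sys p F (Om F N)) (hS : S.r = rl F N)
    (hF : F ∈ ApB p G) (hN : ¬ p ∣ Nat.card N)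
    (hn : ∀ x ∈ F, ∀ y ∈ N, x * y * x⁻¹ ∈ N) :
    ∃ (α : Ch 𝕜 (Subgroup G)) (φ : List (Subgroup G)), TopCycle 𝕜 p (N ⊔ F) F α φ := by
  have hcomm : ∀ x ∈ F, ∀ y ∈ F, x * y = y * x := by
    rcases hF with h | h
    · intro x hx y hy
      rw [h, Subgroup.mem_bot] at hx hy
      rw [hx, hy]
    · exact h.2.1
  have hexp : ∀ x ∈ F, x ^ p = 1 := by
    rcases hF with h | h
    · intro x hx
      rw [h, Subgroup.mem_bot] at hx
      rw [hx, one_pow]
    · exact h.2.2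
  have hnor : ∀ X : Subgroup F, X.Normal := by
    intro X
    refine ⟨fun x hx g => ?_⟩
    have h1 : g * x * g⁻¹ = x := by
      apply Subtype.ext
      push_cast
      rw [hcomm g g.2 x x.2, mul_inv_cancel_right]
    rwa [h1]
  have hpg : IsPGroup p F := fun x => ⟨1, by
    rw [pow_one]
    exact Subtype.ext (hexp x x.2)⟩
  obtain ⟨k, hk⟩ := IsPGroup.iff_card.1 hpg
  have : Nonempty (Om F N) := ⟨QuotientGroup.mk 1⟩
  obtain ⟨z, hz, hne⟩ := main (𝕜 := ℚ) S hp.out hnor hk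
  rw [hS] at hz
  exact topCycle_of_T hF hN hn hk hz hne

/-- **Lemma T**: if the elementary abelian `p`-group `F` acts faithfully on the `p'`-group `N`, then
`𝒜ₚ(N F)` has a nonzero top cycle, over every field. -/
theorem lemma_T {𝕜 : Type v} [Field 𝕜] [hp : Fact p.Prime] [Finite G] {N F : Subgroup G}
    (hF : F ∈ ApB p G) (hN : ¬ p ∣ Nat.card N) (hn : ∀ x ∈ F, ∀ y ∈ N, x * y * x⁻¹ ∈ N)
    (hfaith : ∀ x ∈ F, (∀ y ∈ N, x * y = y * x) → x = 1) :
    ∃ (α : Ch 𝕜 (Subgroup G)) (φ : List (Subgroup G)), TopCycle 𝕜 p (N ⊔ F) F α φ := by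
  have hcomm : ∀ x ∈ F, ∀ y ∈ F, x * y = y * x := by
    rcases hF with h | h
    · intro x hx y hy
      rw [h, Subgroup.mem_bot] at hx hy
      rw [hx, hy]
    · exact h.2.1
  have hexp : ∀ x ∈ F, x ^ p = 1 := by
    rcases hF with h | h
    · intro x hx
      rw [h, Subgroup.mem_bot] at hx
      rw [hx, one_pow]
    · exact h.2.2
  have : Fintype (Om F N) := Fintype.ofFinite _
  exact lemma_T_of (sys hcomm hexp hN hn hfaith) rfl hF hN hn

end

end Vale.Agent.P240.LT
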