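import Vale.Agent.P240.R2.H63.Red
import Vale.Agent.P240.R2.H63.NDefs
import Vale.Agent.P240.R2.H487.LE2

/-!
Elimination of families of commuting subgroups satisfying `LocN`.
-/

namespace Vale.Agent.P240.R2.H63

open Finsupp Subgroup Vale.Agent.P240.K Vale.Agent.P240.H195
open Vale.Agent.P240.R2.H487

universe u v

section
variable {𝕜 : Type v} [Field 𝕜] {G : Type u} [Group G] {p : ℕ}

/-- **Elimination** of a set `D` of commuting subgroups of `X` satisfying `LocN`. -/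
theorem loc_step' [hp : Fact p.Prime] [Finite G] {X : Subgroup G} {D : Set (Subgroup G)}
    (hDX : ∀ L ∈ D, L ≤ X) (hconj : ∀ g ∈ X, ∀ L ∈ D, cj g L ∈ D)
    (hcomm : ∀ L ∈ D, ∀ M ∈ D, L ≠ M → ∀ x ∈ L, ∀ y ∈ M, x * y = y * x)
    (hc : ∀ L ∈ D, L ⊓ centralizer (L : Set G) = ⊥) (hloc : ∀ L ∈ D, LocN p L)
    (hC : NA 𝕜 (Ain p (X ⊓ Cen D))) : NA 𝕜 (Ain p X) := by
  choose! A hAL hAE hAW using hloc
  have hAD : ⨆ L ∈ D, A L ≤ ⨆ L ∈ D, L := iSup₂_mono fun L hL => hAL L hL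
  have hDX' : ⨆ L ∈ D, L ≤ X := iSup₂_le hDX
  have hcen : ∀ x ∈ ⨆ L ∈ D, L, ∀ y ∈ Cen D, x * y = y * x := by
    intro x hx y hy
    have h1 : ⨆ L ∈ D, L ≤ centralizer {y} := by
      refine iSup₂_le fun L hL z hz => ?_
      rw [mem_centralizer_singleton_iff]
      exact (mem_centralizer_iff.1 (mem_Cen.1 hy L hL)) z hz
    exact mem_centralizer_singleton_iff.1 (h1 hx)
  have hApB : (⨆ L ∈ D, A L) ∈ ApB p G := by
    refine fam_induction (P := fun B => B ∈ ApB p G) (Or.inl rfl) ?_ hcomm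
      (fun L hL => ⟨hAL L hL, Or.inr (hAE L hL)⟩)
    intro B B' h hB hB'
    rcases hB with hB | hB
    · rwa [hB, bot_sup_eq]
    · rcases hB' with hB' | hB'
      · rw [hB', sup_bot_eq]
        exact Or.inr hB
      · exact Or.inr (sup_mem_ApS hB hB' h)
  refine local_elim' (C := X ⊓ Cen D) (A := ⨆ L ∈ D, A L) inf_le_left (hAD.trans hDX') hApB ?_ ?_
    (fun E hE hEX hAE' hEC _ => ?_) hC
  · rw [eq_bot_iff]
    intro x hx
    obtain ⟨h1, h2⟩ := mem_inf.1 hx
    exact mem_bot.2 (fam_centre hcomm hc (hAD h1) fun L hL => mem_Cen.1 (mem_inf.1 h2).2 L hL)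
  · intro y hy
    rw [mem_centralizer_iff]
    exact fun x hx => hcen x (hAD hx) y (mem_inf.1 hy).2
  · -- `E` normalizes the members of `D`
    have hEn : ∀ L ∈ D, E ≤ normalizer (L : Set G) := by
      intro L hL x hx
      rw [← cj_eq_iff]
      by_contra hne
      have h1 := hconj x (hEX hx) L hL
      have hALE : A L ≤ E := (le_biSup A hL).trans hAE'
      have hEab : ∀ a ∈ E, ∀ b ∈ E, a * b = b * a := by
        rcases hE with h | h
        · intro a ha b hb
          rw [h, mem_bot] at ha hb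
          rw [ha, hb]
        · exact h.2.1
      apply (hAE L hL).1
      rw [eq_bot_iff, ← hc L hL]
      intro a ha
      refine mem_inf.2 ⟨hAL L hL ha, mem_centralizer_iff.2 fun y hy => ?_⟩
      have h2 : a ∈ cj x L := by
        rw [mem_cj]
        have : x⁻¹ * a * x = a := by
          rw [mul_assoc, hEab a (hALE ha) x hx, inv_mul_cancel_left]
        rw [this]
        exact hAL L hL ha
      exact hcomm L hL _ h1 (Ne.symm hne) y hy a h2
    by_cases hE0 : E = ⊥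
    · refine ⟨⊥, bot_le, ?_, ?_, ?_, ?_⟩
      · rw [Subgroup.card_bot]
        exact fun h => hp.out.one_lt.ne' (Nat.dvd_one.1 h)
      · intro x _ w hw
        rw [mem_bot] at hw ⊢
        rw [hw]
        group
      · intro x hx _
        rw [hE0, mem_bot] at hx
        exact hx
      · intro w hw y _
        rw [mem_bot] at hw
        rw [hw, one_mul, mul_one]
    have hES : ElemAb p E := hE.resolve_left hE0
    have hW := fun L hL => hAW L hL E (hEn L hL) hES ((le_biSup A hL).trans hAE')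
    choose! W hWL hWp hWn hWf using hW
    have hWD : ⨆ L ∈ D, W L ≤ ⨆ L ∈ D, L := iSup₂_mono fun L hL => hWL L hL
    have hP : ¬ p ∣ Nat.card (⨆ L ∈ D, W L : Subgroup G) := by
      refine fam_induction (P := fun B => ¬ p ∣ Nat.card B)
        ?_ ?_ hcomm (fun L hL => ⟨hWL L hL, hWp L hL⟩)
      · rw [Subgroup.card_bot]
        exact fun h => hp.out.one_lt.ne' (Nat.dvd_one.1 h)
      · intro B B' h h2 h4
        obtain ⟨f, hf⟩ := range_sup_of_comm h
        rw [← hf]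
        intro hd
        have h5 := hd.trans (Subgroup.card_dvd_of_surjective f.rangeRestrict
          f.rangeRestrict_surjective)
        rw [Nat.card_prod] at h5
        exact (hp.out.dvd_mul.1 h5).elim h2 h4
    refine ⟨⨆ L ∈ D, W L, hWD.trans hDX', hP, ?_, ?_, ?_⟩
    · intro x hx
      have h1 : ⨆ L ∈ D, W L ≤ (⨆ L ∈ D, W L : Subgroup G).comap (MulAut.conj x).toMonoidHom := by
        refine iSup₂_le fun L hL w hw => ?_
        exact (le_biSup W hL : W L ≤ _) (hWn L hL x hx w hw)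
      exact fun w hw => h1 hw
    · intro x hx hxW
      have h1 : x ∈ E ⊓ (X ⊓ Cen D) := by
        refine mem_inf.2 ⟨hx, mem_inf.2 ⟨hEX hx, mem_Cen.2 fun L hL => ?_⟩⟩
        exact hWf L hL x hx fun w hw => hxW w ((le_biSup W hL : W L ≤ _) hw)
      rw [hEC] at h1
      exact mem_bot.1 h1
    · intro w hw y hy
      exact hcen w (hWD hw) y (mem_inf.1 (mem_inf.1 hy).1).2

/-- `LocN` is invariant under conjugation -/
lemma LocN.cj {L : Subgroup G} (h : LocN p L) (g : G) : LocN p (cj g L) := by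
  obtain ⟨A, hAL, hA, hE⟩ := h
  have hinv : ∀ x : G, g⁻¹ * (g * x * g⁻¹) * g = x := fun x => by group
  refine ⟨K.cj g A, cj_le.2 hAL, cj_mem_ApS.2 hA, fun E hEn hES hAE => ?_⟩
  have hE1 : K.cj g⁻¹ E ≤ normalizer (L : Set G) := by
    intro x hx
    rw [mem_cj, inv_inv] at hx
    have h1 : K.cj (g * x * g⁻¹) (K.cj g L) = K.cj g L := cj_eq_iff.2 (hEn hx)
    rw [← cj_eq_iff]
    have h2 : K.cj g (K.cj x L) = K.cj g L := by
      rw [← cj_mul, ← h1, ← cj_mul]
      congr 1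
      group
    exact cj_injective g h2
  obtain ⟨W, hWL, hWp, hWn, hWf⟩ := hE (K.cj g⁻¹ E) hE1 (cj_mem_ApS.2 hES) (by
    intro x hx
    rw [mem_cj, inv_inv]
    refine hAE ?_
    rw [mem_cj, hinv]
    exact hx)
  have e : W ≃* K.cj g W :=
    W.equivMapOfInjective (MulAut.conj g).toMonoidHom (MulAut.conj g).injective
  refine ⟨K.cj g W, cj_le.2 hWL, ?_, ?_, ?_⟩
  · rwa [← Nat.card_congr e.toEquiv]
  · intro x hx w hw
    rw [mem_cj] at hw ⊢
    have h1 := hWn (g⁻¹ * x * g) (by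
      rw [mem_cj, inv_inv]
      have : g * (g⁻¹ * x * g) * g⁻¹ = x := by group
      rwa [this]) _ hw
    have h2 : g⁻¹ * x * g * (g⁻¹ * w * g) * (g⁻¹ * x * g)⁻¹ = g⁻¹ * (x * w * x⁻¹) * g := by group
    rwa [h2] at h1
  · intro x hx hxW
    have h1 := hWf (g⁻¹ * x * g) (by
      rw [mem_cj, inv_inv]
      have : g * (g⁻¹ * x * g) * g⁻¹ = x := by group
      rwa [this]) (fun w hw => by
        have h2 := hxW (g * w * g⁻¹) (cj_mul_mem hw)
        have h3 : g⁻¹ * (x * (g * w * g⁻¹)) * g = g⁻¹ * (g * w * g⁻¹ * x) * g := by rw [h2]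
        have h4 : g⁻¹ * (x * (g * w * g⁻¹)) * g = g⁻¹ * x * g * w := by group
        have h5 : g⁻¹ * (g * w * g⁻¹ * x) * g = w * (g⁻¹ * x * g) := by group
        rw [← h4, h3, h5])
    rw [mem_centralizer_iff] at h1 ⊢
    intro y hy
    have h2 := h1 (g⁻¹ * y * g) (mem_cj.1 hy)
    have h3 : g * (g⁻¹ * y * g * (g⁻¹ * x * g)) * g⁻¹ = g * (g⁻¹ * x * g * (g⁻¹ * y * g)) * g⁻¹ := by
      rw [h2]
    have h4 : g * (g⁻¹ * y * g * (g⁻¹ * x * g)) * g⁻¹ = y * x := by group
    have h5 : g * (g⁻¹ * x * g * (g⁻¹ * y * g)) * g⁻¹ = x * y := by group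
    rw [← h4, h3, h5]

lemma locN_cj_iff {L : Subgroup G} {g : G} : LocN p (K.cj g L) ↔ LocN p L := by
  refine ⟨fun h => ?_, fun h => h.cj g⟩
  have h1 := h.cj g⁻¹
  rwa [cj_inv_cj] at h1

end

end Vale.Agent.P240.R2.H63
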