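import Vale.Agent.P240.R2.H63.OddMain3
import Vale.Agent.P240.H195.Eu2

/-!
The orthogonal groups in dimension `8` at the prime `3`.
-/

set_option autoImplicit false
set_option linter.all false

namespace Vale.Agent.P240.R2.H63.Odd

open Matrix Subgroup Vale.Agent.P240 Vale.Agent.P240.K Vale.Agent.P240.R2.AS Vale.Agent.P240.H195
open Vale.Agent.P240.R2.H275 Vale.Agent.P240.R2.H63 Vale.Agent.P240.R2.H487
open Vale.Agent.P240.R2.H432.Q (POQ gram polar_gram gram_symm gram_det)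
open Vale.Agent.P240.R2.H145.EO (PO)
open Vale.Agent.P240.R2.H401.D (fd)
open Vale.Agent.P240.R2.H38.DD (Qd)

universe u v

section
variable {F : Type u} [Field F] [Finite F]

/-- the polar form of the hyperbolic form in dimension `8` -/
lemma polar_Qd (Q : QuadraticForm F (Fin (2 * 3 + 1 + 1) → F)) {P : GL (Fin (2 * 3 + 1 + 1)) F}
    (hP : ∀ v, Q (P.1 *ᵥ v) = Qd 3 F v) :
    (P.1)ᵀ * gram Q * P.1 = (Equiv.toPEquiv (Fin.revPerm : Equiv.Perm (Fin 8))).toMatrix := by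
  have hb : ∀ v w : Fin (2 * 3 + 1 + 1) → F, v ⬝ᵥ ((P.1)ᵀ * gram Q * P.1) *ᵥ w =
      Qd 3 F (v + w) - Qd 3 F v - Qd 3 F w := by
    intro v w
    rw [← hP, ← hP, ← hP, mulVec_add]
    show _ = QuadraticMap.polar Q (P.1 *ᵥ v) (P.1 *ᵥ w)
    rw [polar_gram, ← mulVec_mulVec, ← mulVec_mulVec, dotProduct_mulVec v, vecMul_transpose]
  ext i j
  have h4 := hb (Pi.single i 1) (Pi.single j 1)
  rw [mulVec_single_one, single_one_dotProduct] at h4
  rw [show ((P.1)ᵀ * gram Q * P.1) i j = _ from h4]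
  have hQ : ∀ v : Fin (2 * 3 + 1 + 1) → F, Qd 3 F v = v 0 * v 7 + v 1 * v 6 + v 2 * v 5 + v 3 * v 4 := by
    intro v
    unfold Qd
    rw [Finset.sum_filter]
    simp [Fin.sum_univ_succ, Fin.rev, Fin.lt_def]
    ring
  rw [hQ, hQ, hQ]
  fin_cases i <;> fin_cases j <;> simp [Pi.single_apply, PEquiv.toMatrix_apply, Fin.rev]

/-- plus type: the discriminant is a square -/
lemma square_of_plus (Q : QuadraticForm F (Fin (2 * 3 + 1 + 1) → F))
    {P : GL (Fin (2 * 3 + 1 + 1)) F} (hP : ∀ v, Q (P.1 *ᵥ v) = Qd 3 F v) :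
    IsSquare (gram Q).det := by
  have h1 := congrArg Matrix.det (polar_Qd Q hP)
  rw [det_mul, det_mul, det_transpose, Matrix.det_permutation] at h1
  have h2 : Equiv.Perm.sign (Fin.revPerm : Equiv.Perm (Fin 8)) = 1 := by decide
  rw [h2] at h1
  have h3 : P.1.det * (gram Q).det * P.1.det = 1 := by
    rw [h1]
    simp
  have h4 : P.1.det ≠ 0 := by
    intro h
    rw [h, mul_zero] at h3
    exact zero_ne_one h3
  refine ⟨(P.1.det)⁻¹, ?_⟩
  field_simp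
  linear_combination h3

/-- minus type over a field of prime order -/
lemma few_of_minus {k : ℕ} (hk : 2 ≤ k) (Q : QuadraticForm F (Fin (2 * k + 1 + 1) → F))
    {c : F} (hc : ∀ t : F, t ^ 2 + t + c ≠ 0) {P : GL (Fin (2 * k + 1 + 1)) F}
    (hP : ∀ v, Q (P.1.mulVec v) = (∑ i with i.val < k, v i * v (Fin.rev i)) +
        (v ⟨k, by omega⟩ ^ 2 + v ⟨k, by omega⟩ * v ⟨k + 1, by omega⟩ +
          c * v ⟨k + 1, by omega⟩ ^ 2)) {ℓ p : ℕ} (hℓ : ℓ.Prime)
    (hF : Nat.card F = ℓ) (hl2 : ℓ ≠ 2) (hp : p.Prime) (hp2 : p ≠ 2) (hpℓ : p ≠ ℓ)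
    (hpl : ¬ p ∣ ℓ - 1) (hs : IsSimpleGroup (POQ Q)) : FewAut p (POQ Q) := by
  haveI : Fact ℓ.Prime := ⟨hℓ⟩
  obtain ⟨K, i1, i2, i3, σ, θ, h1, h2, h3, h4, h5, h6, h7⟩ := H703.exists_BC hc
  have hcd : Nat.card {x : K // σ x = x} = Nat.card F := by
    refine (Nat.card_eq_of_bijective (fun y : F => (⟨algebraMap F K y, h3 y⟩ : {x : K // σ x = x}))
      ⟨fun a b hab => ?_, fun x => ?_⟩).symm
    · exact (algebraMap F K).injective (congrArg Subtype.val hab)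
    · obtain ⟨y, hy⟩ := h2 x.1 x.2
      exact ⟨y, Subtype.ext hy⟩
  obtain ⟨e⟩ : Nonempty (POQ Q ≃* H38.TT.P2 k σ) := by
    refine H432.Q.poq_gm hk (⟨h1, h2, h3, h4, h5, h6⟩ : H432.Q.BC F σ θ c) Q P fun v => ?_
    have h8 : Q (P.1 *ᵥ v) = _ := hP v
    rw [h8, H432.Q.qm, Finset.sum_filter]
    rfl
  have hc : CharP F ℓ := by
    cases nonempty_fintype F
    obtain ⟨q, hq⟩ := CharP.exists F
    have hqp : q.Prime := (CharP.char_is_prime_or_zero F q).resolve_right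
      (CharP.char_ne_zero_of_finite F q)
    haveI : Fact q.Prime := ⟨hqp⟩
    obtain ⟨m, hm, hcard⟩ := FiniteField.card F q
    rw [Nat.card_eq_fintype_card, hcard] at hF
    have h6 : q ∣ ℓ := by
      rw [← hF]
      exact dvd_pow_self q m.ne_zero
    have h7 := (Nat.prime_dvd_prime_iff_eq hqp hℓ).1 h6
    rwa [← h7]
  haveI : CharP K ℓ := h7 ℓ hc
  haveI : IsSimpleGroup (H38.TT.P2 k σ) := e.symm.isSimpleGroup
  exact FewAut.congr e.symm (H727.P.p2_fewAut (ℓ := ℓ) (by omega) h1 ⟨θ, h6⟩ (hcd.trans hF) hl2 hp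
    hp2 hpℓ hpl inferInstance)

/-- dimension `8`, `|F| = 5`, `p = 3` -/
lemma eight_five (Q : QuadraticForm F (Fin (2 * 3 + 1 + 1) → F))
    (hQ : ∀ v, (∀ w, QuadraticMap.polar Q v w = 0) → v = 0) (hF : Nat.card F = 5)
    (hs : IsSimpleGroup (POQ Q)) : IsSquare (gram Q).det ∨ FewAut 3 (POQ Q) := by
  rcases H703.normal_form_VI Q hQ with ⟨P, hP⟩ | ⟨c, hc, P, hP⟩
  · exact Or.inl (square_of_plus Q hP)
  · exact Or.inr (few_of_minus (by norm_num) Q hc hP (by norm_num) hF (by norm_num)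
      Nat.prime_three (by norm_num) (by norm_num) (by norm_num) hs)

end

section
variable {L : Type u} [Group L] {F : Type} [Field F] [Finite F] {p : ℕ} [hp : Fact p.Prime]

/-- dimension `8`, the discriminant is a square -/
theorem cov_of_eu {L : Type u} [Group L] {F : Type} [Field F] [Finite F] (hs : IsSimpleGroup L)
    (h2 : (2 : F) ≠ 0) (hE : ∀ D : F, D ≠ 0 → IsSquare D →
      IsSimpleGroup ↥(commutator (PO (fd 7 D))) → EuFree 3 ↥(commutator (PO (fd 7 D))))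
    {A : Matrix (Fin 8) (Fin 8) F} (hA : Aᵀ = A) (hA0 : A.det ≠ 0) (hsq : IsSquare A.det)
    (hd : 3 ∣ Nat.card L) (e : L ≃* OF.POm A) (𝕜 : Type v) [Field 𝕜] : Cov 𝕜 3 L := by
  have hft : Fintype F := Fintype.ofFinite F
  obtain ⟨D, hD, P, hP⟩ := OF.exists_normal (m := 7) h2 hA hA0
  obtain ⟨f⟩ := OF.nonempty_POm (c := 1) one_ne_zero (hP.trans (one_smul F _).symm)
  have h1 : P.1.det * A.det * P.1.det = D := by
    rw [← OF.dl_det (m := 7) D, ← hP, det_mul, det_mul, det_transpose]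
  have hD2 : IsSquare D := by
    obtain ⟨c, hc⟩ := hsq
    exact ⟨P.1.det * c, by rw [← h1, hc]; ring⟩
  have e' : L ≃* ↥(commutator (PO (fd 7 D))) := (e.trans f).trans (H329.Ev.pomD 7 D)
  have hfin : Finite ↥(commutator (PO (fd 7 D))) := inferInstance
  have h3 : EuFree 3 L := (hE D hD hD2 e'.symm.isSimpleGroup).congr e'.symm
  exact Cov.good (Or.inr (Or.inr (Or.inl ⟨h3, hd⟩)))

/-- dimension `8` at the prime `3`, from the groups of plus type -/
theorem cov_eight {L : Type u} [Group L] {F : Type} [Field F] [Finite F] (hs : IsSimpleGroup L)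
    (hnab : ∃ x y : L, x * y ≠ y * x) (h2 : (2 : F) ≠ 0) (h3 : (3 : F) ≠ 0)
    (hE : ∀ D : F, D ≠ 0 → IsSquare D → IsSimpleGroup ↥(commutator (PO (fd 7 D))) →
      EuFree 3 ↥(commutator (PO (fd 7 D))))
    (hd : 3 ∣ Nat.card L) {Q : QuadraticForm F (Fin 8 → F)}
    (hQ : ∀ v, (∀ w, QuadraticMap.polar Q v w = 0) → v = 0) (e : L ≃* POQ Q)
    (𝕜 : Type v) [Field 𝕜] : Cov 𝕜 3 L := by
  haveI : Fact (Nat.Prime 3) := ⟨Nat.prime_three⟩
  have hp3 : ((3 : ℕ) : F) ≠ 0 := by exact_mod_cast h3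
  have hs' : IsSimpleGroup (POQ Q) := e.symm.isSimpleGroup
  have f : POQ Q ≃* OF.POm (gram Q) :=
    OF.commCongr (MulEquiv.subgroupCongr (H432.Q.OQ_eq h2 Q))
  by_cases hsq : IsSquare (gram Q).det
  · exact cov_of_eu hs h2 hE (gram_symm Q) (gram_det Q hQ) hsq hd (e.trans f) 𝕜
  rcases card_cases h2 with h | h | h
  · exfalso
    apply h3
    have : Fintype F := Fintype.ofFinite F
    have h1 := Nat.cast_card_eq_zero F
    rw [← Nat.card_eq_fintype_card, h] at h1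
    exact_mod_cast h1
  · have hf := (eight_five Q hQ h hs').resolve_left hsq
    exact cov_of_few hs hnab (by norm_num) h2 (gram_symm Q) (gram_det Q hQ) hp3 (e.trans f)
      (FewAut.congr e.symm hf) 𝕜
  · exact cov_large (by norm_num) hs hnab le_rfl (by norm_num) h2 (gram_symm Q) (gram_det Q hQ)
      hp3 (fun _ hq => absurd hq hsq) h (e.trans f) 𝕜

/-- **the orthogonal groups** at odd primes -/
theorem cov_POQ_of {F : Type} [Field F] [Finite F] {L : Type u} [Group L] {p : ℕ}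
    [hp : Fact p.Prime] (hp2 : p ≠ 2) (hs : IsSimpleGroup L) (hnab : ∃ x y : L, x * y ≠ y * x)
    (hd : p ∣ Nat.card L) {n : ℕ} (hn5 : 5 ≤ n) {Q : QuadraticForm F (Fin n → F)}
    (hQ : ∀ v, (∀ w, QuadraticMap.polar Q v w = 0) → v = 0)
    (hE : n = 8 → p = 3 → (2 : F) ≠ 0 → (3 : F) ≠ 0 → ∀ D : F, D ≠ 0 → IsSquare D →
      IsSimpleGroup ↥(commutator (PO (fd 7 D))) → EuFree 3 ↥(commutator (PO (fd 7 D))))
    (e : L ≃* POQ Q)
    (𝕜 : Type v) [Field 𝕜] : Cov 𝕜 p L := by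
  by_cases h1 : (p : F) = 0 ∨ (2 : F) = 0 ∨ ¬ (n = 8 ∧ p = 3)
  · exact cov_POQ_all hp2 hs hnab hd hn5 hQ h1 e 𝕜
  obtain ⟨hp0, h1'⟩ := not_or.1 h1
  obtain ⟨h2, h83⟩ := not_or.1 h1'
  obtain ⟨rfl, rfl⟩ := not_not.1 h83
  have h3 : (3 : F) ≠ 0 := by exact_mod_cast hp0
  exact cov_eight hs hnab h2 h3 (hE rfl rfl h2 h3) hd hQ e 𝕜

end

end Vale.Agent.P240.R2.H63.Odd
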