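import Mathlib.GroupTheory.SpecificGroups.Alternating
import Vale.Agent.P240.R2.H432.QDefs
import Vale.Agent.P240.R2.H487.AD

/-!
The simple classical groups that can be eliminated at an odd prime `p`.
-/

set_option autoImplicit false

namespace Vale.Agent.P240.R2.H63.Odd

open Matrix Vale.Agent.P240.R2.H487
open Vale.Agent.P240.R2.H432.Q (POQ)

/-- `L` is isomorphic to `PΩ(Q)` for a quadratic form `Q` on `F ^ n`, `n ≥ 5`, with nondegenerate polar
form, where the characteristic of `F` is `p`, or `(n, p) ≠ (8, 3)`. -/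
def IsPOQE (p : ℕ) (F : Type*) [Field F] (L : Type*) [Group L] : Prop :=
  ∃ (n : ℕ) (Q : QuadraticForm F (Fin n → F)), 5 ≤ n ∧
    (∀ v, (∀ w, QuadraticMap.polar Q v w = 0) → v = 0) ∧
    ((p : F) = 0 ∨ ¬ (n = 8 ∧ p = 3)) ∧ Nonempty (L ≃* POQ Q)

/-- `L` is an alternating group, or a group `PSL_n(F)`, or a group `PSU_n(q)`, `n ≥ 3`, `q ≠ 2, 8`, or a
symplectic or orthogonal group over a field of odd characteristic. -/
def AltClasOE (p : ℕ) (L : Type*) [Group L] : Prop :=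
  (∃ n : ℕ, 5 ≤ n ∧ Nonempty (L ≃* alternatingGroup (Fin n))) ∨
    ∃ (F : Type) (_ : Field F) (_ : Finite F),
      (∃ n : ℕ, Nonempty (L ≃* ProjectiveSpecialLinearGroup (Fin n) F)) ∨
      (Nat.card F ∉ ({4, 64} : Set ℕ) ∧ ∃ n : ℕ, 3 ≤ n ∧ PSUn n F L) ∨
      ((2 : F) ≠ 0 ∧ (IsPSp F L ∨ IsPOQE p F L))

end Vale.Agent.P240.R2.H63.Odd
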