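import Vale.Agent.P240.R2.H63.OddMain2
import Vale.Agent.P240.R2.H275.F3i
import Vale.Agent.P240.R2.H329.Ev4
import Vale.Agent.P240.R2.H432.N4
import Vale.Agent.P240.R2.H296.N6a
import Vale.Agent.P240.R2.H63.P4c

/-!
The orthogonal groups at odd primes.
-/

set_option autoImplicit false

namespace Vale.Agent.P240.R2.H63.Odd

open Matrix Subgroup Vale.Agent.P240 Vale.Agent.P240.K Vale.Agent.P240.R2.AS Vale.Agent.P240.H195
open Vale.Agent.P240.R2.H275 Vale.Agent.P240.R2.H63 Vale.Agent.P240.R2.H487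
open Vale.Agent.P240.R2.H432.Q (POQ)

universe u v

section
variable {L : Type u} [Group L] {F : Type} [Field F] [Finite F] {p : ℕ} [hp : Fact p.Prime]

/-- `FewAut` is enough for the orthogonal groups -/
theorem cov_of_few (hs : IsSimpleGroup L) (hnab : ∃ x y : L, x * y ≠ y * x)
    {n : ℕ} {A : Matrix (Fin n) (Fin n) F} (hn5 : 5 ≤ n) (h2 : (2 : F) ≠ 0)
    (hA : Aᵀ = A) (hA0 : A.det ≠ 0) (hpF : (p : F) ≠ 0) (e : L ≃* OF.POm A) (hf : FewAut p L)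
    (𝕜 : Type v) [Field 𝕜] : Cov 𝕜 p L := by
  obtain ⟨r, hr, hrF⟩ := exists_char' F
  have hpr : p ≠ r := by
    rintro rfl
    exact hpF hrF
  have hfin : Finite L := Finite.of_equiv _ e.symm.toEquiv
  have : CharP F r := CG.charP_of hr hrF
  have ha : AutFree p r L := H715.Or.autFree_O h2 hn5 hA hA0 (O := OF.OA A) (fun _ => Iff.rfl)
    e.symm hr hp.out hpr hs (centreless_of_simple hs hnab)
  exact Cov.good (Or.inr (Or.inr (Or.inr (Or.inl ⟨r, hr, ha, Or.inr (Or.inr (Or.inl hf))⟩))))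

/-- even dimension, `|F| = 3` or `5` -/
theorem cov_small (hp2 : p ≠ 2) (hs : IsSimpleGroup L) (hnab : ∃ x y : L, x * y ≠ y * x)
    {n : ℕ} (hn5 : 5 ≤ n) (hne : n % 2 = 0) (h2 : (2 : F) ≠ 0) (Q : QuadraticForm F (Fin n → F))
    (hQ : ∀ v, (∀ w, QuadraticMap.polar Q v w = 0) → v = 0) (hpF : (p : F) ≠ 0)
    (h83 : ¬ (n = 8 ∧ p = 3)) (hq : Nat.card F = 3 ∨ Nat.card F = 5) (e : L ≃* POQ Q)
    (𝕜 : Type v) [Field 𝕜] : Cov 𝕜 p L := by
  obtain ⟨A, hA, hA0, ⟨f⟩⟩ := H432.Q.poq_pom h2 Q hQ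
  have hf : FewAut p L := FewAut.congr e.symm
    (H432.Q.fewAut_poq_small hn5 hne Q hQ hq hp.out hp2 hpF h83 e.symm.isSimpleGroup)
  exact cov_of_few hs hnab hn5 h2 hA hA0 hpF (e.trans f) hf 𝕜

/-- even dimension at least `8`, `|F| ≥ 7` -/
theorem cov_large (hp2 : p ≠ 2) (hs : IsSimpleGroup L) (hnab : ∃ x y : L, x * y ≠ y * x)
    {n : ℕ} (hn8 : 8 ≤ n) (hne : n % 2 = 0) (h2 : (2 : F) ≠ 0) {A : Matrix (Fin n) (Fin n) F}
    (hA : Aᵀ = A) (hA0 : A.det ≠ 0) (hpF : (p : F) ≠ 0) (h83 : n = 8 → IsSquare A.det → p ≠ 3)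
    (hq : 5 < Nat.card F) (e : L ≃* OF.POm A) (𝕜 : Type v) [Field 𝕜] : Cov 𝕜 p L := by
  have hf : FewAut p L := H329.Ev.fewAut_POm_of H275.F3.stmtSEM hn8 hne h2 hq hA hA0 hp.out hp2
    h83 e
  exact cov_of_few hs hnab (by omega) h2 hA hA0 hpF e hf 𝕜

/-- `PSL_n(F)`, `n ≥ 3` -/
theorem cov_psl_three (hp2 : p ≠ 2) {n : ℕ} (hn : 3 ≤ n)
    (e : L ≃* ProjectiveSpecialLinearGroup (Fin n) F) (𝕜 : Type v) [Field 𝕜] : Cov 𝕜 p L := by
  obtain ⟨r, hrc⟩ := CharP.exists F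
  have hr : r.Prime := (CharP.char_is_prime_or_zero F r).resolve_right
    (CharP.char_ne_zero_of_finite F r)
  exact Or.inr (Or.inr (Or.inr (Or.inr (Or.inr
      ⟨hp2, r, hr, n, F, inferInstance, inferInstance, by omega, Or.inl hn, hrc, ⟨e⟩⟩))))

/-- dimension `6` -/
theorem cov_six (hp2 : p ≠ 2) (hs : IsSimpleGroup L) (hnab : ∃ x y : L, x * y ≠ y * x)
    (hd : p ∣ Nat.card L) (h2 : (2 : F) ≠ 0) (h4 : 4 ≤ Nat.card F)
    {A : Matrix (Fin 6) (Fin 6) F} (hA : Aᵀ = A) (hA0 : A.det ≠ 0)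
    (e : L ≃* OF.POm A) (𝕜 : Type v) [Field 𝕜] : Cov 𝕜 p L := by
  have hft : Fintype F := Fintype.ofFinite F
  by_cases hm : IsSquare (-A.det)
  · have hdet : (diagonal (H945.U4.dd (1 : F))).det = -1 := by
      rw [H945.U4.dd_det]
      ring
    obtain ⟨f⟩ := OF.pom_of_det (m := 5) h2 hA (A' := diagonal (H945.U4.dd (1 : F)))
      (diagonal_transpose _) hA0 (by rw [hdet]; exact neg_ne_zero.2 one_ne_zero) (by
        rw [hdet, mul_neg, mul_one]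
        exact hm)
    obtain ⟨g⟩ := P4.psl4_iso h2
    exact cov_psl_three hp2 (by norm_num) (e.trans (f.trans g.symm)) 𝕜
  · exact OF.cov_six_minus hp2 hs hnab hd h2 h4 hA hA0 hm e 𝕜

lemma card_cases (h2 : (2 : F) ≠ 0) : Nat.card F = 3 ∨ Nat.card F = 5 ∨ 5 < Nat.card F := by
  obtain ⟨r, hr, hrF⟩ := exists_char' F
  have hr2 : r ≠ 2 := by
    rintro rfl
    exact h2 (by exact_mod_cast hrF)
  have h1 := card_odd hr hrF hr2
  have h3 : 1 < Nat.card F := Finite.one_lt_card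
  omega

end

section
variable {L : Type u} [Group L] {F : Type} [Field F] [Finite F] {p : ℕ} [hp : Fact p.Prime]

/-- **the orthogonal groups** at odd primes, `(n, p) ≠ (8, 3)` in odd characteristic `≠ p` -/
theorem cov_POQ_all (hp2 : p ≠ 2) (hs : IsSimpleGroup L) (hnab : ∃ x y : L, x * y ≠ y * x)
    (hd : p ∣ Nat.card L) {n : ℕ} (hn5 : 5 ≤ n) {Q : QuadraticForm F (Fin n → F)}
    (hQ : ∀ v, (∀ w, QuadraticMap.polar Q v w = 0) → v = 0)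
    (h83 : (p : F) = 0 ∨ (2 : F) = 0 ∨ ¬ (n = 8 ∧ p = 3)) (e : L ≃* POQ Q)
    (𝕜 : Type v) [Field 𝕜] : Cov 𝕜 p L := by
  by_cases h1 : (p : F) = 0 ∨ (2 : F) = 0
  · exact OF.cov_POQ hp2 hs hnab hn5 hQ h1 e 𝕜
  obtain ⟨hp0, h2⟩ := not_or.1 h1
  replace h83 := (h83.resolve_left hp0).resolve_left h2
  by_cases hn : n % 2 = 1
  · exact cov_POQO hp2 hs hnab ⟨n, Q, hn5, hQ, Or.inr (Or.inr hn), ⟨e⟩⟩ 𝕜
  have hne : n % 2 = 0 := by omega
  rcases card_cases h2 with h | h | h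
  · exact cov_small hp2 hs hnab hn5 hne h2 Q hQ hp0 h83 (Or.inl h) e 𝕜
  · exact cov_small hp2 hs hnab hn5 hne h2 Q hQ hp0 h83 (Or.inr h) e 𝕜
  obtain ⟨A, hA, hA0, ⟨f⟩⟩ := H432.Q.poq_pom h2 Q hQ
  by_cases h6 : n = 6
  · subst h6
    exact cov_six hp2 hs hnab hd h2 (by omega) hA hA0 (e.trans f) 𝕜
  · exact cov_large hp2 hs hnab (by omega) hne h2 hA hA0 hp0
      (fun h8 _ h3 => h83 ⟨h8, h3⟩) h (e.trans f) 𝕜

end

end Vale.Agent.P240.R2.H63.Odd
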