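import Vale.Agent.P240.R2.H63.Fin
import Vale.Agent.P240.R2.H63.OddMain3
import Vale.Agent.P240.R2.H63.OddDefs2

/-!
Elimination of alternating groups and classical groups at an odd prime.
-/

set_option autoImplicit false

namespace Vale.Agent.P240.R2.H63.Odd

open Matrix Subgroup Vale.Agent.P240 Vale.Agent.P240.K Vale.Agent.P240.R2.AS Vale.Agent.P240.H195
open Vale.Agent.P240.R2.H275 Vale.Agent.P240.R2.H63 Vale.Agent.P240.R2.H487
open Vale.Agent.P240.R2.H432.Q (POQ)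

universe u v

/-- the groups that can be eliminated -/
def CovE (𝕜 : Type v) [Field 𝕜] (p : ℕ) (L : Type u) [Group L] : Prop :=
  TopR 𝕜 p L ∨ ∃ (n : ℕ) (F : Type) (_ : Field F) (_ : Finite F),
    Nonempty (L ≃* ProjectiveSpecialLinearGroup (Fin n) F)

section
variable {𝕜 : Type v} [Field 𝕜] {p : ℕ} {L : Type u} [Group L]

lemma CovE.top (h : TopFac 𝕜 p L) : CovE 𝕜 p L := Or.inl (Or.inl h)

lemma CovE.rigid (h : RigidLie p L) : CovE 𝕜 p L := Or.inl (Or.inr (Or.inl h))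

lemma CovE.few {r : ℕ} (hf : FewAut p L) (hr : r.Prime) (h : AutFree p r L) : CovE 𝕜 p L :=
  Or.inl (Or.inr (Or.inr ⟨hf, r, hr, h⟩))

/-- components that are groups `PSL_n(F)` -/
theorem psl_elim {G : Type u} [Group G] [Finite G] [hp : Fact p.Prime] (hp2 : p ≠ 2)
    {L : Subgroup G} (hs : IsSimpleGroup L) (hn : ∃ x y : L, x * y ≠ y * x) {n : ℕ} {F : Type}
    [Field F] [Finite F] (e : L ≃* ProjectiveSpecialLinearGroup (Fin n) F) :
    LocN p L ∨ Removable 𝕜 p L ∨ RigidLie p L := by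
  have hn2 := psl_two_le hn e
  obtain ⟨m, rfl⟩ : ∃ m, n = m + 1 := ⟨n - 1, by omega⟩
  obtain ⟨r, hrc⟩ := CharP.exists F
  have hr : r.Prime := (CharP.char_is_prime_or_zero F r).resolve_right
    (CharP.char_ne_zero_of_finite F r)
  have : Fact r.Prime := ⟨hr⟩
  have hc := centreless_of_simple hs hn
  have hs' : IsSimpleGroup (PL m F) := e.symm.isSimpleGroup
  have hc' : ∀ x : PL m F, (∀ y, x * y = y * x) → x = 1 := centreless_tr e hc
  by_cases hrp : r = p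
  · subst hrp
    exact Or.inr (Or.inr ((psl_rigidLie (by omega) hs' hc').tr e.symm))
  have hfree : AutFree p r L :=
    ((psl_lieType (p := r) (by omega) hs' hc').autFree hr hp.out (Ne.symm hrp)).congr e.symm
  by_cases h2 : m = 1
  · subst h2
    exact Or.inr (Or.inl (Or.inl ⟨(isPSL2_few hrp hs e).fewOuter, hfree.almostSimpleHQ hr⟩))
  · rcases loc_or_few (p := p) (r := r) hp.out hrp (by omega) hs' e.symm
      (lin_auto (r := r) (by omega) hs' (hp.out.odd_of_ne_two hp2) e.symm) with h | h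
    · exact Or.inl (LocSub.locN h)
    · exact Or.inr (Or.inl (Or.inl ⟨h, hfree.almostSimpleHQ hr⟩))

/-- elimination -/
theorem CovE.elim {G : Type u} [Group G] [Finite G] [hp : Fact p.Prime] (hp2 : p ≠ 2)
    {L : Subgroup G} (hs : IsSimpleGroup L) (hn : ∃ x y : L, x * y ≠ y * x) (h : CovE 𝕜 p L) :
    TopFac 𝕜 p L ∨ LocN p L ∨ Removable 𝕜 p L ∨ RigidLie p L ∨
      ((p : 𝕜) = 0 ∧ JumpSub 𝕜 p L) ∨ (p = 2 ∧ IsSimpleGroup L ∧ PauliPSL L) := by
  rcases h with h | ⟨n, F, _, _, ⟨e⟩⟩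
  · exact h.elim
  · rcases psl_elim (𝕜 := 𝕜) hp2 hs hn e with h | h | h
    · exact Or.inr (Or.inl h)
    · exact Or.inr (Or.inr (Or.inl h))
    · exact Or.inr (Or.inr (Or.inr (Or.inl h)))

end

section psu
variable {K : Type} [Field K] [Fintype K] [StarRing K] {q n : ℕ}
variable {L : Type u} [Group L] [hL : IsSimpleGroup L]

theorem covE_psu {p : ℕ} [hp : Fact p.Prime] (hp2 : p ≠ 2) (hq2 : q ≠ 2) (hq8 : q ≠ 8)
    (hK : Nat.card K = q ^ 2) (hs : ∀ x : K, star x = x ^ q) (hn : 3 ≤ n)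
    (hLn : ∃ x y : L, x * y ≠ y * x) (hd : p ∣ Nat.card L) (e : L ≃* ↥(PSU K n))
    (𝕜 : Type v) [Field 𝕜] : CovE 𝕜 p L := by
  have hZ := centre_one hLn
  have hfin : Finite L := Finite.of_equiv _ e.symm.toEquiv
  have hq3 : 3 ≤ q := by
    have h1 : 1 < Nat.card K := Finite.one_lt_card
    rw [hK] at h1
    by_contra hcon
    have : q = 0 ∨ q = 1 := by omega
    rcases this with h | h <;> rw [h] at h1 <;> norm_num at h1
  by_cases hpK : (p : K) = 0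
  · exact CovE.rigid (rigid_psu (by omega) hK hs hpK (by omega) hZ e)
  have few : FewAut p (PSU K n) → CovE 𝕜 p L := by
    intro hf
    obtain ⟨r, hr, hrq⟩ : ∃ r : ℕ, r.Prime ∧ r ∣ q := Nat.exists_prime_and_dvd (by omega)
    have : Fact r.Prime := ⟨hr⟩
    have hrK := cast_zero_of_dvd hr hK hrq
    have hpr : p ≠ r := by
      rintro rfl
      exact hpK hrK
    have hlt : LieType r L := lie_psu (by omega) hK hs hrK (by omega) hZ e
    exact CovE.few (hf.congr e.symm) hr (LieType.autFree hlt hr hp.out hpr)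
  by_cases h3 : q = 3
  · subst h3
    exact few (H687.U.fewAut_psu_three hp.out hp2 hK hs hn)
  by_cases hpq : p ∣ q + 1
  · by_cases h33 : n = 3 ∧ p = 3 ∧ ¬ 9 ∣ q + 1
    · obtain ⟨rfl, rfl, h9⟩ := h33
      exact few (H938.fewAut_33 (by omega) hK hs hpq h9)
    · exact CovE.top (H938.PSUFacA.topFac 𝕜 ⟨n, q, K, inferInstance, inferInstance,
        inferInstance, hK, hs, hn, by omega, hp2, hpq, fun h => hq8 h.2, h33, ⟨e⟩⟩)
  · exact CovE.top (H432.Odd.topFac_PSU_all (by omega) hq8 hK hs hn hp2 hpq hpK 𝕜 ⟨e⟩ hd)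

end psu

section
variable {L : Type u} [Group L] {F : Type} [Field F] [Finite F] {p : ℕ} [hp : Fact p.Prime]

theorem covE_PSUn (hp2 : p ≠ 2) (hs : IsSimpleGroup L) (hnab : ∃ x y : L, x * y ≠ y * x) {n : ℕ}
    (hn : 3 ≤ n) (hF : Nat.card F ∉ ({4, 64} : Set ℕ)) (h : PSUn n F L) (hd : p ∣ Nat.card L)
    (𝕜 : Type v) [Field 𝕜] : CovE 𝕜 p L := by
  obtain ⟨q, hft, hstar, hK, hst, ⟨e⟩⟩ := psun_data h
  refine covE_psu hp2 ?_ ?_ hK hst hn hnab hd e 𝕜
  · rintro rfl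
    exact hF (Or.inl (by rw [hK]; norm_num))
  · rintro rfl
    exact hF (Or.inr (by rw [hK]; norm_num))

theorem covE_PSp (hp2 : p ≠ 2) (hs : IsSimpleGroup L) (hnab : ∃ x y : L, x * y ≠ y * x)
    (h2 : (2 : F) ≠ 0) (h : IsPSp F L) (hd : p ∣ Nat.card L) (𝕜 : Type v) [Field 𝕜] :
    CovE 𝕜 p L := by
  have hft : Fintype F := Fintype.ofFinite F
  obtain ⟨m, hm, ⟨e⟩⟩ := h
  by_cases hpF : (p : F) = 0
  · obtain ⟨k, hk⟩ : ∃ k, 2 * m = k + 1 := ⟨2 * m - 1, by omega⟩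
    have g : L ≃* CG.PGJ (k + 1) (RingEquiv.refl F) := by
      rw [← hk]
      exact e.trans (H112.pspPGJ m F)
    have hchar : CharP F p := (CharP.charP_iff_prime_eq_zero hp.out).2 hpF
    exact CovE.rigid (RigidLie.tr (e := g.symm) (H775.RG.pg_rigidLie_all (p := p) (m := k)
      (by omega) (fun x => rfl) (Or.inl (by omega)) g.symm.isSimpleGroup
      (centreless_tr g (centre_one hnab))))
  · exact CovE.top (H687.Odd.topFac_Sp hp2 h2 hpF hm e hd 𝕜)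

/-- `FewAut` is enough for the orthogonal groups -/
theorem covE_of_few (hs : IsSimpleGroup L) (hnab : ∃ x y : L, x * y ≠ y * x)
    {n : ℕ} {A : Matrix (Fin n) (Fin n) F} (hn5 : 5 ≤ n) (h2 : (2 : F) ≠ 0)
    (hA : Aᵀ = A) (hA0 : A.det ≠ 0) (hpF : (p : F) ≠ 0) (e : L ≃* OF.POm A) (hf : FewAut p L)
    (𝕜 : Type v) [Field 𝕜] : CovE 𝕜 p L := by
  obtain ⟨r, hr, hrF⟩ := exists_char' F
  have hpr : p ≠ r := by
    rintro rfl
    exact hpF hrF
  have hfin : Finite L := Finite.of_equiv _ e.symm.toEquiv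
  have : CharP F r := CG.charP_of hr hrF
  have ha : AutFree p r L := H715.Or.autFree_O h2 hn5 hA hA0 (O := OF.OA A) (fun _ => Iff.rfl)
    e.symm hr hp.out hpr hs (centreless_of_simple hs hnab)
  exact CovE.few hf hr ha

section

attribute [local instance] starRingOfComm

/-- odd dimension -/
theorem fewAut_odd (hp2 : p ≠ 2) (hs : IsSimpleGroup L)
    {n : ℕ} {A : Matrix (Fin n) (Fin n) F} (hn5 : 5 ≤ n) (hn : n % 2 = 1) (h2 : (2 : F) ≠ 0)
    (hA : Aᵀ = A) (hA0 : A.det ≠ 0) (hpF : (p : F) ≠ 0) (e : L ≃* OF.POm A) : FewAut p L := by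
  have hft : Fintype F := Fintype.ofFinite F
  obtain ⟨r, hr, hrF⟩ := exists_char' F
  have hr2 : r ≠ 2 := by
    rintro rfl
    exact h2 (by exact_mod_cast hrF)
  have hoF := card_odd hr hrF hr2
  by_cases hq : Nat.card F ∈ ({3, 5} : Set ℕ)
  · obtain ⟨f⟩ := pom_gj (m := n - 1) (by omega) hn h2 hA hA0
    have k := e.trans f
    exact FewAut.congr k.symm (H997.fewAut_omega_small (F := F) (by omega)
      (by omega) k.symm.isSimpleGroup hp.out hp2 hpF (by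
        simpa only [Set.mem_insert_iff, Set.mem_singleton_iff] using hq))
  simp only [Set.mem_insert_iff, Set.mem_singleton_iff, not_or] at hq
  obtain ⟨m, rfl⟩ : ∃ m, n = m + 1 := ⟨n - 1, by omega⟩
  obtain ⟨P, c, hc, hP⟩ := OF.similar_odd h2 (by
    rw [Nat.even_iff]
    omega) hA hA0
  obtain ⟨f⟩ := OF.nonempty_POm hc hP
  have h7 : 7 ≤ Nat.card F := by
    have h1 : 1 < Nat.card F := Finite.one_lt_card
    obtain ⟨h3, h5⟩ := hq
    omega
  exact H329.fewAut_Omega (K := F) hp.out hp2 (fun x => rfl) (Nat.odd_iff.2 hoF)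
    h7 (Nat.odd_iff.2 hn) hn5 (e.trans (f.trans OF.pomOne))

end

/-- dimension `6`, `|F| ≥ 4` -/
theorem covE_six (hp2 : p ≠ 2) (hs : IsSimpleGroup L) (hnab : ∃ x y : L, x * y ≠ y * x)
    (hd : p ∣ Nat.card L) (h2 : (2 : F) ≠ 0) (h4 : 4 ≤ Nat.card F)
    {A : Matrix (Fin 6) (Fin 6) F} (hA : Aᵀ = A) (hA0 : A.det ≠ 0)
    (e : L ≃* OF.POm A) (𝕜 : Type v) [Field 𝕜] : CovE 𝕜 p L := by
  have hft : Fintype F := Fintype.ofFinite F
  by_cases hm : IsSquare (-A.det)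
  · have hdet : (diagonal (H945.U4.dd (1 : F))).det = -1 := by
      rw [H945.U4.dd_det]
      ring
    obtain ⟨f⟩ := OF.pom_of_det (m := 5) h2 hA (A' := diagonal (H945.U4.dd (1 : F)))
      (diagonal_transpose _) hA0 (by rw [hdet]; exact neg_ne_zero.2 one_ne_zero) (by
        rw [hdet, mul_neg, mul_one]
        exact hm)
    obtain ⟨g⟩ := P4.psl4_iso h2
    exact Or.inr ⟨4, F, inferInstance, inferInstance, ⟨e.trans (f.trans g.symm)⟩⟩
  · obtain ⟨K, i1, i2, i3, i4, η, hD, hK, hst⟩ := OF.exists_unitary h2 hm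
    obtain ⟨f⟩ := OF.psu4_iso' hD (OF.psu_perfect h4 hK hst 4)
    have h0 : (diagonal (H945.U4.dd (-A.det))).det ≠ 0 := by
      rw [H945.U4.dd_det]
      exact neg_ne_zero.2 (pow_ne_zero _ (neg_ne_zero.2 hA0))
    obtain ⟨g⟩ := OF.pom_of_det (m := 5) h2 hA (diagonal_transpose (H945.U4.dd (-A.det))) hA0 h0
      ⟨A.det ^ 2, by rw [H945.U4.dd_det]; ring⟩
    obtain ⟨r, hr, hrF⟩ := exists_char' F
    have hr2 : r ≠ 2 := by
      rintro rfl
      exact h2 (by exact_mod_cast hrF)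
    have hoF := card_odd hr hrF hr2
    exact covE_psu hp2 (by omega) (by omega) hK hst (by norm_num) hnab hd
      ((e.trans g).trans f.symm) 𝕜

/-- **the orthogonal groups** in odd characteristic -/
theorem covE_POQ (hp2 : p ≠ 2) (hs : IsSimpleGroup L) (hnab : ∃ x y : L, x * y ≠ y * x)
    (hd : p ∣ Nat.card L) (h2 : (2 : F) ≠ 0) {n : ℕ} (hn5 : 5 ≤ n)
    {Q : QuadraticForm F (Fin n → F)}
    (hQ : ∀ v, (∀ w, QuadraticMap.polar Q v w = 0) → v = 0)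
    (h83 : (p : F) = 0 ∨ ¬ (n = 8 ∧ p = 3)) (e : L ≃* POQ Q)
    (𝕜 : Type v) [Field 𝕜] : CovE 𝕜 p L := by
  have hs' : IsSimpleGroup (POQ Q) := e.symm.isSimpleGroup
  obtain ⟨A, hA, hA0, ⟨f⟩⟩ := H432.Q.poq_pom h2 Q hQ
  by_cases hp0 : (p : F) = 0
  · have : CharP F p := CG.charP_of hp.out hp0
    rcases Nat.even_or_odd n with hn | hn
    · obtain ⟨k, rfl⟩ : ∃ k, n = 2 * k + 1 + 1 := by
        obtain ⟨a, ha⟩ := hn
        exact ⟨a - 1, by omega⟩
      exact CovE.rigid (RigidLie.tr e.symm (H432.Q.poq_rigid (by omega) Q hQ hs'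
        (centreless_tr e (centreless_of_simple hs hnab))))
    · exact CovE.rigid (rigid_POm hs hn5 (Nat.odd_iff.1 hn) h2 hA hA0 hp0 (e.trans f))
  replace h83 := h83.resolve_left hp0
  by_cases hn : n % 2 = 1
  · exact covE_of_few hs hnab hn5 h2 hA hA0 hp0 (e.trans f)
      (fewAut_odd hp2 hs hn5 hn h2 hA hA0 hp0 (e.trans f)) 𝕜
  have hne : n % 2 = 0 := by omega
  have small : (Nat.card F = 3 ∨ Nat.card F = 5) → CovE 𝕜 p L := fun hq =>
    covE_of_few hs hnab hn5 h2 hA hA0 hp0 (e.trans f) (FewAut.congr e.symm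
      (H432.Q.fewAut_poq_small hn5 hne Q hQ hq hp.out hp2 hp0 h83 hs')) 𝕜
  rcases card_cases h2 with h | h | h
  · exact small (Or.inl h)
  · exact small (Or.inr h)
  by_cases h6 : n = 6
  · subst h6
    exact covE_six hp2 hs hnab hd h2 (by omega) hA hA0 (e.trans f) 𝕜
  · exact covE_of_few hs hnab hn5 h2 hA hA0 hp0 (e.trans f)
      (H329.Ev.fewAut_POm_of H275.F3.stmtSEM (by omega) hne h2 h hA hA0 hp.out hp2
        (fun h8 _ h3 => h83 ⟨h8, h3⟩) (e.trans f)) 𝕜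

end

section
variable {G : Type u} [Group G] {p : ℕ}

lemma AltClasOE.elim (𝕜 : Type v) [Field 𝕜] [Finite G] [hp : Fact p.Prime] (hp2 : p ≠ 2)
    {L : Subgroup G} (hs : IsSimpleGroup L) (hn : ∃ x y : L, x * y ≠ y * x)
    (hd : p ∣ Nat.card L) (h : AltClasOE p L) :
    TopFac 𝕜 p L ∨ LocN p L ∨ Removable 𝕜 p L ∨ RigidLie p L ∨
      ((p : 𝕜) = 0 ∧ JumpSub 𝕜 p L) ∨ (p = 2 ∧ IsSimpleGroup L ∧ PauliPSL L) := by
  rcases h with h | ⟨F, hF1, hF2, ⟨n, ⟨e⟩⟩ | ⟨hF, n, hn3, h⟩ | ⟨h2, h | ⟨n, Q, hn5, hQ, h83, ⟨e⟩⟩⟩⟩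
  · exact Or.inr (Or.inr (Or.inl (removable_alt h)))
  · exact CovE.elim hp2 hs hn (Or.inr ⟨n, F, hF1, hF2, ⟨e⟩⟩)
  · exact CovE.elim hp2 hs hn (covE_PSUn hp2 hs hn hn3 hF h hd 𝕜)
  · exact CovE.elim hp2 hs hn (covE_PSp hp2 hs hn h2 h hd 𝕜)
  · exact CovE.elim hp2 hs hn (covE_POQ hp2 hs hn hd h2 hn5 hQ h83 e 𝕜)

/-- **Elimination**, odd primes -/
theorem odd_family [hp : Fact p.Prime] [Finite G] {𝕜 : Type v} [Field 𝕜] (hp2 : p ≠ 2)
    {D : Set (Subgroup G)}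
    (hconj : ∀ L ∈ D, ∀ g : G, L.map (MulAut.conj g).toMonoidHom ∈ D)
    (hcomm : ∀ L ∈ D, ∀ M ∈ D, L ≠ M → ∀ x ∈ L, ∀ y ∈ M, x * y = y * x)
    (h : ∀ L ∈ D, IsSimpleGroup L ∧ (∃ x y : L, x * y ≠ y * x) ∧ p ∣ Nat.card L ∧ AltClasOE p L)
    (hC : HQ 𝕜 p (CenAll D)) : HQ 𝕜 p G := by
  refine family_elimT hconj hcomm (fun L hL x hx hxy => ?_) (fun L hL => (h L hL).2.2.1)
    (fun L hL => (h L hL).2.2.2.elim 𝕜 hp2 (h L hL).1 (h L hL).2.1 (h L hL).2.2.1) hC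
  have h1 := centreless_of_simple (h L hL).1 (h L hL).2.1 ⟨x, hx⟩ fun y =>
    Subtype.ext (hxy y y.2)
  exact congrArg Subtype.val h1

/-- **Minimal counterexamples**, odd primes -/
theorem odd_minimal [hp : Fact p.Prime] [Finite G] {𝕜 : Type v} [Field 𝕜] (hp2 : p ≠ 2)
    (hO : OpTrivial p G) (hG : ¬ HQ 𝕜 p G)
    (hmin : ∀ (H : Type u) [Group H] [Finite H], Nat.card H < Nat.card G → OpTrivial p H →
      HQ 𝕜 p H) : ∀ L ∈ Q.Comp G, ¬ AltClasOE p L := by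
  intro L hL h
  have hO' := (H612.minimal_main hO hG hmin).1
  have hf := comp_factor hO hO' hL
  exact minimal_top hO hG hmin hL (h.elim 𝕜 hp2 hf.1 hf.2.1 (l2_dvd hO' L hL))

end

end Vale.Agent.P240.R2.H63.Odd
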