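import Vale.Agent.P240.R2.H63.OddV
import Vale.Agent.P240.R2.H487.AM4
import Vale.Agent.P240.R2.H195.OmLie
import Vale.Agent.P240.R2.H329.OA6

/-!
The main theorem for odd primes: alternating groups and classical groups.
-/

set_option autoImplicit false

namespace Vale.Agent.P240.R2.H63.Odd

open Matrix Subgroup Vale.Agent.P240 Vale.Agent.P240.K Vale.Agent.P240.R2.AS Vale.Agent.P240.H195
open Vale.Agent.P240.R2.H275 Vale.Agent.P240.R2.H63 Vale.Agent.P240.R2.H487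

universe u v

/-- `L` is isomorphic to `PΩ` of a nondegenerate symmetric bilinear form of odd dimension `n ≥ 5` over
`F`, and the characteristic of `F` is `p`, or `|F|` is odd and different from `3` and `5`. -/
def IsPOmOdd (p : ℕ) (F : Type*) [Field F] (L : Type*) [Group L] : Prop :=
  ∃ (n : ℕ) (A : Matrix (Fin n) (Fin n) F), 5 ≤ n ∧ n % 2 = 1 ∧ (2 : F) ≠ 0 ∧
    Aᵀ = A ∧ A.det ≠ 0 ∧ ((p : F) = 0 ∨ Nat.card F ∉ ({3, 5} : Set ℕ)) ∧ Nonempty (L ≃* OF.POm A)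

/-- the groups of the main theorem for odd primes -/
def AltClasOdd (p : ℕ) (L : Type*) [Group L] : Prop :=
  (∃ n : ℕ, 5 ≤ n ∧ Nonempty (L ≃* alternatingGroup (Fin n))) ∨
    ∃ (F : Type) (_ : Field F) (_ : Finite F),
      (∃ n : ℕ, Nonempty (L ≃* ProjectiveSpecialLinearGroup (Fin n) F)) ∨ IsPSp F L ∨
        (∃ n : ℕ, 3 ≤ n ∧ PSUn n F L) ∨ IsPOmOdd p F L

section
variable {L : Type u} [Group L] {F : Type} [Field F] [Finite F] {p : ℕ} [hp : Fact p.Prime]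

/-- the data of a unitary group, all characteristics -/
lemma psun_data {n : ℕ} (h : PSUn n F L) :
    ∃ (q : ℕ) (_ : Fintype F) (_ : StarRing F), Nat.card F = q ^ 2 ∧
      (∀ x : F, star x = x ^ q) ∧ Nonempty (L ≃* AS.PSU F n) := by
  have hft : Fintype F := Fintype.ofFinite F
  obtain ⟨σ, hσ, hne, ⟨e⟩⟩ := h
  obtain ⟨q, hK, hsq⟩ := inv_pow hσ hne
  let S : StarRing F :=
    { star := σ
      star_involutive := hσ
      star_mul := fun a b => by
        show σ (a * b) = σ b * σ a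
        rw [map_mul, mul_comm]
      star_add := fun a b => map_add σ a b }
  have hs : ∀ x : F, star x = x ^ q := hsq
  have hK' : Fintype.card F = q ^ 2 := by rw [← Nat.card_eq_fintype_card]; exact hK
  obtain ⟨e'⟩ := H613.I1.psu_equiv (K := F) (n := n) hK' hs (σ := σ) (fun _ => rfl)
  exact ⟨q, hft, S, hK, hs, ⟨e.trans e'.symm⟩⟩

theorem cov_PSUn (hp2 : p ≠ 2) (hs : IsSimpleGroup L) (hnab : ∃ x y : L, x * y ≠ y * x) {n : ℕ}
    (hn : 3 ≤ n) (h : PSUn n F L) (hd : p ∣ Nat.card L) (𝕜 : Type v) [Field 𝕜] : Cov 𝕜 p L := by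
  obtain ⟨q, hft, hstar, hK, hst, ⟨e⟩⟩ := psun_data h
  exact cov_psu_all hp2 hK hst hn hnab hd e 𝕜

theorem cov_PSp (hp2 : p ≠ 2) (hs : IsSimpleGroup L) (hnab : ∃ x y : L, x * y ≠ y * x)
    (h : IsPSp F L) (hd : p ∣ Nat.card L) (𝕜 : Type v) [Field 𝕜] : Cov 𝕜 p L := by
  have hft : Fintype F := Fintype.ofFinite F
  obtain ⟨m, hm, ⟨e⟩⟩ := h
  exact cov_psp hp2 hm hnab hd e 𝕜

theorem cov_PSL (hp2 : p ≠ 2) {G : Type u} [Group G] (hL : CompFactor G L) {n : ℕ}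
    (e : L ≃* ProjectiveSpecialLinearGroup (Fin n) F) (𝕜 : Type v) [Field 𝕜] : Cov 𝕜 p L := by
  have hn2 := psl_two_le hL.2.1 e
  obtain ⟨r, hrc⟩ := CharP.exists F
  have hr : r.Prime := (CharP.char_is_prime_or_zero F r).resolve_right
    (CharP.char_ne_zero_of_finite F r)
  rcases Nat.eq_or_lt_of_le hn2 with h2 | h3
  · subst h2
    have h1 : Explicit 𝕜 p 2 L := Or.inr (Or.inl ⟨F, inferInstance, inferInstance, ⟨e⟩⟩)
    exact Cov.good (h1.good hL)
  · exact Or.inr (Or.inr (Or.inr (Or.inr (Or.inr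
      ⟨hp2, r, hr, n, F, inferInstance, inferInstance, hn2, Or.inl h3, hrc, ⟨e⟩⟩))))

section

attribute [local instance] starRingOfComm

/-- orthogonal groups of odd dimension in the characteristic of the field -/
theorem rigid_POm (hs : IsSimpleGroup L) {n : ℕ} {A : Matrix (Fin n) (Fin n) F}
    (hn5 : 5 ≤ n) (hn : n % 2 = 1) (h2 : (2 : F) ≠ 0) (hA : Aᵀ = A) (hA0 : A.det ≠ 0)
    (hpF : (p : F) = 0) (e : L ≃* OF.POm A) : RigidLie p L := by
  have : Fintype F := Fintype.ofFinite F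
  have : CharP F p := CG.charP_of hp.out hpF
  obtain ⟨m, rfl⟩ : ∃ m, n = m + 1 := ⟨n - 1, by omega⟩
  obtain ⟨P, c, hc, hP⟩ := OF.similar_odd h2 (by
    rw [Nat.even_iff]
    omega) hA hA0
  obtain ⟨f⟩ := OF.nonempty_POm hc hP
  obtain ⟨g⟩ := H613.I5.pgu_equiv (K := F) (n := m + 1) (fun x => rfl) h2
    (Nat.odd_iff.2 (by omega))
  have g' : ↥(commutator (AS.PGU F (m + 1))) ≃* ↥(commutator ↥(CG.GJ (m + 1) (RingEquiv.refl F))) :=
    ((commutator (AS.PGU F (m + 1))).equivMapOfInjective (g : AS.PGU F (m + 1) →*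
      ↥(CG.GJ (m + 1) (RingEquiv.refl F))) g.injective).trans (MulEquiv.subgroupCongr (OF.map_comm g))
  have k : L ≃* ↥(commutator ↥(CG.GJ (m + 1) (RingEquiv.refl F))) :=
    (e.trans (f.trans OF.pomOne)).trans g'
  exact RigidLie.tr k.symm (H195.Om.omega_rigidLie (p := p) (by omega) (by omega) h2
    k.symm.isSimpleGroup)

theorem cov_POm (hp2 : p ≠ 2) (hs : IsSimpleGroup L) (hnab : ∃ x y : L, x * y ≠ y * x)
    (h : IsPOmOdd p F L) (𝕜 : Type v) [Field 𝕜] : Cov 𝕜 p L := by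
  have hft : Fintype F := Fintype.ofFinite F
  obtain ⟨n, A, hn5, hn, h2, hA, hA0, hq, ⟨e⟩⟩ := h
  by_cases hpF : (p : F) = 0
  · exact Cov.rigid (rigid_POm hs hn5 hn h2 hA hA0 hpF e)
  replace hq := hq.resolve_left hpF
  obtain ⟨r, hr, hrF⟩ := exists_char' F
  have hr2 : r ≠ 2 := by
    rintro rfl
    exact h2 (by exact_mod_cast hrF)
  have hpr : p ≠ r := by
    rintro rfl
    exact hpF hrF
  have hoF := card_odd hr hrF hr2
  simp only [Set.mem_insert_iff, Set.mem_singleton_iff, not_or] at hq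
  have hfin : Finite L := Finite.of_equiv _ e.symm.toEquiv
  have : CharP F r := CG.charP_of hr hrF
  have ha : AutFree p r L := H715.Or.autFree_O h2 hn5 hA hA0 (O := OF.OA A) (fun _ => Iff.rfl)
    e.symm hr hp.out hpr hs (centreless_of_simple hs hnab)
  obtain ⟨m, rfl⟩ : ∃ m, n = m + 1 := ⟨n - 1, by omega⟩
  obtain ⟨P, c, hc, hP⟩ := OF.similar_odd h2 (by
    rw [Nat.even_iff]
    omega) hA hA0
  obtain ⟨f⟩ := OF.nonempty_POm hc hP
  have h7 : 7 ≤ Nat.card F := by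
    have h1 : 1 < Nat.card F := Finite.one_lt_card
    obtain ⟨h3, h5⟩ := hq
    omega
  have hf : FewAut p L := H329.fewAut_Omega (K := F) hp.out hp2 (fun x => rfl) (Nat.odd_iff.2 hoF)
    h7 (Nat.odd_iff.2 hn) hn5 (e.trans (f.trans OF.pomOne))
  exact Cov.good (Or.inr (Or.inr (Or.inr (Or.inl ⟨r, hr, ha, Or.inr (Or.inr (Or.inl hf))⟩))))

end

end

section
variable {G : Type u} [Group G] {p : ℕ}

lemma AltClasOdd.facS {𝕜 : Type v} [Field 𝕜] [hp : Fact p.Prime] (hp2 : p ≠ 2) {L : Type u}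
    [Group L] (hL : CompFactor G L) (hd : p ∣ Nat.card L)
    (h : AltClasOdd p L ∨ Other 𝕜 p 2 L) : FacS 𝕜 p 2 L := by
  have key : Cov 𝕜 p L → FacS 𝕜 p 2 L := fun h => Or.inl (h.imp (fun h _ => h) id)
  rcases h with (h | ⟨F, hF1, hF2, ⟨n, ⟨e⟩⟩ | h | ⟨n, hn, h⟩ | h⟩) | h | h
  · exact key (Cov.good (Or.inl h))
  · exact key (cov_PSL hp2 hL e 𝕜)
  · exact key (cov_PSp hp2 hL.1 hL.2.1 h hd 𝕜)
  · exact key (cov_PSUn hp2 hL.1 hL.2.1 hn h hd 𝕜)
  · exact key (cov_POm hp2 hL.1 hL.2.1 h 𝕜)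
  · exact key (Cov.good h)
  · exact Or.inr h

/-- **Main theorem**, odd primes, any field `𝕜`, composition factors -/
theorem odd_factor [hp : Fact p.Prime] [Finite G] {𝕜 : Type v} [Field 𝕜] (hp2 : p ≠ 2)
    (hO : OpTrivial p G) (h : ∀ (L : Type u) [Group L], CompFactor G L → p ∣ Nat.card L →
      AltClasOdd p L ∨ Other 𝕜 p 2 L) : HQ 𝕜 p G :=
  factor_mainS Nat.prime_two hO fun L _ hL hd => AltClasOdd.facS hp2 hL hd (h L hL hd)

/-- **Main theorem**, odd primes, any field `𝕜`, components -/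
theorem odd_comp [hp : Fact p.Prime] [Finite G] {𝕜 : Type v} [Field 𝕜] (hp2 : p ≠ 2)
    (hO : OpTrivial p G) (N : Subgroup G) [N.Normal] (hN : ¬ p ∣ Nat.card N)
    (hmax : ∀ X : Subgroup G, X.Normal → ¬ p ∣ Nat.card X → X ≤ N)
    (h : ∀ L ∈ Q.Comp (Reduced N), AltClasOdd p L ∨ Other 𝕜 p 2 L) : HQ 𝕜 p G := by
  have hO2 := reduced_op' N hN hmax
  exact comp_mainS Nat.prime_two hO N hN hmax fun L hL hc =>
    AltClasOdd.facS hp2 hc (l2_dvd hO2 L hL) (h L hL)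

end

end Vale.Agent.P240.R2.H63.Odd
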