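import Vale.Agent.P240.R2.H63.OddDefs
import Vale.Agent.P240.R2.H296.OQOdd
import Vale.Agent.P240.R2.H997.OmFew

/-!
The main theorem for odd primes: alternating groups and classical groups.
-/

set_option autoImplicit false

namespace Vale.Agent.P240.R2.H63.Odd

open Matrix Subgroup Vale.Agent.P240 Vale.Agent.P240.K Vale.Agent.P240.R2.AS Vale.Agent.P240.H195
open Vale.Agent.P240.R2.H275 Vale.Agent.P240.R2.H63 Vale.Agent.P240.R2.H487
open Vale.Agent.P240.R2.H432.Q (POQ)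

universe u v

section
variable {L : Type u} [Group L] {F : Type} [Field F] [Finite F] {p : ℕ} [hp : Fact p.Prime]

section

attribute [local instance] starRingOfComm

/-- the orthogonal groups of odd dimension in the model `GJ` -/
theorem pom_gj {n m : ℕ} {A : Matrix (Fin n) (Fin n) F} (hm : n = m + 1) (hn : n % 2 = 1)
    (h2 : (2 : F) ≠ 0) (hA : Aᵀ = A) (hA0 : A.det ≠ 0) :
    Nonempty (OF.POm A ≃* ↥(commutator ↥(CG.GJ (m + 1) (RingEquiv.refl F)))) := by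
  have : Fintype F := Fintype.ofFinite F
  subst hm
  obtain ⟨P, c, hc, hP⟩ := OF.similar_odd h2 (by
    rw [Nat.even_iff]
    omega) hA hA0
  obtain ⟨f⟩ := OF.nonempty_POm hc hP
  obtain ⟨g⟩ := H613.I5.pgu_equiv (K := F) (n := m + 1) (fun x => rfl) h2
    (Nat.odd_iff.2 (by omega))
  have g' : ↥(commutator (AS.PGU F (m + 1))) ≃* ↥(commutator ↥(CG.GJ (m + 1) (RingEquiv.refl F))) :=
    ((commutator (AS.PGU F (m + 1))).equivMapOfInjective (g : AS.PGU F (m + 1) →*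
      ↥(CG.GJ (m + 1) (RingEquiv.refl F))) g.injective).trans (MulEquiv.subgroupCongr (OF.map_comm g))
  exact ⟨(f.trans OF.pomOne).trans g'⟩

end

/-- orthogonal groups of odd dimension, all fields of odd characteristic -/
theorem cov_odd (hp2 : p ≠ 2) (hs : IsSimpleGroup L) (hnab : ∃ x y : L, x * y ≠ y * x)
    {n : ℕ} {A : Matrix (Fin n) (Fin n) F} (hn5 : 5 ≤ n) (hn : n % 2 = 1) (h2 : (2 : F) ≠ 0)
    (hA : Aᵀ = A) (hA0 : A.det ≠ 0) (e : L ≃* OF.POm A) (𝕜 : Type v) [Field 𝕜] : Cov 𝕜 p L := by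
  have hft : Fintype F := Fintype.ofFinite F
  by_cases hpF : (p : F) = 0
  · exact Cov.rigid (rigid_POm hs hn5 hn h2 hA hA0 hpF e)
  by_cases hq : Nat.card F ∈ ({3, 5} : Set ℕ)
  · obtain ⟨r, hr, hrF⟩ := exists_char' F
    have hpr : p ≠ r := by
      rintro rfl
      exact hpF hrF
    have hfin : Finite L := Finite.of_equiv _ e.symm.toEquiv
    have : CharP F r := CG.charP_of hr hrF
    have ha : AutFree p r L := H715.Or.autFree_O h2 hn5 hA hA0 (O := OF.OA A) (fun _ => Iff.rfl)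
      e.symm hr hp.out hpr hs (centreless_of_simple hs hnab)
    obtain ⟨f⟩ := pom_gj (m := n - 1) (by omega) hn h2 hA hA0
    have k := e.trans f
    have hf : FewAut p L := FewAut.congr k.symm (H997.fewAut_omega_small (F := F) (by omega)
      (by omega) k.symm.isSimpleGroup hp.out hp2 hpF (by
        simpa only [Set.mem_insert_iff, Set.mem_singleton_iff] using hq))
    exact Cov.good (Or.inr (Or.inr (Or.inr (Or.inl ⟨r, hr, ha, Or.inr (Or.inr (Or.inl hf))⟩))))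
  · exact cov_POm hp2 hs hnab ⟨n, A, hn5, hn, h2, hA, hA0, Or.inr hq, ⟨e⟩⟩ 𝕜

theorem cov_POQO (hp2 : p ≠ 2) (hs : IsSimpleGroup L) (hnab : ∃ x y : L, x * y ≠ y * x)
    (h : IsPOQO p F L) (𝕜 : Type v) [Field 𝕜] : Cov 𝕜 p L := by
  obtain ⟨n, Q, hn5, hQ, hc, ⟨e⟩⟩ := h
  by_cases h1 : (p : F) = 0 ∨ (2 : F) = 0
  · exact OF.cov_POQ hp2 hs hnab hn5 hQ h1 e 𝕜
  obtain ⟨hp0, h2⟩ := not_or.1 h1
  have hn := (hc.resolve_left hp0).resolve_left h2
  obtain ⟨A, hA, hA0, ⟨f⟩⟩ := H432.Q.poq_pom h2 Q hQ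
  exact cov_odd hp2 hs hnab hn5 hn h2 hA hA0 (e.trans f) 𝕜

end

section
variable {G : Type u} [Group G] {p : ℕ}

lemma AltClasO.facS {𝕜 : Type v} [Field 𝕜] [hp : Fact p.Prime] (hp2 : p ≠ 2) {L : Type u}
    [Group L] (hL : CompFactor G L) (hd : p ∣ Nat.card L)
    (h : AltClasO p L ∨ Other 𝕜 p 2 L) : FacS 𝕜 p 2 L := by
  have key : Cov 𝕜 p L → FacS 𝕜 p 2 L := fun h => Or.inl (h.imp (fun h _ => h) id)
  rcases h with (h | ⟨F, hF1, hF2, ⟨n, ⟨e⟩⟩ | h | ⟨n, hn, h⟩ | h⟩) | h | h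
  · exact key (Cov.good (Or.inl h))
  · exact key (cov_PSL hp2 hL e 𝕜)
  · exact key (cov_PSp hp2 hL.1 hL.2.1 h hd 𝕜)
  · exact key (cov_PSUn hp2 hL.1 hL.2.1 hn h hd 𝕜)
  · exact key (cov_POQO hp2 hL.1 hL.2.1 h 𝕜)
  · exact key (Cov.good h)
  · exact Or.inr h

/-- **Main theorem**, odd primes, any field `𝕜`, composition factors -/
theorem oddo_factor [hp : Fact p.Prime] [Finite G] {𝕜 : Type v} [Field 𝕜] (hp2 : p ≠ 2)
    (hO : OpTrivial p G) (h : ∀ (L : Type u) [Group L], CompFactor G L → p ∣ Nat.card L →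
      AltClasO p L ∨ Other 𝕜 p 2 L) : HQ 𝕜 p G :=
  factor_mainS Nat.prime_two hO fun L _ hL hd => AltClasO.facS hp2 hL hd (h L hL hd)

/-- **Main theorem**, odd primes, any field `𝕜`, components -/
theorem oddo_comp [hp : Fact p.Prime] [Finite G] {𝕜 : Type v} [Field 𝕜] (hp2 : p ≠ 2)
    (hO : OpTrivial p G) (N : Subgroup G) [N.Normal] (hN : ¬ p ∣ Nat.card N)
    (hmax : ∀ X : Subgroup G, X.Normal → ¬ p ∣ Nat.card X → X ≤ N)
    (h : ∀ L ∈ Q.Comp (Reduced N), AltClasO p L ∨ Other 𝕜 p 2 L) : HQ 𝕜 p G := by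
  have hO2 := reduced_op' N hN hmax
  exact comp_mainS Nat.prime_two hO N hN hmax fun L hL hc =>
    AltClasO.facS hp2 hc (l2_dvd hO2 L hL) (h L hL)

end

end Vale.Agent.P240.R2.H63.Odd
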