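import Vale.Agent.P240.R2.H63.OddMain4
import Vale.Agent.P240.R2.H727.Q5F

/-!
The orthogonal groups at odd primes, without exception.
-/

set_option autoImplicit false

namespace Vale.Agent.P240.R2.H63.Odd

open Matrix Subgroup Vale.Agent.P240 Vale.Agent.P240.K Vale.Agent.P240.R2.AS Vale.Agent.P240.H195
open Vale.Agent.P240.R2.H275 Vale.Agent.P240.R2.H63 Vale.Agent.P240.R2.H487
open Vale.Agent.P240.R2.H432.Q (POQ)

universe u v

/-- **the orthogonal groups** at odd primes -/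
theorem cov_POQ_top {L : Type u} [Group L] {F : Type} [Field F]
    [Finite F] {p : ℕ} [hp : Fact p.Prime] (hp2 : p ≠ 2) (hs : IsSimpleGroup L)
    (hnab : ∃ x y : L, x * y ≠ y * x) (hd : p ∣ Nat.card L) {n : ℕ} (hn5 : 5 ≤ n)
    {Q : QuadraticForm F (Fin n → F)} (hQ : ∀ v, (∀ w, QuadraticMap.polar Q v w = 0) → v = 0)
    (e : L ≃* POQ Q) (𝕜 : Type v) [Field 𝕜] : Cov 𝕜 p L :=
  cov_POQ_five H727.Q5.q5_inner hp2 hs hnab hd hn5 hQ e 𝕜

end Vale.Agent.P240.R2.H63.Odd
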