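import Vale.Agent.P240.R2.H487.TF
import Vale.Agent.P240.R2.H487.CG.A9
import Vale.Agent.P240.R2.H775.RG9
import Vale.Agent.P240.R2.H613.I1
import Vale.Agent.P240.R2.H432.UFinE
import Vale.Agent.P240.R2.H938.W12
import Vale.Agent.P240.R2.H112.I2
import Vale.Agent.P240.R2.H687.OddSp
import Vale.Agent.P240.H195.RIso
import Vale.Agent.P240.R2.H986.A5c

/-!
The groups `PSU_n(q)` and `PSp_2m(q)` at odd primes.
-/

set_option autoImplicit false

namespace Vale.Agent.P240.R2.H63.Odd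

open Matrix Subgroup Vale.Agent.P240 Vale.Agent.P240.K Vale.Agent.P240.R2.AS Vale.Agent.P240.H195
open Vale.Agent.P240.R2.H275 Vale.Agent.P240.R2.H63 Vale.Agent.P240.R2.H487
open Vale.Agent.P240.R2.H487.CG (PGJ)

universe u v

/-- the goal for a simple group `L` of order divisible by the odd prime `p` -/
def Cov (𝕜 : Type v) [Field 𝕜] (p : ℕ) (L : Type u) [Group L] : Prop :=
  TopFac 𝕜 p L ∨ ListedFactorP 𝕜 p 2 L

section gen
variable {𝕜 : Type v} [Field 𝕜] {p : ℕ} {L : Type u} [Group L]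

lemma Cov.good (h : GoodFactor 𝕜 p 2 L) : Cov 𝕜 p L := Or.inr (Or.inr (Or.inl h))

lemma Cov.rigid (h : RigidLie p L) : Cov 𝕜 p L := Cov.good (Or.inr (Or.inl h))

lemma Cov.lie2 [Finite L] (hp : p.Prime) (hp2 : p ≠ 2) (h : LieType 2 L) : Cov 𝕜 p L :=
  Cov.good (Or.inr (Or.inr (Or.inr (Or.inl
    ⟨2, Nat.prime_two, LieType.autFree h Nat.prime_two hp hp2, Or.inl rfl⟩))))

lemma Cov.few [Finite L] {r : ℕ} (hp : p.Prime) (hr : r.Prime) (hpr : p ≠ r) (h : LieType r L)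
    (hf : FewAut p L) : Cov 𝕜 p L :=
  Cov.good (Or.inr (Or.inr (Or.inr (Or.inl
    ⟨r, hr, LieType.autFree h hr hp hpr, Or.inr (Or.inr (Or.inl hf))⟩))))

lemma centre_one [IsSimpleGroup L] (hLn : ∃ x y : L, x * y ≠ y * x) :
    ∀ x : L, (∀ y, x * y = y * x) → x = 1 := by
  intro x hx
  have h1 : x ∈ Subgroup.center L := by
    rw [Subgroup.mem_center_iff]
    intro g
    exact (hx g).symm
  rcases (inferInstance : (Subgroup.center L).Normal).eq_bot_or_eq_top with h2 | h2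
  · rw [h2, Subgroup.mem_bot] at h1
    exact h1
  · obtain ⟨a, b, hab⟩ := hLn
    refine absurd ?_ hab
    have : b ∈ Subgroup.center L := by rw [h2]; trivial
    exact Subgroup.mem_center_iff.1 this a

end gen

section psu
variable {K : Type} [Field K] [Fintype K] [StarRing K] {q n : ℕ}

/-- the isomorphism with the group defined by the antidiagonal form -/
theorem psu_pgj (hK : Nat.card K = q ^ 2) (hs : ∀ x : K, star x = x ^ q) :
    Nonempty (↥(PSU K n) ≃* PGJ n (starRingAut : K ≃+* K)) := by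
  have hK' : Fintype.card K = q ^ 2 := by rw [← Nat.card_eq_fintype_card]; exact hK
  exact H613.I1.psu_equiv hK' hs (fun x => rfl)

variable {L : Type u} [Group L] [hL : IsSimpleGroup L]

/-- `PSU_n(q)` in its characteristic -/
theorem rigid_psu (hq : 2 ≤ q) (hK : Nat.card K = q ^ 2) (hs : ∀ x : K, star x = x ^ q) {p : ℕ}
    [hp : Fact p.Prime] (hpK : (p : K) = 0) (hn : 2 ≤ n)
    (hZ : ∀ x : L, (∀ y, x * y = y * x) → x = 1) (e : L ≃* ↥(PSU K n)) : RigidLie p L := by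
  obtain ⟨m, rfl⟩ : ∃ m, n = m + 1 := ⟨n - 1, by omega⟩
  obtain ⟨f⟩ := psu_pgj (n := m + 1) hK hs
  have hchar : CharP K p := (CharP.charP_iff_prime_eq_zero hp.out).2 hpK
  obtain ⟨a, ha⟩ := H986.A5.exists_star_ne hq hK hs
  have g : L ≃* PGJ (m + 1) (starRingAut : K ≃+* K) := e.trans f
  have h := H775.RG.pg_rigidLie_all (p := p) (m := m) (σ := (starRingAut : K ≃+* K)) (by omega)
    (fun x => star_star x) (Or.inr ⟨a, ha⟩) g.symm.isSimpleGroup (centreless_tr g hZ)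
  exact RigidLie.tr (e := g.symm) h

/-- `PSU_n(q)` is of Lie type -/
theorem lie_psu (hq : 2 ≤ q) (hK : Nat.card K = q ^ 2) (hs : ∀ x : K, star x = x ^ q) {r : ℕ}
    [hr : Fact r.Prime] (hrK : (r : K) = 0) (hn : 2 ≤ n)
    (hZ : ∀ x : L, (∀ y, x * y = y * x) → x = 1) (e : L ≃* ↥(PSU K n)) : LieType r L := by
  obtain ⟨m, rfl⟩ : ∃ m, n = m + 1 := ⟨n - 1, by omega⟩
  obtain ⟨f⟩ := psu_pgj (n := m + 1) hK hs
  have hchar : CharP K r := (CharP.charP_iff_prime_eq_zero hr.out).2 hrK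
  obtain ⟨a, ha⟩ := H986.A5.exists_star_ne hq hK hs
  have g : L ≃* PGJ (m + 1) (starRingAut : K ≃+* K) := e.trans f
  have h := CG.pg_lieType (p := r) (m := m) (σ := (starRingAut : K ≃+* K)) (by omega)
    (fun x => star_star x) (Or.inr (Or.inl ⟨a, ha⟩)) g.symm.isSimpleGroup (centreless_tr g hZ)
  exact LieType.tr (e := g.symm) h

/-- the two small cases at odd primes -/
def SmallU : Prop :=
  ∀ (p : ℕ) [Fact p.Prime], p ≠ 2 → ∀ (K : Type) [Field K] [Fintype K] [StarRing K] (q n : ℕ),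
    Nat.card K = q ^ 2 → (∀ x : K, star x = x ^ q) → 3 ≤ n → q % 2 = 1 → (p : K) ≠ 0 →
    (q = 3 ∨ (n = 3 ∧ p = 3 ∧ 3 < q ∧ 3 ∣ q + 1 ∧ ¬ 9 ∣ q + 1)) → IsSimpleGroup ↥(PSU K n) →
    p ∣ Nat.card ↥(PSU K n) → ∀ (𝕜 : Type v) [Field 𝕜] (L : Type u) [Group L],
    (∃ x y : L, x * y ≠ y * x) → Nonempty (L ≃* ↥(PSU K n)) → Cov 𝕜 p L

theorem cov_psu (hsm : SmallU.{u, v}) {p : ℕ} [hp : Fact p.Prime] (hp2 : p ≠ 2)
    (hK : Nat.card K = q ^ 2) (hs : ∀ x : K, star x = x ^ q) (hn : 3 ≤ n)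
    (hLn : ∃ x y : L, x * y ≠ y * x) (hd : p ∣ Nat.card L) (e : L ≃* ↥(PSU K n))
    (𝕜 : Type v) [Field 𝕜] : Cov 𝕜 p L := by
  have hZ := centre_one hLn
  have hfin : Finite L := Finite.of_equiv _ e.symm.toEquiv
  have hq2 : 2 ≤ q := by
    have h1 : 1 < Nat.card K := Finite.one_lt_card
    rw [hK] at h1
    by_contra hcon
    have : q = 0 ∨ q = 1 := by omega
    rcases this with h | h <;> rw [h] at h1 <;> norm_num at h1
  by_cases hpK : (p : K) = 0
  · exact Cov.rigid (rigid_psu hq2 hK hs hpK (by omega) hZ e)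
  rcases Nat.even_or_odd q with hqe | hqo
  · have h2 : (2 : K) = 0 := by
      have h3 : 2 ∣ Fintype.card K := by
        rw [← Nat.card_eq_fintype_card, hK]
        exact dvd_pow hqe.two_dvd two_ne_zero
      obtain ⟨x, hx⟩ := exists_prime_addOrderOf_dvd_card 2 h3
      have h4 : (2 : ℕ) • x = 0 := by rw [← hx]; exact addOrderOf_nsmul_eq_zero x
      have h5 : x ≠ 0 := by
        intro h
        rw [h, addOrderOf_zero] at hx
        norm_num at hx
      rw [nsmul_eq_mul] at h4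
      have := (mul_eq_zero.1 h4).resolve_right h5
      exact_mod_cast this
    haveI : Fact (Nat.Prime 2) := ⟨Nat.prime_two⟩
    exact Cov.lie2 hp.out hp2
      (lie_psu hq2 hK hs (r := 2) (by exact_mod_cast h2) (by omega) hZ e)
  · have hsim : IsSimpleGroup ↥(PSU K n) := e.symm.isSimpleGroup
    have hd' : p ∣ Nat.card ↥(PSU K n) := by rw [← Nat.card_congr e.toEquiv]; exact hd
    by_cases h3 : q = 3
    · exact hsm p hp2 K q n hK hs hn (Nat.odd_iff.1 hqo) hpK (Or.inl h3) hsim hd' 𝕜 L hLn ⟨e⟩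
    have hq3 : 3 < q := by
      obtain ⟨j, hj⟩ := hqo
      omega
    by_cases hpq : p ∣ q + 1
    · by_cases h33 : n = 3 ∧ p = 3 ∧ ¬ 9 ∣ q + 1
      · refine hsm p hp2 K q n hK hs hn (Nat.odd_iff.1 hqo) hpK (Or.inr ?_) hsim hd' 𝕜 L hLn ⟨e⟩
        refine ⟨h33.1, h33.2.1, hq3, ?_, h33.2.2⟩
        rw [← h33.2.1]
        exact hpq
      · refine Or.inl (H938.PSUFacA.topFac 𝕜 ⟨n, q, K, inferInstance, inferInstance, inferInstance,
          hK, hs, hn, hq3, hp2, hpq, ?_, h33, ⟨e⟩⟩)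
        rintro ⟨_, rfl⟩
        exact absurd hqo (by decide)
    · refine Or.inl (H432.Odd.topFac_PSU_all (by omega) ?_ hK hs hn hp2 hpq hpK 𝕜 ⟨e⟩ hd)
      rintro rfl
      exact absurd hqo (by decide)

end psu

section psp
variable {F : Type} [Field F] [Fintype F] {m : ℕ} {L : Type u} [Group L] [hL : IsSimpleGroup L]

theorem cov_psp {p : ℕ} [hp : Fact p.Prime] (hp2 : p ≠ 2) (hm : 2 ≤ m)
    (hLn : ∃ x y : L, x * y ≠ y * x) (hd : p ∣ Nat.card L)
    (e : L ≃* (H715.Sy F m ⧸ Subgroup.center (H715.Sy F m))) (𝕜 : Type v) [Field 𝕜] :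
    Cov 𝕜 p L := by
  have hZ := centre_one hLn
  have hfin : Finite L := Finite.of_equiv _ e.symm.toEquiv
  obtain ⟨k, hk⟩ : ∃ k, 2 * m = k + 1 := ⟨2 * m - 1, by omega⟩
  have g : L ≃* PGJ (k + 1) (RingEquiv.refl F) := by
    rw [← hk]
    exact e.trans (H112.pspPGJ m F)
  by_cases hpF : (p : F) = 0
  · have hchar : CharP F p := (CharP.charP_iff_prime_eq_zero hp.out).2 hpF
    exact Cov.rigid (RigidLie.tr (e := g.symm) (H775.RG.pg_rigidLie_all (p := p) (m := k) (by omega)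
      (fun x => rfl) (Or.inl (by omega)) g.symm.isSimpleGroup (centreless_tr g hZ)))
  by_cases h2 : (2 : F) = 0
  · haveI : Fact (Nat.Prime 2) := ⟨Nat.prime_two⟩
    have hchar : CharP F 2 := (CharP.charP_iff_prime_eq_zero Nat.prime_two).2 (by exact_mod_cast h2)
    exact Cov.lie2 hp.out hp2 (LieType.tr (e := g.symm) (CG.pg_lieType (p := 2) (m := k) (by omega)
      (fun x => rfl) (Or.inl (by omega)) g.symm.isSimpleGroup (centreless_tr g hZ)))
  · exact Or.inl (H687.Odd.topFac_Sp hp2 h2 hpF hm e hd 𝕜)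

end psp

end Vale.Agent.P240.R2.H63.Odd
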