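import Vale.Agent.P240.R2.H945.U4e
import Mathlib.LinearAlgebra.Matrix.ProjectiveSpecialLinearGroup

/-!
`PSL_4(F)` is the group `PΩ` of a six-dimensional form of plus type, `F` a field of odd characteristic.
-/

set_option autoImplicit false
set_option linter.all false

namespace Vale.Agent.P240.R2.H63.P4

open Matrix Vale.Agent.P240.R2.H945.U4
open Vale.Agent.P240.R2.H145.EO (B ac OD rf Big ac_mul ac_rf gl_ext ac_one)

universe u

section
variable {F : Type u} [Field F]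

/-- the alternating matrix of a vector -/
def Y (y : Fin 6 → F) : Matrix (Fin 4) (Fin 4) F :=
  al (y 0 + y 1) (y 2 + y 3) (y 4 + y 5) (y 4 - y 5) (-(y 2 - y 3)) (y 0 - y 1)

/-- the dual matrix -/
def Y' (y : Fin 6 → F) : Matrix (Fin 4) (Fin 4) F :=
  al (y 0 - y 1) (y 2 - y 3) (y 4 - y 5) (y 4 + y 5) (-(y 2 + y 3)) (y 0 + y 1)

lemma Bd (x y : Fin 6 → F) : B (dd (1 : F)) x y =
    x 0 * y 0 - x 1 * y 1 + x 2 * y 2 - x 3 * y 3 + x 4 * y 4 - x 5 * y 5 := by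
  rw [B, Fin.sum_univ_six]
  show 1 * x 0 * y 0 + -1 * x 1 * y 1 + 1 * x 2 * y 2 + -1 * x 3 * y 3 + 1 * x 4 * y 4 +
      -1 * x 5 * y 5 = _
  ring

lemma Y_mul (x y : Fin 6 → F) : Y x * Y' y + Y y * Y' x =
    (-(2 * B (dd (1 : F)) x y)) • (1 : Matrix (Fin 4) (Fin 4) F) := by
  rw [Y, Y, Y', Y', mul_aux, Bd]
  congr 1
  ring

lemma Y_mul' (x y : Fin 6 → F) : Y' x * Y y + Y' y * Y x =
    (-(2 * B (dd (1 : F)) x y)) • (1 : Matrix (Fin 4) (Fin 4) F) := by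
  rw [Y, Y, Y', Y', mul_aux, Bd]
  congr 1
  ring

lemma Y_self (x : Fin 6 → F) : Y x * Y' x =
    (-(B (dd (1 : F)) x x)) • (1 : Matrix (Fin 4) (Fin 4) F) := by
  rw [Y, Y', mul_aux1, Bd]
  congr 1
  ring

lemma Y_self' (x : Fin 6 → F) : Y' x * Y x =
    (-(B (dd (1 : F)) x x)) • (1 : Matrix (Fin 4) (Fin 4) F) := by
  rw [Y, Y', mul_aux1, Bd]
  congr 1
  ring

lemma det_Y (x : Fin 6 → F) : (Y x).det = (B (dd (1 : F)) x x) ^ 2 := by
  rw [Y, det_aux, Bd]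
  ring

lemma det_Y' (x : Fin 6 → F) : (Y' x).det = (B (dd (1 : F)) x x) ^ 2 := by
  rw [Y', det_aux, Bd]
  ring

lemma Y_T (x : Fin 6 → F) : (Y x)ᵀ = -Y x := al_transpose _ _ _ _ _ _

lemma Y_T' (x : Fin 6 → F) : (Y' x)ᵀ = -Y' x := al_transpose _ _ _ _ _ _

lemma Y_add (x y : Fin 6 → F) : Y (x + y) = Y x + Y y := by
  rw [Y, Y, Y, al_add]
  simp only [Pi.add_apply]
  congr 1 <;> ring

lemma Y_smul (c : F) (x : Fin 6 → F) : Y (c • x) = c • Y x := by
  rw [Y, Y, al_smul]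
  simp only [Pi.smul_apply, smul_eq_mul]
  congr 1 <;> ring

lemma Y'_add (x y : Fin 6 → F) : Y' (x + y) = Y' x + Y' y := by
  rw [Y', Y', Y', al_add]
  simp only [Pi.add_apply]
  congr 1 <;> ring

lemma Y'_smul (c : F) (x : Fin 6 → F) : Y' (c • x) = c • Y' x := by
  rw [Y', Y', al_smul]
  simp only [Pi.smul_apply, smul_eq_mul]
  congr 1 <;> ring

lemma Y_inj (h2 : (2 : F) ≠ 0) {x y : Fin 6 → F} (h : Y x = Y y) : x = y := by
  obtain ⟨h0, h1, h3, h4, h5, h6⟩ := al_inj h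
  have key : ∀ {a b c d : F}, a + b = c + d → a - b = c - d → a = c ∧ b = d := by
    intro a b c d e1 e2
    constructor
    · apply mul_left_cancel₀ h2
      linear_combination e1 + e2
    · apply mul_left_cancel₀ h2
      linear_combination e1 - e2
  obtain ⟨a0, a1⟩ := key h0 h6
  obtain ⟨a2, a3⟩ := key h1 (neg_injective h5)
  obtain ⟨a4, a5⟩ := key h3 h4
  funext i
  fin_cases i
  · exact a0
  · exact a1
  · exact a2
  · exact a3
  · exact a4
  · exact a5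

/-- the coordinates of an alternating matrix -/
def co (M : Matrix (Fin 4) (Fin 4) F) : Fin 6 → F :=
  ![(M 0 1 + M 2 3) / 2, (M 0 1 - M 2 3) / 2, (M 0 2 - M 1 3) / 2, (M 0 2 + M 1 3) / 2,
    (M 0 3 + M 1 2) / 2, (M 0 3 - M 1 2) / 2]

lemma Y_co (h2 : (2 : F) ≠ 0) (a b c d e f : F) : Y (co (al a b c d e f)) = al a b c d e f := by
  have h : co (al a b c d e f) = ![(a + f) / 2, (a - f) / 2, (b - e) / 2, (b + e) / 2,
    (c + d) / 2, (c - d) / 2] := rfl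
  rw [h, Y]
  show al ((a + f) / 2 + (a - f) / 2) ((b - e) / 2 + (b + e) / 2) ((c + d) / 2 + (c - d) / 2)
    ((c + d) / 2 - (c - d) / 2) (-((b - e) / 2 - (b + e) / 2)) ((a + f) / 2 - (a - f) / 2) = _
  congr 1 <;> field_simp <;> ring

lemma co_add (M N : Matrix (Fin 4) (Fin 4) F) : co (M + N) = co M + co N := by
  funext i
  fin_cases i
  all_goals
    simp only [co, Matrix.add_apply, Pi.add_apply, Fin.isValue, Fin.zero_eta, Fin.mk_one,
      Fin.reduceFinMk, cons_val_zero, cons_val_one, cons_val]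
    ring

lemma co_smul (c : F) (M : Matrix (Fin 4) (Fin 4) F) : co (c • M) = c • co M := by
  funext i
  fin_cases i
  all_goals
    simp only [co, Matrix.smul_apply, Pi.smul_apply, smul_eq_mul, Fin.isValue, Fin.zero_eta,
      Fin.mk_one, Fin.reduceFinMk, cons_val_zero, cons_val_one, cons_val]
    ring

/-- the action -/
def actL (g : Matrix (Fin 4) (Fin 4) F) : (Fin 6 → F) →ₗ[F] (Fin 6 → F) where
  toFun y := co (g * Y y * gᵀ)
  map_add' x y := by rw [Y_add, mul_add, add_mul, co_add]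
  map_smul' c x := by
    rw [Y_smul, mul_smul_comm, smul_mul_assoc, co_smul]
    rfl

lemma Y_act (h2 : (2 : F) ≠ 0) (g : Matrix (Fin 4) (Fin 4) F) (y : Fin 6 → F) :
    Y (actL g y) = g * Y y * gᵀ := by
  show Y (co (g * Y y * gᵀ)) = g * Y y * gᵀ
  have h : g * Y y * gᵀ = al ((g * Y y * gᵀ) 0 1) ((g * Y y * gᵀ) 0 2) ((g * Y y * gᵀ) 0 3)
      ((g * Y y * gᵀ) 1 2) ((g * Y y * gᵀ) 1 3) ((g * Y y * gᵀ) 2 3) := conj_al g _ _ _ _ _ _
  generalize g * Y y * gᵀ = M at h ⊢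
  rw [h]
  exact Y_co h2 _ _ _ _ _ _

lemma actL_mul (h2 : (2 : F) ≠ 0) (g h : Matrix (Fin 4) (Fin 4) F) :
    actL (g * h) = actL g * actL h := by
  apply LinearMap.ext
  intro y
  apply Y_inj h2
  rw [Y_act h2, Module.End.mul_apply, Y_act h2, Y_act h2, transpose_mul]
  simp only [mul_assoc]

lemma actL_one (h2 : (2 : F) ≠ 0) : actL (1 : Matrix (Fin 4) (Fin 4) F) = 1 := by
  apply LinearMap.ext
  intro y
  apply Y_inj h2
  rw [Y_act h2, transpose_one, one_mul, mul_one, Module.End.one_apply]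

/-- the homomorphism `SL_4 → GL_6` -/
noncomputable def rho (h2 : (2 : F) ≠ 0) : SpecialLinearGroup (Fin 4) F →* GL (Fin 6) F :=
  MonoidHom.toHomUnits
    { toFun := fun g => LinearMap.toMatrix' (actL g.1)
      map_one' := by
        show LinearMap.toMatrix' (actL (1 : Matrix (Fin 4) (Fin 4) F)) = 1
        rw [actL_one h2]
        exact LinearMap.toMatrix'_one
      map_mul' := fun g h => by
        show LinearMap.toMatrix' (actL (g.1 * h.1)) = _
        rw [actL_mul h2]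
        exact LinearMap.toMatrix'_mul _ _ }

lemma ac_rho (h2 : (2 : F) ≠ 0) (g : SpecialLinearGroup (Fin 4) F) (y : Fin 6 → F) :
    ac (rho h2 g) y = actL g.1 y := by
  have h1 : (rho h2 g).1 = LinearMap.toMatrix' (actL g.1) := rfl
  rw [ac, h1, LinearMap.toMatrix'_mulVec]

lemma Y_rho (h2 : (2 : F) ≠ 0) (g : SpecialLinearGroup (Fin 4) F) (y : Fin 6 → F) :
    Y (ac (rho h2 g) y) = g.1 * Y y * g.1ᵀ := by
  rw [ac_rho, Y_act h2]

/-- the dual matrix of the image -/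
lemma Y_dual (h2 : (2 : F) ≠ 0) (g : SpecialLinearGroup (Fin 4) F) (y : Fin 6 → F) :
    g.1ᵀ * Y' (ac (rho h2 g) y) * g.1 = Y' y := by
  have had : ∀ z : Fin 6 → F, Y' z = ad (Y z) := by
    intro z
    show _ = al (z 0 - z 1) (- -(z 2 - z 3)) (z 4 - z 5) (z 4 + z 5) (-(z 2 + z 3)) (z 0 + z 1)
    rw [neg_neg]
    rfl
  have hg : g.1.det = 1 := g.2
  have h := adj g.1 (y 0 + y 1) (y 2 + y 3) (y 4 + y 5) (y 4 - y 5) (-(y 2 - y 3)) (y 0 - y 1)
  rw [hg, one_smul] at h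
  rw [had, Y_rho, had]
  exact h

lemma rho_mem (h2 : (2 : F) ≠ 0) (g : SpecialLinearGroup (Fin 4) F) :
    rho h2 g ∈ OD (dd (1 : F)) := by
  intro x y
  have h1 := Y_mul (ac (rho h2 g) x) (ac (rho h2 g) y)
  have h3 := congrArg (fun M => M * g.1) h1
  have h4 : (Y (ac (rho h2 g) x) * Y' (ac (rho h2 g) y) +
      Y (ac (rho h2 g) y) * Y' (ac (rho h2 g) x)) * g.1 =
      g.1 * (Y x * Y' y + Y y * Y' x) := by
    rw [Y_rho, Y_rho, add_mul, mul_add]
    congr 1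
    · calc g.1 * Y x * g.1ᵀ * Y' (ac (rho h2 g) y) * g.1 =
          g.1 * Y x * (g.1ᵀ * Y' (ac (rho h2 g) y) * g.1) := by simp only [mul_assoc]
        _ = _ := by rw [Y_dual, mul_assoc]
    · calc g.1 * Y y * g.1ᵀ * Y' (ac (rho h2 g) x) * g.1 =
          g.1 * Y y * (g.1ᵀ * Y' (ac (rho h2 g) x) * g.1) := by simp only [mul_assoc]
        _ = _ := by rw [Y_dual, mul_assoc]
  have h5 : (-(2 * B (dd (1 : F)) (ac (rho h2 g) x) (ac (rho h2 g) y))) • g.1 =
      (-(2 * B (dd (1 : F)) x y)) • g.1 := by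
    have h6 : (Y (ac (rho h2 g) x) * Y' (ac (rho h2 g) y) +
      Y (ac (rho h2 g) y) * Y' (ac (rho h2 g) x)) * g.1 = _ := h3
    rw [h4, Y_mul, mul_smul_comm, mul_one, smul_mul_assoc, one_mul] at h6
    exact h6.symm
  have h6 : (-(2 * B (dd (1 : F)) (ac (rho h2 g) x) (ac (rho h2 g) y))) =
      (-(2 * B (dd (1 : F)) x y)) := by
    by_contra hne
    have h7 : ((-(2 * B (dd (1 : F)) (ac (rho h2 g) x) (ac (rho h2 g) y))) -
        (-(2 * B (dd (1 : F)) x y))) • g.1 = 0 := by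
      rw [sub_smul, h5, sub_self]
    rcases smul_eq_zero.1 h7 with h8 | h8
    · exact hne (sub_eq_zero.1 h8)
    · have h9 : g.1.det = 1 := g.2
      rw [h8, det_zero] at h9
      exact zero_ne_one h9
  exact mul_left_cancel₀ h2 (neg_injective h6)

lemma Y_re {v : Fin 6 → F} (hv : B (dd (1 : F)) v v ≠ 0) (x : Fin 6 → F) :
    Y (ac (rf (dd (1 : F)) v hv) x) =
      (B (dd (1 : F)) v v)⁻¹ • (Y v * Y' x * Y v) := by
  have h1 := congrArg (fun M => M * Y v) (Y_mul v x)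
  have h3 : Y v * Y' x * Y v + Y x * (Y' v * Y v) = (-(2 * B (dd (1 : F)) v x)) • Y v := by
    have h4 : (Y v * Y' x + Y x * Y' v) * Y v =
      ((-(2 * B (dd (1 : F)) v x)) • (1 : Matrix (Fin 4) (Fin 4) F)) * Y v := h1
    rw [add_mul, smul_mul_assoc, one_mul, mul_assoc (Y x)] at h4
    exact h4
  rw [Y_self', mul_smul_comm, mul_one] at h3
  have h4 : Y v * Y' x * Y v = (B (dd (1 : F)) v v) • Y x - (2 * B (dd (1 : F)) v x) • Y v := by
    rw [neg_smul, neg_smul] at h3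
    rw [← sub_eq_add_neg, sub_eq_iff_eq_add] at h3
    rw [h3]
    abel
  rw [h4, smul_sub, smul_smul, inv_mul_cancel₀ hv, one_smul, smul_smul, ac_rf, sub_eq_add_neg,
    Y_add, ← neg_smul, Y_smul, sub_eq_add_neg, ← neg_smul]
  congr 2
  rw [div_eq_mul_inv]
  ring

lemma Y'_re {v : Fin 6 → F} (hv : B (dd (1 : F)) v v ≠ 0) (x : Fin 6 → F) :
    Y' (ac (rf (dd (1 : F)) v hv) x) =
      (B (dd (1 : F)) v v)⁻¹ • (Y' v * Y x * Y' v) := by
  have h1 := congrArg (fun M => M * Y' v) (Y_mul' v x)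
  have h3 : Y' v * Y x * Y' v + Y' x * (Y v * Y' v) = (-(2 * B (dd (1 : F)) v x)) • Y' v := by
    have h4 : (Y' v * Y x + Y' x * Y v) * Y' v =
      ((-(2 * B (dd (1 : F)) v x)) • (1 : Matrix (Fin 4) (Fin 4) F)) * Y' v := h1
    rw [add_mul, smul_mul_assoc, one_mul, mul_assoc (Y' x)] at h4
    exact h4
  rw [Y_self, mul_smul_comm, mul_one] at h3
  have h4 : Y' v * Y x * Y' v = (B (dd (1 : F)) v v) • Y' x - (2 * B (dd (1 : F)) v x) • Y' v := by
    rw [neg_smul, neg_smul] at h3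
    rw [← sub_eq_add_neg, sub_eq_iff_eq_add] at h3
    rw [h3]
    abel
  rw [h4, smul_sub, smul_smul, inv_mul_cancel₀ hv, one_smul, smul_smul, ac_rf, sub_eq_add_neg,
    Y'_add, ← neg_smul, Y'_smul, sub_eq_add_neg, ← neg_smul]
  congr 2
  rw [div_eq_mul_inv]
  ring

lemma big (h2 : (2 : F) ≠ 0) : Big (dd (1 : F)) (rho h2).range := by
  intro u v hu hv huv
  have hd : ((B (dd (1 : F)) u u)⁻¹ • (Y u * Y' v)).det = 1 := by
    rw [det_smul, det_mul, det_Y, det_Y', ← huv, Fintype.card_fin]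
    field_simp
  let g : SpecialLinearGroup (Fin 4) F := ⟨(B (dd (1 : F)) u u)⁻¹ • (Y u * Y' v), hd⟩
  refine ⟨g, ?_⟩
  apply gl_ext
  intro x
  apply Y_inj h2
  rw [Y_rho h2 g, ac_mul, Y_re hu, Y'_re hv, ← huv]
  show ((B (dd (1 : F)) u u)⁻¹ • (Y u * Y' v)) * Y x * ((B (dd (1 : F)) u u)⁻¹ • (Y u * Y' v))ᵀ = _
  rw [transpose_smul, transpose_mul, Y_T, Y_T', neg_mul_neg]
  simp only [smul_mul_assoc, mul_smul_comm, mul_assoc]

end

end Vale.Agent.P240.R2.H63.P4
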