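import Vale.Agent.P240.R2.H63.P4

/-!
`PSL_4(F)` is the group `PΩ` of a six-dimensional form of plus type, part 2.
-/

set_option autoImplicit false
set_option linter.all false

namespace Vale.Agent.P240.R2.H63.P4

open Matrix Vale.Agent.P240.R2.H945.U4
open Vale.Agent.P240.R2.H145.EO (B ac OD OD_B rf rf_mem rf_conj Big ac_mul ac_rf gl_ext ac_one ac_add)

universe u

section
variable {F : Type u} [Field F]

/-- alternating matrices -/
lemma alt_eq {N : Matrix (Fin 4) (Fin 4) F} (h : Nᵀ = -N) (h0 : ∀ i, N i i = 0) :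
    N = al (N 0 1) (N 0 2) (N 0 3) (N 1 2) (N 1 3) (N 2 3) := by
  have hT : ∀ i j, N j i = -N i j := fun i j => congrFun (congrFun h i) j
  ext i j
  fin_cases i <;> fin_cases j
  · exact h0 0
  · rfl
  · rfl
  · rfl
  · exact hT 0 1
  · exact h0 1
  · rfl
  · rfl
  · exact hT 0 2
  · exact hT 1 2
  · exact h0 2
  · rfl
  · exact hT 0 3
  · exact hT 1 3
  · exact hT 2 3
  · exact h0 3

lemma minors {g : Matrix (Fin 4) (Fin 4) F} {c : F}
    (h : ∀ y : Fin 6 → F, g * Y y * gᵀ = c • Y y) (h2 : (2 : F) ≠ 0) (k l i j : Fin 4) :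
    g i k * g j l - g i l * g j k =
      c * ((if k = i ∧ l = j then 1 else 0) - (if l = i ∧ k = j then 1 else 0)) := by
  set N : Matrix (Fin 4) (Fin 4) F := Matrix.single k l 1 - Matrix.single l k 1 with hN
  have h1 : Nᵀ = -N := by
    rw [hN, transpose_sub, Matrix.transpose_single, Matrix.transpose_single, neg_sub]
  have h3 : ∀ i, N i i = 0 := by
    intro i
    rw [hN, Matrix.sub_apply, Matrix.single_apply, Matrix.single_apply, sub_eq_zero]
    congr 1
    simp only [eq_iff_iff]
    tauto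
  have h4 : N = Y (co N) := by
    conv_lhs => rw [alt_eq h1 h3]
    rw [← Y_co h2, ← alt_eq h1 h3]
  have h5 := h (co N)
  rw [← h4] at h5
  have h6 := congrFun (congrFun h5 i) j
  have h7 : ∀ a b : Fin 4, (g * Matrix.single a b (1 : F) * gᵀ) i j = g i a * g j b := by
    intro a b
    rw [Matrix.mul_apply, Finset.sum_eq_single b]
    · rw [Matrix.mul_single_apply_same, mul_one, transpose_apply]
    · intro x _ hx
      rw [Matrix.mul_single_apply_of_ne _ _ _ _ _ hx, zero_mul]
    · intro h
      exact absurd (Finset.mem_univ b) h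
  rw [hN, mul_sub, sub_mul, Matrix.sub_apply, h7, h7, Matrix.smul_apply, Matrix.sub_apply,
    Matrix.single_apply, Matrix.single_apply, smul_eq_mul] at h6
  exact h6

lemma ex_l : ∀ i k : Fin 4, ∃ l : Fin 4, l ≠ i ∧ l ≠ k := by decide

/-- only scalars act as scalars -/
lemma scal {g : Matrix (Fin 4) (Fin 4) F} {c : F} (hc : c ≠ 0)
    (h : ∀ y : Fin 6 → F, g * Y y * gᵀ = c • Y y) (h2 : (2 : F) ≠ 0) :
    ∃ z : F, g = z • (1 : Matrix (Fin 4) (Fin 4) F) := by
  have hM := minors h h2
  have hkl : ∀ k l : Fin 4, k ≠ l → g k k * g l l - g k l * g l k = c := by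
    intro k l hkl
    have h1 := hM k l k l
    rw [if_pos ⟨rfl, rfl⟩, if_neg (fun h => hkl h.2), sub_zero, mul_one] at h1
    exact h1
  have hoff : ∀ i k : Fin 4, i ≠ k → g i k = 0 := by
    intro i k hik
    obtain ⟨l, hli, hlk⟩ := ex_l i k
    have f1 := hM k l i k
    rw [if_neg (fun h => hik h.1.symm), if_neg (fun h => hli h.1), sub_zero, mul_zero] at f1
    have f2 := hM k l i l
    rw [if_neg (fun h => hik h.1.symm), if_neg (fun h => hli h.1), sub_zero, mul_zero] at f2
    have f3 := hkl k l (Ne.symm hlk)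
    have f4 : g i k * c = 0 := by
      rw [← f3]
      linear_combination g k k * f2 - g l k * f1
    exact (mul_eq_zero.1 f4).resolve_right hc
  have hd : ∀ k l : Fin 4, k ≠ l → g k k * g l l = c := by
    intro k l hkl'
    have h1 := hkl k l hkl'
    rw [hoff k l hkl', zero_mul, sub_zero] at h1
    exact h1
  refine ⟨g 0 0, ?_⟩
  ext i j
  rw [Matrix.smul_apply, smul_eq_mul]
  by_cases hij : i = j
  · subst hij
    rw [Matrix.one_apply_eq, mul_one]
    obtain ⟨l, hl0, hli⟩ := ex_l 0 i
    have h1 := hd 0 l (Ne.symm hl0)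
    have h3 := hd i l (Ne.symm hli)
    have h4 : g l l ≠ 0 := by
      intro h5
      rw [h5, mul_zero] at h1
      exact hc h1.symm
    exact mul_right_cancel₀ h4 (h3.trans h1.symm)
  · rw [hoff i j hij, Matrix.one_apply_ne hij, mul_zero]

lemma dd_norm (w : Fin 6 → F) : B (dd (1 : F)) w w =
    w 0 * w 0 - w 1 * w 1 + w 2 * w 2 - w 3 * w 3 + w 4 * w 4 - w 5 * w 5 := Bd w w

/-- the centre of the orthogonal group -/
lemma center_iff (h2 : (2 : F) ≠ 0) (g : OD (dd (1 : F))) :
    g ∈ Subgroup.center ↥(OD (dd (1 : F))) ↔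
      ∃ l : F, g.1.1 = l • (1 : Matrix (Fin 6) (Fin 6) F) := by
  constructor
  · intro h
    rw [Subgroup.mem_center_iff] at h
    have key : ∀ v : Fin 6 → F, B (dd (1 : F)) v v ≠ 0 → ∃ c : F, ac g.1 v = c • v := by
      intro v hv
      have hgv : B (dd (1 : F)) (ac g.1 v) (ac g.1 v) ≠ 0 := by rwa [OD_B g.2]
      have h1 := congrArg Subtype.val (h ⟨rf (dd (1 : F)) v hv, rf_mem hv⟩)
      have h3 : g.1 * rf (dd (1 : F)) v hv * g.1⁻¹ = rf (dd (1 : F)) v hv := by
        have h4 : rf (dd (1 : F)) v hv * g.1 = g.1 * rf (dd (1 : F)) v hv := h1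
        rw [← h4, mul_inv_cancel_right]
      rw [rf_conj g.2 hv hgv (Or.inl rfl)] at h3
      have h5 := congrArg (fun k => ac k (ac g.1 v)) h3
      rw [rf_self, ac_rf] at h5
      refine ⟨(2 * B (dd (1 : F)) v (ac g.1 v) / B (dd (1 : F)) v v) / 2, ?_⟩
      have h6 : (2 : F) • ac g.1 v = (2 * B (dd (1 : F)) v (ac g.1 v) / B (dd (1 : F)) v v) • v := by
        rw [two_smul]
        have h7 : ac g.1 v - (2 * B (dd (1 : F)) v (ac g.1 v) / B (dd (1 : F)) v v) • v +
            ac g.1 v = 0 := by
          rw [← h5]; abel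
        have h8 : ac g.1 v + ac g.1 v -
            (2 * B (dd (1 : F)) v (ac g.1 v) / B (dd (1 : F)) v v) • v = 0 := by
          rw [← h7]; abel
        exact sub_eq_zero.1 h8
      apply smul_right_injective _ h2
      show (2 : F) • ac g.1 v =
        (2 : F) • ((2 * B (dd (1 : F)) v (ac g.1 v) / B (dd (1 : F)) v v / 2) • v)
      rw [h6, smul_smul, mul_div_cancel₀ _ h2]
    have hB : ∀ i : Fin 6, B (dd (1 : F)) (Pi.single i 1) (Pi.single i 1) ≠ 0 := by
      intro i
      rw [dd_norm]
      fin_cases i <;> simp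
    choose c hc using fun i => key (Pi.single i 1) (hB i)
    have htwo : ∀ i : Fin 6, i ≠ 0 →
        B (dd (1 : F)) (Pi.single i 1 + Pi.single 0 1) (Pi.single i 1 + Pi.single 0 1) ≠ 0 →
        c i = c 0 := by
      intro i hi hn
      obtain ⟨d, hd⟩ := key _ hn
      rw [ac_add, hc, hc] at hd
      have h5 := congrFun hd i
      have h6 := congrFun hd 0
      simp only [Pi.add_apply, Pi.smul_apply, smul_eq_mul, Pi.single_eq_same,
        Pi.single_eq_of_ne hi, Pi.single_eq_of_ne (Ne.symm hi), mul_one, mul_zero, add_zero,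
        zero_add] at h5 h6
      rw [h5, h6]
    have hthree : ∀ i : Fin 6, i ≠ 0 → i ≠ 2 →
        B (dd (1 : F)) (Pi.single i 1 + Pi.single 0 1 + Pi.single 2 1)
          (Pi.single i 1 + Pi.single 0 1 + Pi.single 2 1) ≠ 0 → c i = c 0 := by
      intro i hi hi2 hn
      obtain ⟨d, hd⟩ := key _ hn
      rw [ac_add, ac_add, hc, hc, hc] at hd
      have h02 : (0 : Fin 6) ≠ 2 := by decide
      have h5 := congrFun hd i
      have h6 := congrFun hd 0
      simp only [Pi.add_apply, Pi.smul_apply, smul_eq_mul, Pi.single_eq_same,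
        Pi.single_eq_of_ne hi, Pi.single_eq_of_ne (Ne.symm hi), Pi.single_eq_of_ne hi2,
        Pi.single_eq_of_ne h02, mul_one, mul_zero, add_zero, zero_add] at h5 h6
      rw [h5, h6]
    have hcc : ∀ i, c i = c 0 := by
      intro i
      fin_cases i
      · rfl
      · refine hthree 1 (by decide) (by decide) ?_
        rw [dd_norm]
        simp
      · refine htwo 2 (by decide) ?_
        rw [dd_norm]
        simp
        exact fun h => h2 (by linear_combination h)
      · refine hthree 3 (by decide) (by decide) ?_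
        rw [dd_norm]
        simp
      · refine htwo 4 (by decide) ?_
        rw [dd_norm]
        simp
        exact fun h => h2 (by linear_combination h)
      · refine hthree 5 (by decide) (by decide) ?_
        rw [dd_norm]
        simp
    refine ⟨c 0, ?_⟩
    apply Matrix.ext_of_mulVec_single
    intro i
    rw [smul_mulVec, one_mulVec, ← hcc i]
    exact hc i
  · rintro ⟨l, hl⟩
    rw [Subgroup.mem_center_iff]
    intro k
    apply Subtype.ext
    apply Units.ext
    show k.1.1 * g.1.1 = g.1.1 * k.1.1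
    rw [hl, mul_smul_comm, smul_mul_assoc, mul_one, one_mul]

end

end Vale.Agent.P240.R2.H63.P4
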