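import Vale.Agent.P240.R2.H63.SysDef

/-!
LEMMA T (P240, crux 11), module TOP, part 1: sums over the lists of length `k`.
-/

namespace Vale.Agent.P240.LT

open Subgroup

universe u v w w'

section
variable {A : Type u} [Group A] [Finite A] {Ω : Type v} [Fintype Ω] {V : Type w} [AddCommGroup V]
  [Module ℚ V]

noncomputable local instance : Fintype (Subgroup A) := Fintype.ofFinite _

/-- The sum of `z l ω • g l ω` over the lists `l` of length `k` and `ω`. -/
noncomputable def Phi : ℕ → (List (Subgroup A) → Ω → ℚ) → (List (Subgroup A) → Ω → V) → V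
  | 0, z, g => ∑ ω, z [] ω • g [] ω
  | k + 1, z, g => ∑ X : Subgroup A, Phi k (fun l => z (X :: l)) (fun l => g (X :: l))

lemma Phi_zero (z : List (Subgroup A) → Ω → ℚ) (g : List (Subgroup A) → Ω → V) :
    Phi 0 z g = ∑ ω, z [] ω • g [] ω := rfl

lemma Phi_succ (k : ℕ) (z : List (Subgroup A) → Ω → ℚ) (g : List (Subgroup A) → Ω → V) :
    Phi (k + 1) z g = ∑ X : Subgroup A, Phi k (fun l => z (X :: l)) (fun l => g (X :: l)) := rfl

lemma Phi_congr (k : ℕ) {z z' : List (Subgroup A) → Ω → ℚ} {g g' : List (Subgroup A) → Ω → V}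
    (h : ∀ l, l.length = k → ∀ ω, z l ω • g l ω = z' l ω • g' l ω) : Phi k z g = Phi k z' g' := by
  induction k generalizing z z' g g' with
  | zero =>
    rw [Phi_zero, Phi_zero]
    exact Finset.sum_congr rfl fun ω _ => h [] rfl ω
  | succ k ih =>
    rw [Phi_succ, Phi_succ]
    refine Finset.sum_congr rfl fun X _ => ih fun l hl ω => ?_
    exact h (X :: l) (by simp [hl]) ω

lemma Phi_eq_zero (k : ℕ) {z : List (Subgroup A) → Ω → ℚ} {g : List (Subgroup A) → Ω → V}
    (h : ∀ l, l.length = k → ∀ ω, z l ω • g l ω = 0) : Phi k z g = 0 := by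
  induction k generalizing z g with
  | zero =>
    rw [Phi_zero]
    exact Finset.sum_eq_zero fun ω _ => h [] rfl ω
  | succ k ih =>
    rw [Phi_succ]
    refine Finset.sum_eq_zero fun X _ => ih fun l hl ω => ?_
    exact h (X :: l) (by simp [hl]) ω

lemma Phi_map {V' : Type w'} [AddCommGroup V'] [Module ℚ V'] (f : V →ₗ[ℚ] V') (k : ℕ)
    (z : List (Subgroup A) → Ω → ℚ) (g : List (Subgroup A) → Ω → V) :
    f (Phi k z g) = Phi k z (fun l ω => f (g l ω)) := by
  induction k generalizing z g with
  | zero =>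
    rw [Phi_zero, Phi_zero, map_sum]
    exact Finset.sum_congr rfl fun ω _ => map_smul _ _ _
  | succ k ih =>
    rw [Phi_succ, Phi_succ, map_sum]
    exact Finset.sum_congr rfl fun X _ => ih _ _

lemma Phi_sum {ι : Type*} (s : Finset ι) (c : ι → ℚ) (k : ℕ)
    (z : List (Subgroup A) → Ω → ℚ) (g : ι → List (Subgroup A) → Ω → V) :
    Phi k z (fun l ω => ∑ i ∈ s, c i • g i l ω) = ∑ i ∈ s, c i • Phi k z (g i) := by
  induction k generalizing z g with
  | zero =>
    simp only [Phi_zero, Finset.smul_sum]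
    rw [Finset.sum_comm]
    exact Finset.sum_congr rfl fun ω _ => Finset.sum_congr rfl fun i _ => smul_comm _ _ _
  | succ k ih =>
    simp only [Phi_succ, Finset.smul_sum]
    rw [Finset.sum_comm]
    refine Finset.sum_congr rfl fun X _ => ?_
    exact ih (fun l => z (X :: l)) (fun i l => g i (X :: l))

lemma Phi_sum_left {ι : Type*} (s : Finset ι) (k : ℕ)
    (z : ι → List (Subgroup A) → Ω → ℚ) (g : List (Subgroup A) → Ω → V) :
    Phi k (fun l ω => ∑ i ∈ s, z i l ω) g = ∑ i ∈ s, Phi k (z i) g := by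
  induction k generalizing z g with
  | zero =>
    simp only [Phi_zero, Finset.sum_smul]
    rw [Finset.sum_comm]
  | succ k ih =>
    simp only [Phi_succ]
    rw [Finset.sum_comm]
    refine Finset.sum_congr rfl fun X _ => ?_
    exact ih (fun i l => z i (X :: l)) (fun l => g (X :: l))

lemma Phi_mem (S : Submodule ℚ V) (k : ℕ)
    {z : List (Subgroup A) → Ω → ℚ} {g : List (Subgroup A) → Ω → V}
    (h : ∀ l, l.length = k → ∀ ω, z l ω ≠ 0 → g l ω ∈ S) : Phi k z g ∈ S := by
  induction k generalizing z g with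
  | zero =>
    rw [Phi_zero]
    refine S.sum_mem fun ω _ => ?_
    by_cases h0 : z [] ω = 0
    · rw [h0, zero_smul]
      exact S.zero_mem
    · exact S.smul_mem _ (h [] rfl ω h0)
  | succ k ih =>
    rw [Phi_succ]
    refine S.sum_mem fun X _ => ih fun l hl ω => ?_
    exact h (X :: l) (by simp [hl]) ω

lemma Phi_single (k : ℕ) {z : List (Subgroup A) → Ω → ℚ} {g : List (Subgroup A) → Ω → V}
    {l₀ : List (Subgroup A)} {ω₀ : Ω} (hl₀ : l₀.length = k)
    (h : ∀ l, l.length = k → ∀ ω, (l ≠ l₀ ∨ ω ≠ ω₀) → z l ω • g l ω = 0) :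
    Phi k z g = z l₀ ω₀ • g l₀ ω₀ := by
  induction k generalizing z g l₀ with
  | zero =>
    have h0 : l₀ = [] := List.length_eq_zero_iff.1 hl₀
    subst h0
    rw [Phi_zero]
    refine Finset.sum_eq_single ω₀ (fun ω _ hω => h [] rfl ω (Or.inr hω)) ?_
    intro h1
    exact absurd (Finset.mem_univ _) h1
  | succ k ih =>
    rcases l₀ with _ | ⟨X₀, l₀⟩
    · simp at hl₀
    · rw [Phi_succ, Finset.sum_eq_single X₀]
      · refine ih (by simpa using hl₀) fun l hl ω hne => ?_
        refine h (X₀ :: l) (by simp [hl]) ω ?_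
        rcases hne with h1 | h1
        · exact Or.inl fun h2 => h1 (List.cons.inj h2).2
        · exact Or.inr h1
      · intro X _ hX
        refine Phi_eq_zero k fun l hl ω => ?_
        exact h (X :: l) (by simp [hl]) ω (Or.inl fun h2 => hX (List.cons.inj h2).1)
      · intro h1
        exact absurd (Finset.mem_univ _) h1

open Classical in
lemma sum_classes {r : Setoid Ω} {f : Ω → ℚ} {g : Ω → V} (hf : cs r f = 0)
    (hg : ∀ ω ω', r ω ω' → g ω = g ω') : ∑ ω, f ω • g ω = 0 := by
  have key : ∀ ω : Ω, (∑ x, if r ω x then f x else 0) = 0 := fun ω => by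
    have := congrFun hf ω
    rwa [cs_apply] at this
  rw [← Finset.sum_fiberwise (Finset.univ : Finset Ω) (fun ω => (Quotient.mk r ω : Quotient r))]
  refine Finset.sum_eq_zero fun q _ => ?_
  obtain ⟨ω₀, rfl⟩ := Quotient.exists_rep q
  have h1 : ∀ ω ∈ Finset.univ.filter (fun ω => (Quotient.mk r ω : Quotient r) = Quotient.mk r ω₀),
      f ω • g ω = f ω • g ω₀ := by
    intro ω hω
    rw [Finset.mem_filter] at hω
    rw [hg ω ω₀ (Quotient.exact hω.2)]
  rw [Finset.sum_congr rfl h1, ← Finset.sum_smul, Finset.sum_filter]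
  have h2 : (∑ a : Ω, if (Quotient.mk r a : Quotient r) = Quotient.mk r ω₀ then f a else 0) =
      ∑ x, if r ω₀ x then f x else 0 := by
    refine Finset.sum_congr rfl fun x _ => ?_
    have : (Quotient.mk r x : Quotient r) = Quotient.mk r ω₀ ↔ r ω₀ x :=
      ⟨fun h => r.symm (Quotient.exact h), fun h => Quotient.sound (r.symm h)⟩
    simp only [this]
  rw [h2, key, zero_smul]

lemma Phi_face {p : ℕ} {r : Subgroup A → Setoid Ω} (k : ℕ) {B : Subgroup A}
    {z : List (Subgroup A) → Ω → ℚ} (hz : z ∈ T ℚ p r k B) {g : List (Subgroup A) → Ω → V}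
    (hg : ∀ Y, B ≤ Y → ∀ l, (∀ Z ∈ l, Z ≤ Y) → ∀ ω ω', r Y ω ω' → g l ω = g l ω')
    {j : ℕ} (hj : j < k) : Phi k z (fun l => g (l.eraseIdx j)) = 0 := by
  induction k generalizing B z g j with
  | zero => omega
  | succ k ih =>
    obtain ⟨h1, h2, h3, h4, h5⟩ := mem_T_succ.1 hz
    rw [Phi_succ]
    rcases j with _ | j
    · rcases k with _ | k
      · refine Finset.sum_eq_zero fun X _ => ?_
        rw [Phi_zero]
        exact sum_classes (h5 rfl X) fun ω ω' hω => hg B le_rfl [] (by simp) ω ω' hω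
      · have h6 : ∀ X : Subgroup A, Phi (k + 1) (fun l => z (X :: l))
            (fun l => g ((X :: l).eraseIdx 0)) =
            ∑ Z : Subgroup A, Phi k (fun l => z (X :: Z :: l)) (fun l => g (Z :: l)) := by
          intro X
          rw [Phi_succ]
          rfl
        rw [Finset.sum_congr rfl fun X _ => h6 X, Finset.sum_comm]
        refine Finset.sum_eq_zero fun Z _ => ?_
        rw [← Phi_sum_left]
        refine Phi_eq_zero k fun l _ ω => ?_
        have h7 : ∑ X : Subgroup A, z (X :: Z :: l) ω = 0 := by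
          have h8 := congrFun (h4 Z l) ω
          rw [Finset.sum_apply, Pi.zero_apply] at h8
          rw [← h8]
          symm
          refine Finset.sum_subset (Finset.subset_univ _) fun X _ hX => ?_
          rw [h2 X hX (Z :: l), Pi.zero_apply]
        rw [h7, zero_smul]
    · refine Finset.sum_eq_zero fun X _ => ?_
      by_cases hX : X ∈ par p B
      · refine ih (h3 X hX) (g := fun l => g (X :: l)) ?_ (by omega)
        intro Y hY l hl ω ω' hω
        refine hg Y ((mem_par.1 hX).1.trans hY) (X :: l) ?_ ω ω' hω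
        intro Z hZ
        rcases List.mem_cons.1 hZ with h | h
        · rw [h]
          exact hY
        · exact hl Z h
      · refine Phi_eq_zero k fun l _ ω => ?_
        rw [h2 X hX l, Pi.zero_apply, zero_smul]

/-- the support of an element of `T` -/
lemma T_supp {p : ℕ} {r : Subgroup A → Setoid Ω} {𝕜 : Type w} [Field 𝕜] (k : ℕ) {B : Subgroup A}
    {z : List (Subgroup A) → Ω → 𝕜} (hz : z ∈ T 𝕜 p r k B) {l : List (Subgroup A)}
    (hl : z l ≠ 0) : l.length = k ∧ List.IsChain (fun X Y => Y ∈ par p X) (B :: l) := by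
  induction k generalizing B z l with
  | zero =>
    have := mem_T_zero.1 hz l
    by_cases h : l = []
    · subst h
      exact ⟨rfl, List.isChain_singleton _⟩
    · exact absurd (this h) hl
  | succ k ih =>
    obtain ⟨h1, h2, h3, -⟩ := mem_T_succ.1 hz
    rcases l with _ | ⟨X, l⟩
    · exact absurd h1 hl
    · have hX : X ∈ par p B := by
        by_contra hX
        exact hl (h2 X hX l)
      obtain ⟨h4, h5⟩ := ih (h3 X hX) (l := l) hl
      exact ⟨by simp [h4], List.isChain_cons_cons.2 ⟨hX, h5⟩⟩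

end

end Vale.Agent.P240.LT
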