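import Vale.Agent.P240.R2.H63.LemmaT
import Vale.Agent.P240.R2.H487.LE1
import Vale.Agent.P240.R2.H487.Part

/-!
Consequences of Lemma T: elimination with arbitrary `p'`-subgroups.
-/

namespace Vale.Agent.P240.R2.H63

open Finsupp Subgroup Vale.Agent.P240.K Vale.Agent.P240.H195 Vale.Agent.P240.LT
open Vale.Agent.P240.R2.H487

universe u v

section
variable {𝕜 : Type v} [Field 𝕜] {G : Type u} [Group G] {p : ℕ}

/-- **Local elimination**, with `p'`-subgroups. -/
theorem local_elim' [hp : Fact p.Prime] [Finite G] {X C A : Subgroup G} (hCX : C ≤ X)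
    (hAX : A ≤ X) (hA : A ∈ ApB p G) (hAC : A ⊓ C = ⊥) (hcen : C ≤ centralizer (A : Set G))
    (hW : ∀ E ∈ ApB p G, E ≤ X → A ≤ E → E ⊓ C = ⊥ →
      NA 𝕜 (Ain p (C ⊓ centralizer (E : Set G))) →
      ∃ W ≤ X, ¬ p ∣ Nat.card W ∧
        (∀ x ∈ E, ∀ w ∈ W, x * w * x⁻¹ ∈ W) ∧ (∀ x ∈ E, (∀ w ∈ W, x * w = w * x) → x = 1) ∧
        ∀ w ∈ W, ∀ y ∈ C ⊓ centralizer (E : Set G), w * y = y * w)
    (h : NA 𝕜 (Ain p C)) : NA 𝕜 (Ain p X) := by
  refine local_top hCX hAX hA hAC hcen (fun F hF hFX hAF hFC hNA => ?_) h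
  obtain ⟨W, hWX, hW', hn, hf, hc⟩ := hW F hF hFX hAF hFC hNA
  obtain ⟨α, φ, hα⟩ := lemma_T (𝕜 := 𝕜) hF hW' hn hf
  refine ⟨W ⊔ F, α, φ, hα, sup_le hWX hFX, fun x hx y hy => ?_⟩
  have h1 : W ⊔ F ≤ centralizer {y} := by
    refine sup_le (fun a ha => ?_) fun a ha => ?_
    · rw [mem_centralizer_singleton_iff]
      exact hc a ha y hy
    · rw [mem_centralizer_singleton_iff]
      exact (mem_centralizer_iff.1 (mem_inf.1 hy).2) a ha
  exact mem_centralizer_singleton_iff.1 (h1 hx)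

/-- elimination with `p'`-subgroups, in `G` -/
theorem coprime_elim [hp : Fact p.Prime] [Finite G] (C A : Subgroup G) (hA : A = ⊥ ∨ ElemAb p A)
    (hAC : A ⊓ C = ⊥) (hcen : ∀ c ∈ C, ∀ a ∈ A, c * a = a * c)
    (hW : ∀ E : Subgroup G, ElemAb p E → A ≤ E → E ⊓ C = ⊥ →
      ∃ W : Subgroup G, ¬ p ∣ Nat.card W ∧
        (∀ x ∈ E, ∀ w ∈ W, x * w * x⁻¹ ∈ W) ∧ (∀ x ∈ E, (∀ w ∈ W, x * w = w * x) → x = 1) ∧
        ∀ w ∈ W, ∀ y ∈ C, (∀ x ∈ E, x * y = y * x) → w * y = y * w)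
    (h : HQ 𝕜 p C) : HQ 𝕜 p G := by
  rw [HQ_iff, ← Ain_top]
  rw [HQ_sub_iff] at h
  refine local_elim' (C := C) (A := A) le_top le_top hA hAC ?_ (fun E hE _ hAE hEC _ => ?_) h
  · intro c hc
    rw [mem_centralizer_iff]
    exact fun a ha => (hcen c hc a ha).symm
  · rcases hE with hE | hE
    · refine ⟨⊥, bot_le, ?_, ?_, ?_, ?_⟩
      · rw [Subgroup.card_bot]
        exact fun h => hp.out.one_lt.ne' (Nat.dvd_one.1 h)
      · intro x _ w hw
        rw [mem_bot] at hw ⊢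
        rw [hw]
        group
      · intro x hx _
        rw [hE, mem_bot] at hx
        exact hx
      · intro w hw y _
        rw [mem_bot] at hw
        rw [hw, one_mul, mul_one]
    · obtain ⟨W, h1, h2, h3, h4⟩ := hW E hE hAE hEC
      refine ⟨W, le_top, h1, h2, h3, fun w hw y hy => ?_⟩
      exact h4 w hw y (mem_inf.1 hy).1 (mem_centralizer_iff.1 (mem_inf.1 hy).2)

/-- the centralizer of a normal `p'`-subgroup -/
theorem reduce_cent' [hp : Fact p.Prime] [Finite G] (N : Subgroup G) [N.Normal]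
    (hN : ¬ p ∣ Nat.card N) (h : HQ 𝕜 p (centralizer (N : Set G))) : HQ 𝕜 p G := by
  refine coprime_elim (centralizer (N : Set G)) ⊥ (Or.inl rfl) (by simp) ?_ ?_ h
  · intro c _ a ha
    rw [mem_bot] at ha
    rw [ha, one_mul, mul_one]
  · intro E hE _ hEC
    refine ⟨N, hN, fun x _ w hw => (inferInstance : N.Normal).conj_mem w hw x, ?_, ?_⟩
    · intro x hx hxN
      have h1 : x ∈ E ⊓ centralizer (N : Set G) := by
        refine mem_inf.2 ⟨hx, mem_centralizer_iff.2 fun y hy => (hxN y hy).symm⟩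
      rw [hEC] at h1
      exact mem_bot.1 h1
    · intro w hw y hy _
      exact (mem_centralizer_iff.1 hy) w hw

/-- **Reduction to `O_{p'}(G) = 1`.** -/
theorem reduce_all' [hp : Fact p.Prime] [Finite G] (N : Subgroup G) [N.Normal]
    (hN : ¬ p ∣ Nat.card N) (h : HQ 𝕜 p (Reduced N)) : HQ 𝕜 p G := by
  refine reduce_cent' N hN ?_
  refine HQ_central (N.subgroupOf (centralizer (N : Set G))) ?_ ?_ h
  · intro z hz g
    rw [mem_subgroupOf] at hz
    exact Subtype.ext ((mem_centralizer_iff.1 g.2) z hz)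
  · intro hd
    refine hN (hd.trans ?_)
    have h1 : Nat.card ((N.subgroupOf (centralizer (N : Set G))).map
        (centralizer (N : Set G)).subtype) = Nat.card (N.subgroupOf (centralizer (N : Set G))) :=
      card_map_of_injective (subtype_injective _)
    rw [← h1]
    refine card_dvd_of_le ?_
    rw [subgroupOf_map_subtype]
    exact inf_le_left

end

end Vale.Agent.P240.R2.H63
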