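import Vale.Agent.P240.H195.SLK
import Vale.Agent.P240.R2.H275.Defs
import Vale.Agent.P240.R2.H487.Defs
import Vale.Agent.P240.R2.H487.LDefs2
import Vale.Agent.P240.R2.H487.PDefs
import Vale.Agent.P240.R2.H63.NDefs

/-!
Definitions used in the statement of `CoprimeRadical`.
-/

namespace Vale.Agent.P240.R2.H63

open Subgroup Vale.Agent.P240.K Vale.Agent.P240.H195
open Vale.Agent.P240.R2.H487 Vale.Agent.P240.R2.H275

universe u v

section
variable {G : Type u} [Group G]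

/-- `W` is a `p'`-subgroup normalized by `E`, and no element `≠ 1` of `E` centralizes `W`. -/
def FaithfulOn (p : ℕ) (E W : Subgroup G) : Prop :=
  ¬ p ∣ Nat.card W ∧ (∀ x ∈ E, ∀ w ∈ W, x * w * x⁻¹ ∈ W) ∧
    ∀ x ∈ E, (∀ w ∈ W, x * w = w * x) → x = 1

/-- `E` is an elementary abelian `p`-subgroup of largest order. -/
def MaxRank (p : ℕ) (E : Subgroup G) : Prop :=
  ElemAb p E ∧ ∀ F : Subgroup G, ElemAb p F → Nat.card F ≤ Nat.card E

/-- `N` contains all normal `p'`-subgroups of `G`. -/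
def Largest (p : ℕ) (N : Subgroup G) : Prop :=
  ∀ X : Subgroup G, X.Normal → ¬ p ∣ Nat.card X → X ≤ N

/-- `A` and `C` commute, `A` is elementary abelian or trivial, `A ∩ C = 1`, and every elementary
abelian `p`-subgroup `E ≥ A` with `E ∩ C = 1` acts faithfully on a `p'`-subgroup commuting with
`C_C(E)`. -/
def Linked (p : ℕ) (C A : Subgroup G) : Prop :=
  (A = ⊥ ∨ ElemAb p A) ∧ A ⊓ C = ⊥ ∧ (∀ c ∈ C, ∀ a ∈ A, c * a = a * c) ∧
    ∀ E : Subgroup G, ElemAb p E → A ≤ E → E ⊓ C = ⊥ → ∃ W : Subgroup G, FaithfulOn p E W ∧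
      ∀ w ∈ W, ∀ y ∈ C, (∀ x ∈ E, x * y = y * x) → w * y = y * w

/-- The set `D` is stable under conjugation. -/
def Stable (D : Set (Subgroup G)) : Prop :=
  ∀ L ∈ D, ∀ g : G, L.map (MulAut.conj g).toMonoidHom ∈ D

/-- A conjugation-stable set of subgroups with trivial centres that commute with each other and
have orders divisible by `p`. -/
def CommFam (p : ℕ) (D : Set (Subgroup G)) : Prop :=
  Stable D ∧ (∀ L ∈ D, ∀ M ∈ D, L ≠ M → ∀ x ∈ L, ∀ y ∈ M, x * y = y * x) ∧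
    ∀ L ∈ D, (∀ x ∈ L, (∀ y ∈ L, x * y = y * x) → x = 1) ∧ p ∣ Nat.card L

/-- The conditions under which a conjugation-stable set of components can be eliminated. -/
def Elim (𝕜 : Type v) [Field 𝕜] (p : ℕ) (L : Subgroup G) : Prop :=
  LocN p L ∨ Removable 𝕜 p L ∨ RigidLie p L ∨ ((p : 𝕜) = 0 ∧ JumpSub 𝕜 p L) ∨
    (p = 2 ∧ PauliPSL L)

/-- The components treated in the main theorem, for a prime `l`. -/
def Good (𝕜 : Type v) [Field 𝕜] (p l : ℕ) (L : Subgroup G) : Prop :=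
  LocN p L ∨ GoodComp 𝕜 p l L ∨ ((p : 𝕜) = 0 ∧ JumpSub 𝕜 p L) ∨ (p = 2 ∧ PauliPSL L) ∨
    Explicit 𝕜 p l L ∨ ∃ r : ℕ, r.Prime ∧ ((p ≠ 2 ∧ H148.IsPSL r L) ∨ SemPSL p r L)

end

/-- The composition factors of order divisible by `p` treated in the main theorem, for a prime
`l`. -/
def GoodFac (𝕜 : Type v) [Field 𝕜] (p l : ℕ) (L : Type u) [Group L] : Prop :=
  GoodFactor 𝕜 p l L ∨ LocAutN p L ∨ ((p : 𝕜) = 0 ∧ JumpQD 𝕜 p L) ∨ (p = 2 ∧ PauliPSL L) ∨
    (p ≠ 2 ∧ ∃ r : ℕ, r.Prime ∧ H148.IsPSL r L)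

/-- There is a conjugation-stable set `D` of subgroups of `G` such that all `L ∈ D` satisfy the
condition `Local`, or, for one prime `l`, each `L ∈ D` satisfies `Adic` or `FreeSub` for `l`; and
the components outside `D` satisfy `Elim`. -/
def Mixed (𝕜 : Type v) [Field 𝕜] (p : ℕ) (G : Type u) [Group G] : Prop :=
  ∃ (D : Set (Subgroup G)) (S A X : Set G), Stable D ∧
    ((∀ L ∈ D, Q.Local p S A X L) ∨
      ∃ l : ℕ, l.Prime ∧ ∀ L ∈ D, Q.Adic p l S L ∨ FreeSub p l L) ∧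
    ∀ L ∈ Q.Comp G, L ∈ D ∨ Elim 𝕜 p L

/-- For some prime `l`, all components of `G` satisfy `Good`; or `G` satisfies `Separated`,
`Labelled` or `Mixed`. -/
def Manageable (𝕜 : Type v) [Field 𝕜] (p : ℕ) (G : Type u) [Group G] : Prop :=
  (∃ l : ℕ, l.Prime ∧ ∀ L ∈ Q.Comp G, Good 𝕜 p l L) ∨ Separated 𝕜 p G ∨ Labelled 𝕜 p G ∨
    Mixed 𝕜 p G

end Vale.Agent.P240.R2.H63
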