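import Vale.Agent.P240.R2.H63.Phi
import Vale.Agent.P240.R2.H939.Top

/-!
LEMMA T (P240, crux 11), module TOP: an element `≠ 0` of `T(⊥)` gives a `TopCycle`.
-/

namespace Vale.Agent.P240.LT

open Finsupp Subgroup Vale.Agent.P240.K

universe u v w

section
variable {G : Type u} [Group G] {p : ℕ} {F N : Subgroup G}

/-- the conjugate of `X ≤ F` by a representative of `ω` -/
noncomputable def cj (F N : Subgroup G) (ω : Om F N) (X : Subgroup F) : Subgroup G :=
  (X.map F.subtype).map (MulAut.conj ((Quotient.out ω : N) : G)).toMonoidHom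

lemma mem_cj {ω : Om F N} {X : Subgroup F} {g : G} :
    g ∈ cj F N ω X ↔ ∃ x ∈ X, ((Quotient.out ω : N) : G) * x * ((Quotient.out ω : N) : G)⁻¹ = g := by
  constructor
  · rintro ⟨_, ⟨x, hx, rfl⟩, rfl⟩
    exact ⟨x, hx, rfl⟩
  · rintro ⟨x, hx, rfl⟩
    exact ⟨_, ⟨x, hx, rfl⟩, rfl⟩

lemma out_mk (ω : Om F N) : (QuotientGroup.mk (Quotient.out ω : N) : Om F N) = ω :=
  Quotient.out_eq ω

lemma rl_out {X : Subgroup F} {ω ω' : Om F N} :
    rl F N X ω ω' ↔ ((Quotient.out ω : N) : G)⁻¹ * ((Quotient.out ω' : N) : G) ∈ CN F N X := by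
  conv_lhs => rw [← out_mk ω, ← out_mk ω']
  exact rl_mk _ _

lemma cj_congr {X : Subgroup F} {ω ω' : Om F N} (h : rl F N X ω ω') {Y : Subgroup F}
    (hY : Y ≤ X) : cj F N ω Y = cj F N ω' Y := by
  have h1 := (mem_CN.1 (rl_out.1 h)).2
  ext g
  rw [mem_cj, mem_cj]
  set a : G := ((Quotient.out ω : N) : G)
  set b : G := ((Quotient.out ω' : N) : G)
  have key : ∀ x ∈ Y, a * (x : G) * a⁻¹ = b * x * b⁻¹ := by
    intro x hx
    have h2 := h1 x (hY hx)
    calc a * (x : G) * a⁻¹ = a * ((x : G) * (a⁻¹ * b)) * b⁻¹ := by group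
      _ = a * ((a⁻¹ * b) * (x : G)) * b⁻¹ := by rw [h2]
      _ = b * x * b⁻¹ := by group
  constructor
  · rintro ⟨x, hx, rfl⟩
    exact ⟨x, hx, (key x hx).symm⟩
  · rintro ⟨x, hx, rfl⟩
    exact ⟨x, hx, key x hx⟩

lemma cj_aux (hn : ∀ x ∈ F, ∀ y ∈ N, x * y * x⁻¹ ∈ N) (hFN : F ⊓ N = ⊥) {a b : G} (ha : a ∈ N)
    (hb : b ∈ N) {x y : F} (h : a * (x : G) * a⁻¹ = b * y * b⁻¹) : x = y := by
  -- `x⁻¹ (b⁻¹ a) x = ...`
  have h1 : (x : G) * (y : G)⁻¹ = (a⁻¹ * b) * ((y : G) * (b⁻¹ * a) * (y : G)⁻¹) := by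
    calc (x : G) * (y : G)⁻¹ = a⁻¹ * (a * (x : G) * a⁻¹) * a * (y : G)⁻¹ := by group
      _ = a⁻¹ * (b * y * b⁻¹) * a * (y : G)⁻¹ := by rw [h]
      _ = _ := by group
  have h2 : (x : G) * (y : G)⁻¹ ∈ F ⊓ N := by
    refine Subgroup.mem_inf.2 ⟨mul_mem x.2 (inv_mem y.2), ?_⟩
    rw [h1]
    exact mul_mem (mul_mem (inv_mem ha) hb) (hn _ y.2 _ (mul_mem (inv_mem hb) ha))
  rw [hFN, Subgroup.mem_bot, mul_inv_eq_one] at h2
  exact Subtype.ext h2

lemma cj_inj (hn : ∀ x ∈ F, ∀ y ∈ N, x * y * x⁻¹ ∈ N) (hFN : F ⊓ N = ⊥) {ω ω' : Om F N}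
    {X Y : Subgroup F} (h : cj F N ω X = cj F N ω' Y) : X = Y ∧ rl F N X ω ω' := by
  have h1 : ∀ x ∈ X, x ∈ Y ∧ ((Quotient.out ω : N) : G) * x * ((Quotient.out ω : N) : G)⁻¹ =
      ((Quotient.out ω' : N) : G) * x * ((Quotient.out ω' : N) : G)⁻¹ := by
    intro x hx
    have h2 : ((Quotient.out ω : N) : G) * x * ((Quotient.out ω : N) : G)⁻¹ ∈ cj F N ω' Y := by
      rw [← h]
      exact mem_cj.2 ⟨x, hx, rfl⟩
    obtain ⟨y, hy, hxy⟩ := mem_cj.1 h2
    have h3 : x = y := cj_aux hn hFN (Quotient.out ω).2 (Quotient.out ω').2 hxy.symm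
    subst h3
    exact ⟨hy, hxy.symm⟩
  refine ⟨le_antisymm (fun x hx => (h1 x hx).1) ?_, ?_⟩
  · intro y hy
    have h2 : ((Quotient.out ω' : N) : G) * y * ((Quotient.out ω' : N) : G)⁻¹ ∈ cj F N ω X := by
      rw [h]
      exact mem_cj.2 ⟨y, hy, rfl⟩
    obtain ⟨x, hx, hxy⟩ := mem_cj.1 h2
    have h3 : x = y := cj_aux hn hFN (Quotient.out ω).2 (Quotient.out ω').2 hxy
    subst h3
    exact hx
  · rw [rl_out, mem_CN]
    refine ⟨mul_mem (inv_mem (Quotient.out ω).2) (Quotient.out ω').2, fun x hx => ?_⟩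
    have h2 := (h1 x hx).2
    set a : G := ((Quotient.out ω : N) : G)
    set b : G := ((Quotient.out ω' : N) : G)
    calc (x : G) * (a⁻¹ * b) = a⁻¹ * (a * x * a⁻¹) * b := by group
      _ = a⁻¹ * (b * x * b⁻¹) * b := by rw [h2]
      _ = a⁻¹ * b * x := by group

lemma cj_mono {ω : Om F N} {X Y : Subgroup F} (h : X ≤ Y) : cj F N ω X ≤ cj F N ω Y :=
  Subgroup.map_mono (Subgroup.map_mono h)

lemma cj_inj' {ω : Om F N} {X Y : Subgroup F} (h : cj F N ω X = cj F N ω Y) : X = Y :=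
  Subgroup.map_injective F.subtype_injective
    (Subgroup.map_injective (MulAut.conj ((Quotient.out ω : N) : G)).injective h)

lemma cj_mem (hF : F ∈ ApB p G) {ω : Om F N} {X : Subgroup F} (hX : X ≠ ⊥) :
    cj F N ω X ∈ Ain p (N ⊔ F) := by
  have hF' : F ∈ ApS p G := by
    refine hF.resolve_left ?_
    rintro rfl
    exact hX (Subsingleton.elim _ _)
  refine ⟨⟨?_, ?_, ?_⟩, ?_⟩
  · intro h
    apply hX
    apply cj_inj' (F := F) (N := N) (ω := ω)
    rw [h, cj, Subgroup.map_bot, Subgroup.map_bot]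
  · rintro _ ⟨_, ⟨x, hx, rfl⟩, rfl⟩ _ ⟨_, ⟨y, hy, rfl⟩, rfl⟩
    have h1 : F.subtype x * F.subtype y = F.subtype y * F.subtype x := hF'.2.1 _ x.2 _ y.2
    rw [← map_mul, h1, map_mul]
  · rintro _ ⟨_, ⟨x, hx, rfl⟩, rfl⟩
    rw [← map_pow, hF'.2.2 _ (show (F.subtype x) ∈ F from x.2), map_one]
  · intro g hg
    obtain ⟨x, hx, rfl⟩ := mem_cj.1 hg
    have h1 : ((Quotient.out ω : N) : G) ∈ N ⊔ F := Subgroup.mem_sup_left (Quotient.out ω).2
    exact mul_mem (mul_mem h1 (Subgroup.mem_sup_right x.2)) (inv_mem h1)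

/-- an increasing chain above `B` -/
lemma chain_lt [hp : Fact p.Prime] [Finite G] {B : Subgroup F} {l : List (Subgroup F)}
    (h : List.IsChain (fun X Y => Y ∈ par p X) (B :: l)) : (B :: l).Pairwise (· < ·) := by
  rw [← List.isChain_iff_pairwise]
  refine h.imp fun X Y hY => ?_
  obtain ⟨h1, h2⟩ := mem_par.1 hY
  refine lt_of_le_of_ne h1 ?_
  rintro rfl
  have h3 : 0 < Nat.card X := Nat.card_pos
  have h4 := hp.out.two_le
  nlinarith

lemma chain_last [Finite G] (k : ℕ) {B : Subgroup F} {l : List (Subgroup F)}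
    (hk : Nat.card F = p ^ k * Nat.card B)
    (hl : l.length = k)
    (h : List.IsChain (fun X Y => Y ∈ par p X) (B :: l)) :
    (B :: l).getLast (by simp) = ⊤ := by
  induction k generalizing B l with
  | zero =>
    have h0 : l = [] := List.length_eq_zero_iff.1 hl
    subst h0
    rw [List.getLast_singleton]
    refine Subgroup.eq_top_of_card_eq _ ?_
    rw [hk, pow_zero, one_mul]
  | succ k ih =>
    rcases l with _ | ⟨X, l⟩
    · simp at hl
    · obtain ⟨h1, h2⟩ := List.isChain_cons_cons.1 h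
      rw [List.getLast_cons_cons]
      refine ih ?_ (by simpa using hl) h2
      rw [hk, (mem_par.1 h1).2, pow_succ, mul_assoc]

lemma eraseIdx_rev {α : Type*} (l : List α) {i : ℕ} (hi : i < l.length) :
    l.reverse.eraseIdx i = (l.eraseIdx (l.length - 1 - i)).reverse := by
  rw [List.eraseIdx_eq_take_drop_succ, List.eraseIdx_eq_take_drop_succ, List.take_reverse,
    List.drop_reverse, List.reverse_append]
  congr 3
  · omega
  · omega

/-- **Module TOP**. -/
theorem topCycle_of_T {𝕜 : Type v} [Field 𝕜] [hp : Fact p.Prime] [Finite G] [Fintype (Om F N)]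
    (hF : F ∈ ApB p G) (hN : ¬ p ∣ Nat.card N) (hn : ∀ x ∈ F, ∀ y ∈ N, x * y * x⁻¹ ∈ N) {k : ℕ}
    (hk : Nat.card F = p ^ k) {z : List (Subgroup F) → Om F N → ℚ}
    (hz : z ∈ T ℚ p (rl F N) k ⊥) (hne : z ≠ 0) :
    ∃ (α : Ch 𝕜 (Subgroup G)) (φ : List (Subgroup G)), TopCycle 𝕜 p (N ⊔ F) F α φ := by
  classical
  by_cases hF0 : F = ⊥
  · subst hF0
    refine ⟨single [] 1, [], single_mem_Sp ⟨⟨List.Pairwise.nil, by simp⟩, rfl⟩ _, by simp,
      by simp, Or.inl ⟨rfl, rfl⟩, by simp⟩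
  have hk0 : k ≠ 0 := by
    rintro rfl
    exact hF0 (Subgroup.eq_bot_of_card_eq F (by rw [hk, pow_zero]))
  have hFN : F ⊓ N = ⊥ := by
    refine Subgroup.inf_eq_bot_of_coprime ?_
    rw [hk]
    exact Nat.Coprime.pow_left _ ((Nat.Prime.coprime_iff_not_dvd hp.out).2 hN)
  have hkB : Nat.card F = p ^ k * Nat.card (⊥ : Subgroup F) := by
    rw [hk, Subgroup.card_bot, mul_one]
  set g : List (Subgroup F) → Om F N → Ch ℚ (Subgroup G) :=
    fun l ω => single (l.map (cj F N ω)).reverse (1 : ℚ) with hg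
  set c : Ch ℚ (Subgroup G) := Phi k z g with hc
  -- membership
  have hcS : c ∈ Sp ℚ (fun l => st (Ain p (N ⊔ F)) l ∧ l.length = k) := by
    refine Phi_mem _ k fun l hl ω hzl => ?_
    have hzl' : z l ≠ 0 := fun h => hzl (by rw [h]; rfl)
    obtain ⟨-, h2⟩ := T_supp k hz hzl'
    have h3 := chain_lt h2
    rw [List.pairwise_cons] at h3
    refine single_mem_Sp ⟨⟨?_, ?_⟩, by simp [hl]⟩ _
    · rw [List.pairwise_reverse, List.pairwise_map]
      refine h3.2.imp fun {X Y} hXY => ?_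
      exact lt_of_le_of_ne (cj_mono hXY.le) fun h => hXY.ne (cj_inj' h)
    · intro E hE
      rw [List.mem_reverse, List.mem_map] at hE
      obtain ⟨X, hX, rfl⟩ := hE
      exact cj_mem hF (h3.1 X hX).ne'
  -- boundary
  have hbd : bd c = 0 := by
    rw [hc, Phi_map]
    have h1 : Phi k z (fun l ω => bd (g l ω)) =
        Phi k z (fun l ω => ∑ i ∈ Finset.range k, (-1 : ℚ) ^ i • g (l.eraseIdx (k - 1 - i)) ω) := by
      refine Phi_congr k fun l hl ω => ?_
      congr 1
      rw [hg]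
      simp only
      rw [bd_single, one_smul, List.length_reverse, List.length_map, hl]
      refine Finset.sum_congr rfl fun i hi => ?_
      rw [Finset.mem_range] at hi
      rw [eraseIdx_rev _ (by rw [List.length_map, hl]; exact hi), List.length_map, hl,
        List.eraseIdx_map]
    rw [h1, Phi_sum]
    refine Finset.sum_eq_zero fun i hi => ?_
    rw [Finset.mem_range] at hi
    have h2 : Phi k z (fun l ω => g (l.eraseIdx (k - 1 - i)) ω) = 0 := by
      refine Phi_face k hz (g := g) ?_ (by omega)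
      intro Y _ l hl ω ω' hω
      rw [hg]
      simp only
      congr 2
      exact List.map_congr_left fun Z hZ => cj_congr hω (hl Z hZ)
    rw [h2, smul_zero]
  -- it is not zero
  have hc0 : c ≠ 0 := by
    intro h0
    obtain ⟨l₀, hl₀⟩ := Function.ne_iff.1 hne
    obtain ⟨ω₀, hω₀⟩ := Function.ne_iff.1 hl₀
    obtain ⟨h1, h2⟩ := T_supp k hz (l := l₀) hl₀
    have h3 := congrArg (Finsupp.lapply (R := ℚ) (l₀.map (cj F N ω₀)).reverse) h0
    rw [hc, Phi_map, map_zero, Phi_single k (l₀ := l₀) (ω₀ := ω₀) h1] at h3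
    · rw [hg] at h3
      simp only [Finsupp.lapply_apply, Finsupp.single_eq_same, smul_eq_mul, mul_one] at h3
      exact hω₀ h3
    · intro l hl ω hne'
      by_cases hzl : z l ω = 0
      · rw [hzl, zero_smul]
      rw [hg]
      simp only [Finsupp.lapply_apply]
      rw [Finsupp.single_eq_of_ne, smul_zero]
      intro h4
      have h4' : l₀.map (cj F N ω₀) = l.map (cj F N ω) := List.reverse_injective h4
      -- the last elements
      have h5 : l = l₀ := by
        have : ∀ (l l' : List (Subgroup F)), l'.map (cj F N ω₀) = l.map (cj F N ω) → l = l' := by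
          intro l
          induction l with
          | nil =>
            intro l' h
            exact (List.map_eq_nil_iff.1 h).symm
          | cons X l ih =>
            intro l' h
            rcases l' with _ | ⟨Y, l'⟩
            · simp at h
            · rw [List.map_cons, List.map_cons] at h
              obtain ⟨h6, h7⟩ := List.cons.inj h
              rw [ih l' h7, (cj_inj hn hFN h6).1]
        exact this l l₀ h4'
      subst h5
      have h6 : ω = ω₀ := by
        have h7 := chain_last k hkB h1 h2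
        rcases l with _ | ⟨X, l'⟩
        · exact absurd h1.symm hk0
        · rw [List.getLast_cons_cons] at h7
          have h8 : (⊤ : Subgroup F) ∈ X :: l' := by
            rw [← h7]
            exact List.getLast_mem _
          have h9 := (List.map_inj_left.1 h4') ⊤ h8
          have h10 := (cj_inj hn hFN h9).2
          rw [rl_out] at h10
          have h11 : (QuotientGroup.mk (Quotient.out ω₀ : N) : Om F N) =
              QuotientGroup.mk (Quotient.out ω : N) := by
            rw [QuotientGroup.eq]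
            exact h10
          rw [out_mk, out_mk] at h11
          exact h11.symm
      subst h6
      rcases hne' with h | h
      · exact h rfl
      · exact h rfl
  exact Vale.Agent.P240.R2.H939.topCycle_of_rat hF hN hn hk hcS hbd hc0

end

end Vale.Agent.P240.LT
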