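import Vale.Agent.P240.MathlibUsed
import Mathlib.LinearAlgebra.Matrix.ProjectiveSpecialLinearGroup

/-!
The groups `PSL_n(F)` covered by the main theorem for the prime `2`.
-/

namespace Vale.Agent.P240.R2.H63

open Matrix

/-- `L` is isomorphic to `PSL_n(F)` for some `n` and some finite field `F`, with the following
exceptions: the case that `n` is a power of `2`, `n ≥ 4`, and `|F|` is `5`, `9`, `17`, `25`, `49` or
`81`; and the case that `n = 8` and `|F|` is an odd power of `3`. -/
def PSLTwo (L : Type*) [Group L] : Prop :=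
  ∃ (n : ℕ) (F : Type) (_ : Field F) (_ : Finite F),
    (∀ a : ℕ, 2 ≤ a → n = 2 ^ a → Nat.card F ∉ ({5, 9, 17, 25, 49, 81} : Set ℕ)) ∧
    ¬ (n = 8 ∧ (3 : F) = 0 ∧ Nat.card F % 4 = 3) ∧
    Nonempty (L ≃* ProjectiveSpecialLinearGroup (Fin n) F)

end Vale.Agent.P240.R2.H63
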